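import Mathlib

set_option autoImplicit false

namespace Crest.Agent.H8ED

open Finset

/-- In a semicomplete weighted set some point is related to half of the weight. -/
theorem clique_half {X : Type} (ν : X → ℝ) (hν : ∀ x, 0 ≤ ν x) (r : X → X → Prop)
    [DecidableRel r] (B : Finset X) (hB : ∀ x ∈ B, ∀ y ∈ B, r x y ∨ r y x)
    (hpos : 0 < ∑ x ∈ B, ν x) :
    ∃ p ∈ B, ∑ x ∈ B, ν x ≤ 2 * ∑ x ∈ B with r x p, ν x := by
  by_contra hcon
  push Not at hcon
  set S := ∑ x ∈ B, ν x with hS
  have hex : ∃ p ∈ B, 0 < ν p := by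
    by_contra h
    push Not at h
    have : S ≤ 0 := Finset.sum_nonpos h
    linarith
  have h1 : ∑ p ∈ B, ν p * (2 * ∑ x ∈ B with r x p, ν x) < ∑ p ∈ B, ν p * S := by
    apply Finset.sum_lt_sum
    · intro p hp
      exact mul_le_mul_of_nonneg_left (hcon p hp).le (hν p)
    · obtain ⟨p, hp, hp0⟩ := hex
      exact ⟨p, hp, mul_lt_mul_of_pos_left (hcon p hp) hp0⟩
  have h2 : ∑ p ∈ B, ν p * S ≤
      ∑ p ∈ B, ∑ x ∈ B, ((if r x p then ν p * ν x else 0) + (if r p x then ν p * ν x else 0)) := by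
    apply Finset.sum_le_sum
    intro p hp
    rw [hS, Finset.mul_sum]
    apply Finset.sum_le_sum
    intro x hx
    have h0 : 0 ≤ ν p * ν x := mul_nonneg (hν p) (hν x)
    rcases hB x hx p hp with h | h
    · rw [if_pos h]; split_ifs <;> linarith
    · rw [if_pos h]; split_ifs <;> linarith
  have h3 : ∑ p ∈ B, ∑ x ∈ B, (if r p x then ν p * ν x else 0) =
      ∑ p ∈ B, ∑ x ∈ B, (if r x p then ν p * ν x else 0) := by
    rw [Finset.sum_comm]
    apply Finset.sum_congr rfl
    intro p _
    apply Finset.sum_congr rfl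
    intro x _
    rw [mul_comm]
  have h4 : ∑ p ∈ B, ν p * (2 * ∑ x ∈ B with r x p, ν x) =
      2 * ∑ p ∈ B, ∑ x ∈ B, (if r x p then ν p * ν x else 0) := by
    rw [Finset.mul_sum]
    apply Finset.sum_congr rfl
    intro p _
    rw [Finset.sum_filter, mul_left_comm, Finset.mul_sum]
    congr 1
    apply Finset.sum_congr rfl
    intro x _
    split_ifs <;> simp
  simp only [Finset.sum_add_distrib] at h2
  linarith

/-- Greedy window lemma. -/
theorem window {X : Type} [Fintype X] (ν : X → ℝ) (hν : ∀ x, 0 ≤ ν x) (h1 : ∑ x, ν x ≤ 1)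
    (r : X → X → Prop) (ε : ℝ) (hε : 0 < ε) (l : ℕ) (hl : 2 < l * ε) :
    ∃ P : Finset X, P.card ≤ l ∧ ∀ B : Finset X, (∀ x ∈ B, ∀ y ∈ B, r x y ∨ r y x) →
      (∀ x ∈ B, ∀ p ∈ P, ¬ r x p) → ∑ x ∈ B, ν x ≤ ε := by
  classical
  have key : ∀ k : ℕ, ∃ P : Finset X, P.card ≤ k ∧
      ((∀ B : Finset X, (∀ x ∈ B, ∀ y ∈ B, r x y ∨ r y x) →
        (∀ x ∈ B, ∀ p ∈ P, ¬ r x p) → ∑ x ∈ B, ν x ≤ ε) ∨
       k * ε ≤ 2 * ∑ x with (∃ p ∈ P, r x p), ν x) := by
    intro k
    induction k with
    | zero => exact ⟨∅, by simp, Or.inr (by simp)⟩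
    | succ k ih =>
      obtain ⟨P, hP, h⟩ := ih
      by_cases hg : (∀ B : Finset X, (∀ x ∈ B, ∀ y ∈ B, r x y ∨ r y x) →
        (∀ x ∈ B, ∀ p ∈ P, ¬ r x p) → ∑ x ∈ B, ν x ≤ ε)
      · exact ⟨P, by omega, Or.inl hg⟩
      · have h := h.resolve_left hg
        push Not at hg
        obtain ⟨B, hB, hBP, hBε⟩ := hg
        obtain ⟨p, hp, hhalf⟩ := clique_half ν hν r B hB (hε.trans hBε)
        refine ⟨insert p P, (Finset.card_insert_le _ _).trans (by omega), Or.inr ?_⟩
        have hdisj : Disjoint (univ.filter (fun x => ∃ p ∈ P, r x p))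
            (B.filter (fun x => r x p)) := by
          rw [Finset.disjoint_left]
          intro x hx hx'
          simp only [Finset.mem_filter, Finset.mem_univ, true_and] at hx hx'
          obtain ⟨q, hq, hxq⟩ := hx
          exact hBP x hx'.1 q hq hxq
        have hsub : (univ.filter (fun x => ∃ p ∈ P, r x p)) ∪ (B.filter (fun x => r x p)) ⊆
            univ.filter (fun x => ∃ q ∈ insert p P, r x q) := by
          intro x hx
          simp only [Finset.mem_union, Finset.mem_filter, Finset.mem_univ, true_and,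
            Finset.mem_insert] at hx ⊢
          rcases hx with ⟨q, hq, hxq⟩ | ⟨_, hxp⟩
          · exact ⟨q, Or.inr hq, hxq⟩
          · exact ⟨p, Or.inl rfl, hxp⟩
        have hle := Finset.sum_le_sum_of_subset_of_nonneg (f := ν) hsub (fun x _ _ => hν x)
        rw [Finset.sum_union hdisj] at hle
        push_cast
        linarith
  obtain ⟨P, hP, h⟩ := key l
  refine ⟨P, hP, h.resolve_right ?_⟩
  intro h
  have : ∑ x with (∃ p ∈ P, r x p), ν x ≤ ∑ x, ν x :=
    Finset.sum_le_sum_of_subset_of_nonneg (Finset.filter_subset _ _) (fun x _ _ => hν x)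
  linarith

/-- A set of density at most one half contains the pair regions only along a small cover. -/
theorem cover (V : Type) [Fintype V] [DecidableEq V] (n : ℕ) [NeZero n]
    (U : Finset (V → Fin n)) (hU : 2 * U.card ≤ Fintype.card (V → Fin n)) :
    ∃ S : Finset V, S.card ≤ 2 * (n ^ 2 + 1) ∧
      ∀ c ∉ S, ∀ c' ∉ S, ∃ ω : V → Fin n, ω c = 0 ∧ ω c' = 0 ∧ ω ∉ U := by
  classical
  set N := Fintype.card (V → Fin n) with hN
  have hhalf : ∀ E : Finset (V → Fin n), (∀ ω, ω ∉ U → ω ∈ E) → N ≤ 2 * E.card := by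
    intro E hE
    have h1 : Uᶜ ⊆ E := fun ω hω => hE ω (Finset.mem_compl.1 hω)
    have h2 := Finset.card_le_card h1
    have h3 := Finset.card_add_card_compl U
    omega
  have key : ∀ l : ℕ, ∃ S : Finset V, S.card ≤ 2 * l ∧
      ((∀ c ∉ S, ∀ c' ∉ S, ∃ ω : V → Fin n, ω c = 0 ∧ ω c' = 0 ∧ ω ∉ U) ∨
       ∃ E : Finset (V → Fin n), (∀ ω ω' : V → Fin n, (∀ v ∈ S, ω v = ω' v) → ω ∈ E → ω' ∈ E) ∧
        (∀ ω, ω ∉ U → ω ∈ E) ∧ 2 * n ^ 2 * E.card + l * N ≤ 2 * n ^ 2 * N) := by
    intro l
    induction l with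
    | zero => exact ⟨∅, by simp, Or.inr ⟨univ, by simp, by simp, by simp [hN]⟩⟩
    | succ l ih =>
      obtain ⟨S, hS, h⟩ := ih
      by_cases hg : (∀ c ∉ S, ∀ c' ∉ S, ∃ ω : V → Fin n, ω c = 0 ∧ ω c' = 0 ∧ ω ∉ U)
      · exact ⟨S, by omega, Or.inl hg⟩
      · obtain ⟨E, hE1, hE2, hE3⟩ := h.resolve_left hg
        push Not at hg
        obtain ⟨c, hc, c', hc', hcc⟩ := hg
        refine ⟨insert c (insert c' S), ?_, Or.inr
          ⟨E.filter (fun ω => ¬ (ω c = 0 ∧ ω c' = 0)), ?_, ?_, ?_⟩⟩
        · have h1 := Finset.card_insert_le c (insert c' S)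
          have h2 := Finset.card_insert_le c' S
          omega
        · intro ω ω' hωω hω
          simp only [Finset.mem_filter] at hω ⊢
          refine ⟨hE1 ω ω' (fun v hv => hωω v (by simp [hv])) hω.1, ?_⟩
          rw [← hωω c (by simp), ← hωω c' (by simp)]
          exact hω.2
        · intro ω hω
          simp only [Finset.mem_filter]
          exact ⟨hE2 ω hω, fun h => hω (hcc ω h.1 h.2)⟩
        · have hsplit := Finset.card_filter_add_card_filter_not (s := E)
            (fun ω : V → Fin n => ω c = 0 ∧ ω c' = 0)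
          have hinj : E.card ≤ ((E.filter (fun ω : V → Fin n => ω c = 0 ∧ ω c' = 0)) ×ˢ
              (univ : Finset (Fin n × Fin n))).card := by
            apply Finset.card_le_card_of_injOn
              (fun ω => (Function.update (Function.update ω c 0) c' 0, (ω c, ω c')))
            · intro ω hω
              simp only [Finset.coe_product, Finset.coe_filter, Finset.coe_univ, Set.mem_prod,
                Set.mem_ofPred_eq, Set.mem_univ, and_true]
              refine ⟨hE1 ω _ (fun v hv => ?_) hω, ?_, by simp⟩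
              · have h1 : v ≠ c := fun h => hc (h ▸ hv)
                have h2 : v ≠ c' := fun h => hc' (h ▸ hv)
                simp [Function.update_of_ne h1, Function.update_of_ne h2]
              · by_cases h : c = c'
                · subst h; simp
                · simp [Function.update_of_ne h]
            · intro ω _ ω' _ h
              simp only [Prod.mk.injEq] at h
              obtain ⟨h1, h2, h3⟩ := h
              funext v
              by_cases hv : v = c
              · rw [hv]; exact h2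
              by_cases hv' : v = c'
              · rw [hv']; exact h3
              have := congrFun h1 v
              simpa [Function.update_of_ne hv, Function.update_of_ne hv'] using this
          rw [Finset.card_product, Finset.card_univ, Fintype.card_prod, Fintype.card_fin] at hinj
          have h5 := hhalf E hE2
          set F := (E.filter (fun ω : V → Fin n => ω c = 0 ∧ ω c' = 0)).card
          set G := (E.filter (fun ω : V → Fin n => ¬ (ω c = 0 ∧ ω c' = 0))).card
          have h6 : 2 * n ^ 2 * E.card = 2 * n ^ 2 * G + 2 * (F * (n * n)) := by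
            rw [← hsplit]; ring
          have h7 : (l + 1) * N = l * N + N := by ring
          omega
  obtain ⟨S, hS, h⟩ := key (n ^ 2 + 1)
  refine ⟨S, hS, h.resolve_right ?_⟩
  rintro ⟨E, -, hE2, hE3⟩
  have h5 := hhalf E hE2
  have hNpos : 0 < N := Fintype.card_pos
  have h6 : n ^ 2 * N ≤ n ^ 2 * (2 * E.card) := Nat.mul_le_mul_left _ h5
  have h7 : n ^ 2 * (2 * E.card) = 2 * n ^ 2 * E.card := by ring
  have h8 : (n ^ 2 + 1) * N = n ^ 2 * N + N := by ring
  have h9 : 2 * n ^ 2 * N = 2 * (n ^ 2 * N) := by ring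
  omega

/-- An explicit oriented graph in which every small set is beaten by a common vertex. -/
theorem beats (s : ℕ) : ∃ (V : Type) (_ : Fintype V) (_ : DecidableEq V) (bt : V → V → Prop),
    (∀ c c', bt c c' → ¬ bt c' c) ∧ ∀ S : Finset V, S.card ≤ s → ∃ c, ∀ c' ∈ S, bt c c' := by
  classical
  refine ⟨Fin (s * s + 1) × {B : Finset (Fin (s * s + 1)) // B.card ≤ s}, inferInstance,
    inferInstance, fun c c' => c'.1 ∈ c.2.1 ∧ c.1 ∉ c'.2.1, fun c c' h h' => h'.2 h.1, ?_⟩
  intro S hS
  have h1 : (S.biUnion (fun v => v.2.1)).card ≤ s * s := by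
    refine (Finset.card_biUnion_le_card_mul S _ s (fun v _ => v.2.2)).trans ?_
    exact Nat.mul_le_mul_right _ hS
  have h2 : ∃ l : Fin (s * s + 1), l ∉ S.biUnion (fun v => v.2.1) := by
    by_contra h
    push Not at h
    have : (univ : Finset (Fin (s * s + 1))) ⊆ S.biUnion (fun v => v.2.1) := fun x _ => h x
    have := Finset.card_le_card this
    simp only [Finset.card_univ, Fintype.card_fin] at this
    omega
  obtain ⟨l, hl⟩ := h2
  refine ⟨(l, ⟨S.image Prod.fst, Finset.card_image_le.trans hS⟩), fun c' hc' => ⟨?_, ?_⟩⟩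
  · exact Finset.mem_image_of_mem _ hc'
  · intro h
    exact hl (Finset.mem_biUnion.2 ⟨c', hc', h⟩)

/-- The one-level gadget. -/
theorem gadget (I : Type) [Fintype I] (n : ℕ) (hn : 0 < n) :
    ∃ (Ω₁ V : Type) (_ : Fintype Ω₁) (_ : Nonempty Ω₁) (_ : Fintype V)
      (R : V → Finset Ω₁) (bt : V → V → Prop),
      (∀ c c', bt c c' → ¬ bt c' c) ∧ (∀ c, (R c).card * n ≤ Fintype.card Ω₁) ∧
      ∀ U : I → Finset Ω₁, ∃ c, ∀ i, 2 * (U i).card ≤ Fintype.card Ω₁ →
        ∀ c', ¬ bt c c' → ∃ ω, ω ∈ R c ∧ ω ∈ R c' ∧ ω ∉ U i := by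
  classical
  have : NeZero n := ⟨hn.ne'⟩
  obtain ⟨V, iV, dV, bt, hasym, hbt⟩ := beats (Fintype.card I * (2 * (n ^ 2 + 1)))
  refine ⟨V → Fin n, V, inferInstance, inferInstance, iV,
    fun c => univ.filter (fun ω => ω c = 0), bt, hasym, ?_, ?_⟩
  · intro c
    have : ((univ.filter (fun ω : V → Fin n => ω c = 0)) ×ˢ (univ : Finset (Fin n))).card ≤
        (univ : Finset (V → Fin n)).card := by
      apply Finset.card_le_card_of_injOn (fun p => Function.update p.1 c p.2)
      · intro p _; simp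
      · rintro ⟨ω, i⟩ h ⟨ω', i'⟩ h' heq
        simp only [Finset.coe_product, Finset.coe_filter, Finset.mem_univ, true_and,
          Finset.coe_univ, Set.mem_prod, Set.mem_ofPred_eq, Set.mem_univ, and_true] at h h'
        have h1 := congrFun heq c
        simp only [Function.update_self] at h1
        refine Prod.ext ?_ h1
        funext v
        by_cases hv : v = c
        · rw [hv]; exact h.trans h'.symm
        · have := congrFun heq v
          simpa [Function.update_of_ne hv] using this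
    simpa [Finset.card_product] using this
  · intro U
    have hS : ∀ i, ∃ S : Finset V, S.card ≤ 2 * (n ^ 2 + 1) ∧
        (2 * (U i).card ≤ Fintype.card (V → Fin n) →
          ∀ c ∉ S, ∀ c' ∉ S, ∃ ω : V → Fin n, ω c = 0 ∧ ω c' = 0 ∧ ω ∉ U i) := by
      intro i
      by_cases h : 2 * (U i).card ≤ Fintype.card (V → Fin n)
      · obtain ⟨S, h1, h2⟩ := cover V n (U i) h
        exact ⟨S, h1, fun _ => h2⟩
      · exact ⟨∅, by simp, fun h' => (h h').elim⟩
    choose S hS1 hS2 using hS
    obtain ⟨c, hc⟩ := hbt (univ.biUnion S)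
      ((Finset.card_biUnion_le_card_mul _ _ _ (fun i _ => hS1 i)).trans (by simp))
    refine ⟨c, fun i hi c' hc' => ?_⟩
    have h1 : c ∉ S i := fun h =>
      hasym c c (hc c (Finset.mem_biUnion.2 ⟨i, Finset.mem_univ _, h⟩))
        (hc c (Finset.mem_biUnion.2 ⟨i, Finset.mem_univ _, h⟩))
    have h2 : c' ∉ S i := fun h => hc' (hc c' (Finset.mem_biUnion.2 ⟨i, Finset.mem_univ _, h⟩))
    obtain ⟨ω, h3, h4, h5⟩ := hS2 i hi c h1 c' h2
    exact ⟨ω, by simp [h3], by simp [h4], h5⟩

end Crest.Agent.H8ED
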