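import Mathlib
import Crest.Agent.H8.EntDualA

set_option autoImplicit false

namespace Crest.Agent.H8ED

open Finset

/-- `α` agrees with `a` on some level-`j` witness region of the term `t`. -/
def low {Ω T A : Type} (W : T → ℕ → Set Ω → Prop) (j : ℕ) (α : Ω → A) (t : T) (a : Ω → A) :
    Prop :=
  ∃ R, W t j R ∧ ∀ ω ∈ R, α ω = a ω

def Primal {Ω T : Type} [Fintype Ω] (W : T → ℕ → Set Ω → Prop) (m : ℕ) : Prop :=
  ∀ U : Finset Ω, 2 ^ (m + 1) * U.card ≤ Fintype.card Ω →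
    ∃ t, ∀ j ≤ m, ∀ R, W t j R → ∃ ω ∈ R, ω ∉ U

def Dual {Ω T : Type} [Fintype Ω] (W : T → ℕ → Set Ω → Prop) (m : ℕ) (δ η : ℝ) : Prop :=
  ∀ (A X : Type) [Fintype X] (t : X → T) (a : X → Ω → A) (ν : X → ℝ),
    (∀ x, 0 ≤ ν x) → ∑ x, ν x ≤ 1 →
    ∃ Λ : Finset (Ω × A), (Λ.card : ℝ) ≤ m * δ * Fintype.card Ω ∧
      ∀ α β : Ω → A, (∀ p ∈ Λ, α p.1 = p.2 ↔ β p.1 = p.2) →
        ∀ B : Finset X, (∀ x ∈ B, ∃ j < m, ¬ low W (j + 1) α (t x) (a x) ∧
          low W j β (t x) (a x)) → ∑ x ∈ B, ν x ≤ m * η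

/-- The product step. -/
def stepW {Ω T Ω₁ V : Type} (W : T → ℕ → Set Ω → Prop) (m : ℕ) (R : V → Finset Ω₁)
    (bt : V → V → Prop) : T × V → ℕ → Set (Ω × Ω₁) → Prop := fun tc j Q =>
  (j < m ∧ ∃ S, W tc.1 j S ∧ Q = S ×ˢ (Set.univ : Set Ω₁)) ∨
  (j = m ∧ ∃ S, W tc.1 m S ∧ Q = S ×ˢ (R tc.2 : Set Ω₁)) ∨
  (j = m + 1 ∧ ∃ S c', W tc.1 m S ∧ ¬ bt tc.2 c' ∧
    Q = S ×ˢ ((R tc.2 : Set Ω₁) ∩ (R c' : Set Ω₁)))

theorem step_zero {Ω T Ω₁ V : Type} (W : T → ℕ → Set Ω → Prop) (m : ℕ) (R : V → Finset Ω₁)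
    (bt : V → V → Prop) (h : ∀ t, ∃ S, W t 0 S) : ∀ t, ∃ S, stepW W m R bt t 0 S := by
  rintro ⟨t, c⟩
  obtain ⟨S, hS⟩ := h t
  rcases Nat.eq_zero_or_pos m with hm | hm
  · subst hm
    exact ⟨_, Or.inr (Or.inl ⟨rfl, S, hS, rfl⟩)⟩
  · exact ⟨_, Or.inl ⟨hm, S, hS, rfl⟩⟩

theorem step_primal {Ω T Ω₁ V : Type} [Fintype Ω] [Fintype Ω₁] [Nonempty Ω₁]
    (W : T → ℕ → Set Ω → Prop) (m : ℕ) (R : V → Finset Ω₁) (bt : V → V → Prop)
    (hasym : ∀ c c', bt c c' → ¬ bt c' c)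
    (hG : ∀ U : Ω → Finset Ω₁, ∃ c, ∀ i, 2 * (U i).card ≤ Fintype.card Ω₁ →
        ∀ c', ¬ bt c c' → ∃ ω, ω ∈ R c ∧ ω ∈ R c' ∧ ω ∉ U i)
    (hP : Primal W m) : Primal (stepW W m R bt) (m + 1) := by
  classical
  intro U hU
  set Uf : Ω → Finset Ω₁ := fun ω => univ.filter (fun ω₁ => (ω, ω₁) ∈ U) with hUf
  set Z : Finset Ω := univ.filter (fun ω => Fintype.card Ω₁ < 2 * (Uf ω).card) with hZ
  have hcard : U.card = ∑ ω, (Uf ω).card := by
    rw [Finset.card_eq_sum_card_fiberwise (f := Prod.fst) (t := univ) (by simp)]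
    apply Finset.sum_congr rfl
    intro ω _
    apply Finset.card_bij (fun p _ => p.2)
    · rintro ⟨x, y⟩ h
      simp only [Finset.mem_filter] at h
      obtain ⟨h1, h2⟩ := h
      subst h2
      simp [hUf, h1]
    · rintro ⟨x, y⟩ h ⟨x', y'⟩ h' heq
      simp only [Finset.mem_filter] at h h'
      simp only at heq
      exact Prod.ext (h.2.trans h'.2.symm) heq
    · intro y hy
      simp only [hUf, Finset.mem_filter, Finset.mem_univ, true_and] at hy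
      exact ⟨(ω, y), by simp [hy], rfl⟩
  have hZc : Z.card * Fintype.card Ω₁ ≤ 2 * U.card := by
    rw [hcard, Finset.mul_sum]
    calc Z.card * Fintype.card Ω₁ = ∑ _ω ∈ Z, Fintype.card Ω₁ := by simp
      _ ≤ ∑ ω ∈ Z, 2 * (Uf ω).card := by
          apply Finset.sum_le_sum
          intro ω hω
          simp only [hZ, Finset.mem_filter, Finset.mem_univ, true_and] at hω
          exact hω.le
      _ ≤ ∑ ω, 2 * (Uf ω).card := Finset.sum_le_sum_of_subset (Finset.subset_univ _)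
  have hpos : 0 < Fintype.card Ω₁ := Fintype.card_pos
  have hZ2 : 2 ^ (m + 1) * Z.card ≤ Fintype.card Ω := by
    rw [Fintype.card_prod] at hU
    apply Nat.le_of_mul_le_mul_right _ hpos
    calc 2 ^ (m + 1) * Z.card * Fintype.card Ω₁ = 2 ^ (m + 1) * (Z.card * Fintype.card Ω₁) := by
          ring
      _ ≤ 2 ^ (m + 1) * (2 * U.card) := Nat.mul_le_mul_left _ hZc
      _ = 2 ^ (m + 1 + 1) * U.card := by ring
      _ ≤ _ := hU
  obtain ⟨t, ht⟩ := hP Z hZ2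
  obtain ⟨c, hc⟩ := hG Uf
  have main : ∀ j ≤ m, ∀ S, W t j S → ∀ c', ¬ bt c c' →
      ∃ ω ∈ S, ∃ ω₁, ω₁ ∈ R c ∧ ω₁ ∈ R c' ∧ (ω, ω₁) ∉ U := by
    intro j hj S hS c' hc'
    obtain ⟨ω, hω, hωZ⟩ := ht j hj S hS
    simp only [hZ, Finset.mem_filter, Finset.mem_univ, true_and, not_lt] at hωZ
    obtain ⟨ω₁, h1, h2, h3⟩ := hc ω hωZ c' hc'
    exact ⟨ω, hω, ω₁, h1, h2, by simpa [hUf] using h3⟩
  have hcc : ¬ bt c c := fun h => hasym c c h h
  refine ⟨(t, c), fun j _ Q hQ => ?_⟩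
  rcases hQ with ⟨hj, S, hS, rfl⟩ | ⟨_, S, hS, rfl⟩ | ⟨_, S, c', hS, hc', rfl⟩
  · obtain ⟨ω, hω, ω₁, _, _, h3⟩ := main j hj.le S hS c hcc
    exact ⟨(ω, ω₁), ⟨hω, trivial⟩, h3⟩
  · obtain ⟨ω, hω, ω₁, h1, _, h3⟩ := main m le_rfl S hS c hcc
    exact ⟨(ω, ω₁), ⟨hω, h1⟩, h3⟩
  · obtain ⟨ω, hω, ω₁, h1, h2, h3⟩ := main m le_rfl S hS c' hc'
    exact ⟨(ω, ω₁), ⟨hω, h1, h2⟩, h3⟩

theorem step_dual {Ω T Ω₁ V : Type} [Fintype Ω] [Fintype Ω₁] [Fintype (Set Ω)]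
    (W : T → ℕ → Set Ω → Prop) (m : ℕ) (R : V → Finset Ω₁) (bt : V → V → Prop)
    (hasym : ∀ c c', bt c c' → ¬ bt c' c) (δ η : ℝ) (hη : 0 < η) (l n : ℕ)
    (hl : 2 < l * (η / Fintype.card (Set Ω)))
    (hn : (Fintype.card (Set Ω) : ℝ) * l ≤ δ * n) (hn0 : 0 < n)
    (hR : ∀ c, (R c).card * n ≤ Fintype.card Ω₁)
    (hD : Dual W m δ η) : Dual (stepW W m R bt) (m + 1) δ η := by
  classical
  intro A X _ t a ν hν hν1
  obtain ⟨Λ₀, hΛ₀, hold⟩ := hD (Ω₁ → A) X (fun x => (t x).1) (fun x ω ω₁ => a x (ω, ω₁)) ν hν hν1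
  have hDpos : (0 : ℝ) < Fintype.card (Set Ω) := by
    exact_mod_cast (Fintype.card_pos (α := Set Ω))
  have hwin : ∀ S : Set Ω, ∃ P : Finset X, P.card ≤ l ∧ ∀ B : Finset X,
      (∀ x ∈ B, ∀ y ∈ B,
        ((∀ ω ∈ S, ∀ ω₁ ∈ R (t x).2, ω₁ ∈ R (t y).2 → a x (ω, ω₁) = a y (ω, ω₁)) ∧
          ¬ bt (t x).2 (t y).2) ∨
        ((∀ ω ∈ S, ∀ ω₁ ∈ R (t y).2, ω₁ ∈ R (t x).2 → a y (ω, ω₁) = a x (ω, ω₁)) ∧
          ¬ bt (t y).2 (t x).2)) →
      (∀ x ∈ B, ∀ p ∈ P,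
        ¬ ((∀ ω ∈ S, ∀ ω₁ ∈ R (t x).2, ω₁ ∈ R (t p).2 → a x (ω, ω₁) = a p (ω, ω₁)) ∧
          ¬ bt (t x).2 (t p).2)) → ∑ x ∈ B, ν x ≤ η / Fintype.card (Set Ω) := fun S =>
    window ν hν hν1 (fun x y => (∀ ω ∈ S, ∀ ω₁ ∈ R (t x).2, ω₁ ∈ R (t y).2 →
      a x (ω, ω₁) = a y (ω, ω₁)) ∧ ¬ bt (t x).2 (t y).2) _ (div_pos hη hDpos) l hl
  choose P hP1 hP2 using hwin
  set Λ₁ : Finset ((Ω × Ω₁) × A) :=
    (Λ₀ ×ˢ (univ : Finset Ω₁)).image (fun q => ((q.1.1, q.2), q.1.2 q.2)) with hΛ₁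
  set Λ₂ : Finset ((Ω × Ω₁) × A) :=
    (univ : Finset (Set Ω)).biUnion (fun S => (P S).biUnion (fun p =>
      ((univ : Finset Ω) ×ˢ R (t p).2).image (fun w => (w, a p w)))) with hΛ₂
  refine ⟨Λ₁ ∪ Λ₂, ?_, ?_⟩
  · have h1 : Λ₁.card ≤ Λ₀.card * Fintype.card Ω₁ := by
      refine Finset.card_image_le.trans ?_
      simp [Finset.card_product]
    have h2 : Λ₂.card * n ≤ Fintype.card (Set Ω) * l * (Fintype.card Ω * Fintype.card Ω₁) := by
      calc Λ₂.card * n ≤ (∑ S : Set Ω, ∑ p ∈ P S, Fintype.card Ω * (R (t p).2).card) * n := by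
            apply Nat.mul_le_mul_right
            refine Finset.card_biUnion_le.trans (Finset.sum_le_sum fun S _ => ?_)
            refine Finset.card_biUnion_le.trans (Finset.sum_le_sum fun p _ => ?_)
            refine Finset.card_image_le.trans ?_
            simp [Finset.card_product]
        _ = ∑ S : Set Ω, ∑ p ∈ P S, Fintype.card Ω * ((R (t p).2).card * n) := by
            rw [Finset.sum_mul]
            refine Finset.sum_congr rfl fun S _ => ?_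
            rw [Finset.sum_mul]
            exact Finset.sum_congr rfl fun p _ => by ring
        _ ≤ ∑ _S : Set Ω, l * (Fintype.card Ω * Fintype.card Ω₁) := by
            refine Finset.sum_le_sum fun S _ => ?_
            calc ∑ p ∈ P S, Fintype.card Ω * ((R (t p).2).card * n)
                ≤ ∑ _p ∈ P S, Fintype.card Ω * Fintype.card Ω₁ :=
                  Finset.sum_le_sum fun p _ => Nat.mul_le_mul_left _ (hR _)
              _ = (P S).card * (Fintype.card Ω * Fintype.card Ω₁) := by simp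
              _ ≤ _ := Nat.mul_le_mul_right _ (hP1 S)
        _ = _ := by simp [mul_assoc]
    have h3 : ((Λ₁ ∪ Λ₂).card : ℝ) ≤ Λ₁.card + Λ₂.card := by
      exact_mod_cast Finset.card_union_le _ _
    have h1' : (Λ₁.card : ℝ) ≤ Λ₀.card * Fintype.card Ω₁ := by exact_mod_cast h1
    have h2' : (Λ₂.card : ℝ) * n ≤
        Fintype.card (Set Ω) * l * (Fintype.card Ω * Fintype.card Ω₁) := by exact_mod_cast h2
    have hn0' : (0 : ℝ) < n := by exact_mod_cast hn0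
    have h4 : (Λ₂.card : ℝ) ≤ δ * (Fintype.card Ω * Fintype.card Ω₁) := by
      apply le_of_mul_le_mul_right _ hn0'
      calc (Λ₂.card : ℝ) * n ≤ _ := h2'
        _ ≤ δ * n * (Fintype.card Ω * Fintype.card Ω₁) :=
            mul_le_mul_of_nonneg_right hn (by positivity)
        _ = _ := by ring
    have h5 : (Λ₀.card : ℝ) * Fintype.card Ω₁ ≤ m * δ * Fintype.card Ω * Fintype.card Ω₁ :=
      mul_le_mul_of_nonneg_right hΛ₀ (by positivity)
    rw [Fintype.card_prod]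
    push_cast
    nlinarith
  · intro α β hαβ B hB
    set Bo : Finset X := B.filter (fun x => ∃ j < m,
      ¬ low W (j + 1) (fun ω ω₁ => α (ω, ω₁)) (t x).1 (fun ω ω₁ => a x (ω, ω₁)) ∧
        low W j (fun ω ω₁ => β (ω, ω₁)) (t x).1 (fun ω ω₁ => a x (ω, ω₁))) with hBo
    set Bn : Set Ω → Finset X := fun S => B.filter (fun x => W (t x).1 m S ∧
      (∀ ω ∈ S, ∀ ω₁ ∈ R (t x).2, β (ω, ω₁) = a x (ω, ω₁)) ∧
      ¬ low (stepW W m R bt) (m + 1) α (t x) (a x)) with hBn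
    have hBo_le : ∑ x ∈ Bo, ν x ≤ m * η := by
      refine hold (fun ω ω₁ => α (ω, ω₁)) (fun ω ω₁ => β (ω, ω₁)) ?_ Bo ?_
      · intro p hp
        have : ∀ ω₁, α (p.1, ω₁) = p.2 ω₁ ↔ β (p.1, ω₁) = p.2 ω₁ := fun ω₁ =>
          hαβ ((p.1, ω₁), p.2 ω₁) (Finset.mem_union_left _ (Finset.mem_image.2
            ⟨(p, ω₁), by simp [hp], rfl⟩))
        simp only [funext_iff]
        exact forall_congr' this
      · intro x hx
        exact (Finset.mem_filter.1 hx).2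
    have hBn_le : ∀ S, ∑ x ∈ Bn S, ν x ≤ η / Fintype.card (Set Ω) := by
      intro S
      apply hP2 S
      · intro x hx y hy
        obtain ⟨-, -, hx2, -⟩ := Finset.mem_filter.1 hx
        obtain ⟨-, -, hy2, -⟩ := Finset.mem_filter.1 hy
        by_cases h : bt (t x).2 (t y).2
        · right
          exact ⟨fun ω hω ω₁ h1 h2 => (hy2 ω hω ω₁ h1).symm.trans (hx2 ω hω ω₁ h2),
            hasym _ _ h⟩
        · left
          exact ⟨fun ω hω ω₁ h1 h2 => (hx2 ω hω ω₁ h1).symm.trans (hy2 ω hω ω₁ h2), h⟩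
      · rintro x hx p hp ⟨hcons, hnb⟩
        obtain ⟨-, hx1, hx2, hx3⟩ := Finset.mem_filter.1 hx
        apply hx3
        refine ⟨_, Or.inr (Or.inr ⟨rfl, S, (t p).2, hx1, hnb, rfl⟩), ?_⟩
        rintro ⟨ω, ω₁⟩ ⟨hω, h1, h2⟩
        have hmem : ((ω, ω₁), a p (ω, ω₁)) ∈ Λ₁ ∪ Λ₂ := by
          refine Finset.mem_union_right _ (Finset.mem_biUnion.2 ⟨S, Finset.mem_univ _,
            Finset.mem_biUnion.2 ⟨p, hp, Finset.mem_image.2 ⟨(ω, ω₁), ?_, rfl⟩⟩⟩)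
          exact Finset.mem_product.2 ⟨Finset.mem_univ _, h2⟩
        have h3 := hcons ω hω ω₁ h1 h2
        have h4 := hx2 ω hω ω₁ h1
        rw [h3]
        exact (hαβ _ hmem).2 (h4.trans h3)
    have hcover : ∀ x ∈ B, x ∈ Bo ∨ ∃ S, x ∈ Bn S := by
      intro x hx
      obtain ⟨j, hj, h1, h2⟩ := hB x hx
      rcases Nat.lt_succ_iff_lt_or_eq.1 hj with hj' | hj'
      · left
        refine Finset.mem_filter.2 ⟨hx, j, hj', ?_, ?_⟩
        · rintro ⟨S, hS, hag⟩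
          apply h1
          rcases Nat.lt_or_ge (j + 1) m with h | h
          · exact ⟨_, Or.inl ⟨h, S, hS, rfl⟩, fun w hw => congrFun (hag w.1 hw.1) w.2⟩
          · have hjm : j + 1 = m := by omega
            exact ⟨_, Or.inr (Or.inl ⟨hjm, S, hjm ▸ hS, rfl⟩),
              fun w hw => congrFun (hag w.1 hw.1) w.2⟩
        · obtain ⟨Q, hQ, hag⟩ := h2
          rcases hQ with ⟨_, S, hS, rfl⟩ | ⟨h, _⟩ | ⟨h, _⟩
          · exact ⟨S, hS, fun ω hω => funext fun ω₁ => hag (ω, ω₁) ⟨hω, trivial⟩⟩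
          · omega
          · omega
      · right
        subst hj'
        obtain ⟨Q, hQ, hag⟩ := h2
        rcases hQ with ⟨h, _⟩ | ⟨_, S, hS, rfl⟩ | ⟨h, _⟩
        · omega
        · exact ⟨S, Finset.mem_filter.2 ⟨hx, hS, fun ω hω ω₁ h => hag (ω, ω₁) ⟨hω, h⟩, h1⟩⟩
        · omega
    have hsub : B ⊆ Bo ∪ (univ : Finset (Set Ω)).biUnion Bn := by
      intro x hx
      rcases hcover x hx with h | ⟨S, h⟩
      · exact Finset.mem_union_left _ h
      · exact Finset.mem_union_right _ (Finset.mem_biUnion.2 ⟨S, Finset.mem_univ _, h⟩)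
    have h1 : ∑ x ∈ B, ν x ≤ ∑ x ∈ Bo ∪ (univ : Finset (Set Ω)).biUnion Bn, ν x :=
      Finset.sum_le_sum_of_subset_of_nonneg hsub (fun x _ _ => hν x)
    have h2 : ∑ x ∈ Bo ∪ (univ : Finset (Set Ω)).biUnion Bn, ν x ≤
        ∑ x ∈ Bo, ν x + ∑ x ∈ (univ : Finset (Set Ω)).biUnion Bn, ν x := by
      rw [← Finset.sum_union_inter]
      have : 0 ≤ ∑ x ∈ Bo ∩ (univ : Finset (Set Ω)).biUnion Bn, ν x :=
        Finset.sum_nonneg fun x _ => hν x
      linarith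
    have h3 : ∑ x ∈ (univ : Finset (Set Ω)).biUnion Bn, ν x ≤ ∑ S, ∑ x ∈ Bn S, ν x := by
      have hgen : ∀ s : Finset (Set Ω), ∑ x ∈ s.biUnion Bn, ν x ≤ ∑ S ∈ s, ∑ x ∈ Bn S, ν x := by
        intro s
        induction s using Finset.induction_on with
        | empty => simp
        | insert S s hS ih =>
          rw [Finset.biUnion_insert, Finset.sum_insert hS]
          have h5 := Finset.sum_union_inter (s₁ := Bn S) (s₂ := s.biUnion Bn) (f := ν)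
          have : 0 ≤ ∑ x ∈ Bn S ∩ s.biUnion Bn, ν x := Finset.sum_nonneg fun x _ => hν x
          linarith
      exact hgen _
    have h4 : ∑ S, ∑ x ∈ Bn S, ν x ≤ η := by
      calc ∑ S, ∑ x ∈ Bn S, ν x ≤ ∑ _S : Set Ω, η / Fintype.card (Set Ω) :=
            Finset.sum_le_sum fun S _ => hBn_le S
        _ = η := by
            rw [Finset.sum_const, Finset.card_univ, nsmul_eq_mul]
            field_simp
    push_cast
    linarith

theorem system (δ η : ℝ) (hδ : 0 < δ) (hη : 0 < η) (m : ℕ) :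
    ∃ (Ω T : Type) (_ : Fintype Ω) (_ : Nonempty Ω) (_ : Fintype T)
      (W : T → ℕ → Set Ω → Prop), (∀ t, ∃ S, W t 0 S) ∧ Primal W m ∧ Dual W m δ η := by
  classical
  induction m with
  | zero =>
    refine ⟨Unit, Unit, inferInstance, inferInstance, inferInstance,
      fun _ _ S => S = Set.univ, fun _ => ⟨_, rfl⟩, ?_, ?_⟩
    · intro U hU
      refine ⟨(), fun j _ S hS => ⟨(), hS ▸ trivial, fun h => ?_⟩⟩
      have := Finset.card_pos.2 ⟨_, h⟩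
      simp at hU
      omega
    · intro A X _ t a ν _ _
      refine ⟨∅, by simp, fun α β _ B hB => ?_⟩
      have : B = ∅ := by
        apply Finset.eq_empty_of_forall_notMem
        intro x hx
        obtain ⟨j, hj, _⟩ := hB x hx
        omega
      simp [this]
  | succ m ih =>
    obtain ⟨Ω, T, iΩ, nΩ, iT, W, h0, hP, hD⟩ := ih
    have hDpos : (0 : ℝ) < Fintype.card (Set Ω) := by
      exact_mod_cast (Fintype.card_pos (α := Set Ω))
    obtain ⟨l, hl⟩ := exists_nat_gt (2 / (η / Fintype.card (Set Ω)))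
    obtain ⟨n, hn⟩ := exists_nat_gt ((Fintype.card (Set Ω) : ℝ) * l / δ)
    have hn0 : 0 < n := by
      have : (0 : ℝ) < n := lt_of_le_of_lt (by positivity) hn
      exact_mod_cast this
    obtain ⟨Ω₁, V, iΩ₁, nΩ₁, iV, R, bt, hasym, hR, hG⟩ := gadget Ω n hn0
    refine ⟨Ω × Ω₁, T × V, inferInstance, inferInstance, inferInstance, stepW W m R bt,
      step_zero W m R bt h0, step_primal W m R bt hasym hG hP,
      step_dual W m R bt hasym δ η hη l n ?_ ?_ hn0 hR hD⟩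
    · rwa [div_lt_iff₀ (div_pos hη hDpos)] at hl
    · rw [div_lt_iff₀ hδ] at hn
      linarith

end Crest.Agent.H8ED
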