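import Mathlib
import Crest.Agent.H8.EntDualB

set_option autoImplicit false

namespace Crest.Agent.H8ED

open Finset

open Classical in
/-- The first level at which `α` is low at the point `(t, a)`. -/
noncomputable def lev {Ω T A : Type} (W : T → ℕ → Set Ω → Prop) (m : ℕ) (α : Ω → A) (t : T)
    (a : Ω → A) : ℕ :=
  Nat.find (⟨m + 1, Or.inl rfl⟩ : ∃ j, j = m + 1 ∨ low W j α t a)

theorem lev_le {Ω T A : Type} (W : T → ℕ → Set Ω → Prop) (m : ℕ) (α : Ω → A) (t : T)
    (a : Ω → A) : lev W m α t a ≤ m + 1 := by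
  classical
  unfold lev
  exact Nat.find_min' _ (Or.inl rfl)

theorem lev_self {Ω T A : Type} (W : T → ℕ → Set Ω → Prop) (m : ℕ) (α : Ω → A) (t : T)
    (h : ∃ S, W t 0 S) : lev W m α t α = 0 := by
  classical
  unfold lev
  obtain ⟨S, hS⟩ := h
  exact (Nat.find_eq_zero _).2 (Or.inr ⟨S, hS, fun _ _ => rfl⟩)

theorem lev_top {Ω T A : Type} (W : T → ℕ → Set Ω → Prop) (m : ℕ) (α : Ω → A) (t : T)
    (a : Ω → A) (h : ∀ j ≤ m, ¬ low W j α t a) : lev W m α t a = m + 1 := by
  classical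
  unfold lev
  rw [Nat.find_eq_iff]
  refine ⟨Or.inl rfl, fun j hj => ?_⟩
  rintro (h' | h')
  · omega
  · exact h j (by omega) h'

theorem lev_gap {Ω T A : Type} (W : T → ℕ → Set Ω → Prop) (m : ℕ) (α β : Ω → A) (t : T)
    (a : Ω → A) (h : lev W m β t a + 2 ≤ lev W m α t a) :
    ∃ j < m, ¬ low W (j + 1) α t a ∧ low W j β t a := by
  classical
  have h1 := lev_le W m α t a
  refine ⟨lev W m β t a, by omega, fun h2 => ?_, ?_⟩
  · have : lev W m α t a ≤ lev W m β t a + 1 := Nat.find_min' _ (Or.inr h2)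
    omega
  · have h3 : lev W m β t a = m + 1 ∨ low W (lev W m β t a) β t a :=
      Nat.find_spec (⟨m + 1, Or.inl rfl⟩ : ∃ j, j = m + 1 ∨ low W j β t a)
    exact h3.resolve_left (by omega)

theorem close_of_dual {Ω T A : Type} [Fintype Ω] [Fintype T] [Fintype (T × (Ω → A))]
    (W : T → ℕ → Set Ω → Prop) (m : ℕ) (δ η : ℝ) (hη : 2 * (m + 1) * (m * η) ≤ 1)
    (hD : Dual W m δ η) (μ : T × (Ω → A) → ℝ) (hμ : ∑ x, |μ x| ≤ 1) :
    ∃ Λ : Finset (Ω × A), (Λ.card : ℝ) ≤ m * δ * Fintype.card Ω ∧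
      ∀ α β : Ω → A, (∀ p ∈ Λ, α p.1 = p.2 ↔ β p.1 = p.2) →
        |∑ x, (lev W m α x.1 x.2 : ℝ) * μ x - ∑ x, (lev W m β x.1 x.2 : ℝ) * μ x| ≤ 2 := by
  classical
  obtain ⟨Λ, hΛ, h⟩ := hD A (T × (Ω → A)) Prod.fst Prod.snd (fun x => |μ x|)
    (fun x => abs_nonneg _) hμ
  refine ⟨Λ, hΛ, fun α β hαβ => ?_⟩
  have h1 := h α β hαβ (univ.filter (fun x => lev W m β x.1 x.2 + 2 ≤ lev W m α x.1 x.2))
    (fun x hx => lev_gap W m α β x.1 x.2 (Finset.mem_filter.1 hx).2)
  have h2 := h β α (fun p hp => (hαβ p hp).symm)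
    (univ.filter (fun x => lev W m α x.1 x.2 + 2 ≤ lev W m β x.1 x.2))
    (fun x hx => lev_gap W m β α x.1 x.2 (Finset.mem_filter.1 hx).2)
  rw [Finset.sum_filter] at h1 h2
  rw [← Finset.sum_sub_distrib]
  refine (Finset.abs_sum_le_sum_abs _ _).trans ?_
  have h3 : ∀ x : T × (Ω → A),
      |(lev W m α x.1 x.2 : ℝ) * μ x - (lev W m β x.1 x.2 : ℝ) * μ x| ≤
      |μ x| + (m + 1) * (if lev W m β x.1 x.2 + 2 ≤ lev W m α x.1 x.2 then |μ x| else 0) +
        (m + 1) * (if lev W m α x.1 x.2 + 2 ≤ lev W m β x.1 x.2 then |μ x| else 0) := by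
    intro x
    rw [← sub_mul, abs_mul]
    have ha : (lev W m α x.1 x.2 : ℝ) ≤ m + 1 := by exact_mod_cast lev_le W m α x.1 x.2
    have hb : (lev W m β x.1 x.2 : ℝ) ≤ m + 1 := by exact_mod_cast lev_le W m β x.1 x.2
    have ha0 : (0 : ℝ) ≤ lev W m α x.1 x.2 := Nat.cast_nonneg _
    have hb0 : (0 : ℝ) ≤ lev W m β x.1 x.2 := Nat.cast_nonneg _
    have hm : |(lev W m α x.1 x.2 : ℝ) - lev W m β x.1 x.2| ≤ m + 1 := by
      rw [abs_le]; constructor <;> linarith
    have hμ0 := abs_nonneg (μ x)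
    have hm0 : (0 : ℝ) ≤ m + 1 := by positivity
    have hmm := mul_le_mul_of_nonneg_right hm hμ0
    have hmm0 := mul_nonneg hm0 hμ0
    split_ifs with c1 c2 c2
    · linarith
    · linarith
    · linarith
    · have c1' : (lev W m α x.1 x.2 : ℝ) ≤ lev W m β x.1 x.2 + 1 := by
        exact_mod_cast (by omega : lev W m α x.1 x.2 ≤ lev W m β x.1 x.2 + 1)
      have c2' : (lev W m β x.1 x.2 : ℝ) ≤ lev W m α x.1 x.2 + 1 := by
        exact_mod_cast (by omega : lev W m β x.1 x.2 ≤ lev W m α x.1 x.2 + 1)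
      have : |(lev W m α x.1 x.2 : ℝ) - lev W m β x.1 x.2| ≤ 1 := by
        rw [abs_le]; constructor <;> linarith
      have := mul_le_mul_of_nonneg_right this hμ0
      linarith
  refine (Finset.sum_le_sum fun x _ => h3 x).trans ?_
  rw [Finset.sum_add_distrib, Finset.sum_add_distrib, ← Finset.mul_sum, ← Finset.mul_sum]
  have hm0 : (0 : ℝ) ≤ m + 1 := by positivity
  have h4 := mul_le_mul_of_nonneg_left h1 hm0
  have h5 := mul_le_mul_of_nonneg_left h2 hm0
  linarith

theorem exists_list {Y : Type} [Nonempty Y] (Λ : Finset Y) (l : ℕ) (h : Λ.card ≤ l) :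
    ∃ L : Fin l → Y, ∀ p ∈ Λ, ∃ i, L i = p := by
  classical
  obtain ⟨e⟩ : Nonempty (Λ ↪ Fin l) :=
    Function.Embedding.nonempty_of_card_le (by simpa using h)
  refine ⟨Function.extend e Subtype.val (fun _ => Classical.arbitrary Y), fun p hp => ?_⟩
  exact ⟨e ⟨p, hp⟩, e.injective.extend_apply _ _ _⟩

/-- Counting words that agree with a fixed word on many coordinates. -/
theorem card_agree {Ω : Type} [Fintype Ω] [DecidableEq Ω] (q τ : ℕ) (hq : 0 < q)
    (α₀ : Ω → Fin q) (I : Finset (Ω → Fin q))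
    (hI : ∀ β ∈ I, τ ≤ (univ.filter (fun ω => β ω = α₀ ω)).card) :
    I.card * q ^ τ ≤ 2 ^ Fintype.card Ω * q ^ Fintype.card Ω := by
  classical
  have h1 : I.card = ∑ U : Finset Ω,
      (I.filter (fun β => univ.filter (fun ω => β ω = α₀ ω) = U)).card :=
    Finset.card_eq_sum_card_fiberwise (by simp)
  have h2 : ∀ U : Finset Ω,
      (I.filter (fun β => univ.filter (fun ω => β ω = α₀ ω) = U)).card * q ^ τ ≤
        q ^ Fintype.card Ω := by
    intro U
    by_cases hU : τ ≤ U.card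
    · have h3 : ((I.filter (fun β => univ.filter (fun ω => β ω = α₀ ω) = U)) ×ˢ
          (univ : Finset (U → Fin q))).card ≤ (univ : Finset (Ω → Fin q)).card := by
        apply Finset.card_le_card_of_injOn
          (fun p ω => if h : ω ∈ U then p.2 ⟨ω, h⟩ else p.1 ω)
        · intro p _; simp
        · rintro ⟨β, γ⟩ h ⟨β', γ'⟩ h' heq
          simp only [Finset.coe_product, Finset.coe_filter, Finset.coe_univ, Set.mem_prod,
            Set.mem_ofPred_eq, Set.mem_univ, and_true] at h h'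
          refine Prod.ext (funext fun ω => ?_) (funext fun ω => ?_)
          · by_cases hω : ω ∈ U
            · have e1 : ω ∈ univ.filter (fun ω => β ω = α₀ ω) := h.2.symm ▸ hω
              have e2 : ω ∈ univ.filter (fun ω => β' ω = α₀ ω) := h'.2.symm ▸ hω
              exact (Finset.mem_filter.1 e1).2.trans (Finset.mem_filter.1 e2).2.symm
            · simpa [hω] using congrFun heq ω
          · simpa [ω.2] using congrFun heq ω.1
      simp only [Finset.card_product, Finset.card_univ, Fintype.card_fun, Fintype.card_fin,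
        Fintype.card_coe] at h3
      exact (Nat.mul_le_mul_left _ (Nat.pow_le_pow_right hq hU)).trans h3
    · have : I.filter (fun β => univ.filter (fun ω => β ω = α₀ ω) = U) = ∅ := by
        apply Finset.eq_empty_of_forall_notMem
        intro β hβ
        obtain ⟨h4, h5⟩ := Finset.mem_filter.1 hβ
        exact hU (h5 ▸ hI β h4)
      simp [this]
  rw [h1, Finset.sum_mul]
  refine (Finset.sum_le_sum fun U _ => h2 U).trans ?_
  simp

theorem core (m : ℕ) (b : ℝ) (hb : 1 ≤ b) :
    ∃ (X F D : Type) (_ : Fintype X) (_ : Nonempty X) (_ : Fintype F) (_ : Nonempty F)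
      (_ : Fintype D) (f : F → X → ℝ) (g : D → F → ℝ),
      (∀ μ : X → ℝ, ∑ x, |μ x| ≤ 1 → ∃ d, ∀ α, |∑ x, f α x * μ x - g d α| ≤ 3) ∧
      (∀ (ι : Type) (t : Finset ι) (c : F → ι), (∀ α, c α ∈ t) →
        (∀ α β, c α = c β → ∀ x, |f α x - f β x| < m + 1) →
        b * Real.log (Fintype.card D) < Real.log t.card) := by
  classical
  have hb0 : 0 < b := by linarith
  set δ : ℝ := 1 / (b * (m + 1) * 2 ^ (m + 2)) with hδ
  set η : ℝ := 1 / (2 * (m + 1) * (m + 1)) with hη
  obtain ⟨Ω, T, iΩ, nΩ, iT, W, h0, hP, hD⟩ := system δ η (by positivity) (by positivity) m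
  set N := Fintype.card Ω with hN
  have hNpos : 0 < N := Fintype.card_pos
  set l : ℕ := ⌊m * δ * N⌋₊ with hl
  set τ : ℕ := N / 2 ^ (m + 1) + 1 with hτ
  have hgap : b * l < τ := by
    have h1 : (l : ℝ) ≤ m * δ * N := Nat.floor_le (by positivity)
    have h2 : (N : ℝ) < τ * 2 ^ (m + 1) := by
      have := Nat.lt_div_mul_add (a := N) (b := 2 ^ (m + 1)) (by positivity)
      have h3 : N < τ * 2 ^ (m + 1) := by rw [hτ, add_mul, one_mul]; exact this
      exact_mod_cast h3
    have h3 : b * (m * δ * N) * 2 ^ (m + 1) ≤ N := by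
      have : b * (m * δ * N) * 2 ^ (m + 1) = N * (m / (2 * (m + 1))) := by
        rw [hδ]; field_simp; ring
      rw [this]
      apply mul_le_of_le_one_right (by positivity)
      rw [div_le_one (by positivity)]
      have : (0 : ℝ) ≤ m := Nat.cast_nonneg _
      linarith
    have h4 : b * l * 2 ^ (m + 1) ≤ b * (m * δ * N) * 2 ^ (m + 1) := by gcongr
    have h5 : b * l * 2 ^ (m + 1) < τ * 2 ^ (m + 1) := by linarith
    exact lt_of_mul_lt_mul_right h5 (by positivity)
  set C : ℝ := b * (l * Real.log N + 2 ^ l * Real.log (2 * m + 3 : ℕ)) + N * Real.log 2 with hC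
  obtain ⟨q, hq⟩ := exists_nat_gt (Real.exp (C / (τ - b * l)))
  have hq0' : (0 : ℝ) < q := (Real.exp_pos _).trans hq
  have hq0 : 0 < q := by exact_mod_cast hq0'
  have hlogq : C < (τ - b * l) * Real.log q := by
    have := (Real.lt_log_iff_exp_lt hq0').2 hq
    rw [div_lt_iff₀ (by linarith)] at this
    linarith
  have : NeZero q := ⟨hq0.ne'⟩
  obtain ⟨t₀, -⟩ := hP ∅ (by simp)
  have : Nonempty T := ⟨t₀⟩
  refine ⟨T × (Ω → Fin q), Ω → Fin q, (Fin l → Ω × Fin q) × (Finset (Fin l) → Fin (2 * m + 3)),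
    inferInstance, inferInstance, inferInstance, inferInstance, inferInstance,
    fun α x => (lev W m α x.1 x.2 : ℝ),
    fun d α => ((d.2 (univ.filter (fun i => α (d.1 i).1 = (d.1 i).2)) : ℕ) : ℝ) - (m + 1),
    ?_, ?_⟩
  · intro μ hμ
    obtain ⟨Λ, hΛ, hclose⟩ := close_of_dual W m δ η (by
      rw [hη]
      have : 2 * ((m : ℝ) + 1) * (m * (1 / (2 * (m + 1) * (m + 1)))) = m / (m + 1) := by
        field_simp
      rw [this, div_le_one (by positivity)]
      linarith) hD μ hμ
    obtain ⟨L, hL⟩ := exists_list Λ l (Nat.le_floor hΛ)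
    have hbound : ∀ α : Ω → Fin q, |∑ x, (lev W m α x.1 x.2 : ℝ) * μ x| ≤ m + 1 := by
      intro α
      refine (Finset.abs_sum_le_sum_abs _ _).trans ?_
      calc ∑ x, |(lev W m α x.1 x.2 : ℝ) * μ x| ≤ ∑ x, (m + 1) * |μ x| := by
            refine Finset.sum_le_sum fun x _ => ?_
            rw [abs_mul, Nat.abs_cast]
            exact mul_le_mul_of_nonneg_right (by exact_mod_cast lev_le W m α x.1 x.2)
              (abs_nonneg _)
        _ = (m + 1) * ∑ x, |μ x| := by rw [Finset.mul_sum]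
        _ ≤ m + 1 := mul_le_of_le_one_right (by positivity) hμ
    have hg : ∀ π : Finset (Fin l), ∃ k : Fin (2 * m + 3), ∀ α : Ω → Fin q,
        univ.filter (fun i => α (L i).1 = (L i).2) = π →
        |∑ x, (lev W m α x.1 x.2 : ℝ) * μ x - (((k : ℕ) : ℝ) - (m + 1))| ≤ 3 := by
      intro π
      by_cases hπ : ∃ β : Ω → Fin q, univ.filter (fun i => β (L i).1 = (L i).2) = π
      · obtain ⟨β, hβ⟩ := hπ
        have hb1 := abs_le.1 (hbound β)
        set Φ := ∑ x, (lev W m β x.1 x.2 : ℝ) * μ x with hΦ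
        have hk : ⌊Φ + (m + 1)⌋₊ < 2 * m + 3 := by
          rw [Nat.floor_lt (by linarith)]
          push_cast
          linarith
        refine ⟨⟨⌊Φ + (m + 1)⌋₊, hk⟩, fun α hα => ?_⟩
        have h1 := abs_le.1 (hclose α β (by
          intro p hp
          obtain ⟨i, rfl⟩ := hL p hp
          have := Finset.ext_iff.1 (hα.trans hβ.symm) i
          simpa using this))
        have h2 : (⌊Φ + (m + 1)⌋₊ : ℝ) ≤ Φ + (m + 1) := Nat.floor_le (by linarith)
        have h3 : Φ + (m + 1) < (⌊Φ + (m + 1)⌋₊ : ℝ) + 1 := Nat.lt_floor_add_one _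
        rw [abs_le]
        constructor <;> simp only <;> linarith
      · exact ⟨⟨0, by omega⟩, fun α hα => (hπ ⟨α, hα⟩).elim⟩
    choose k hk using hg
    exact ⟨(L, k), fun α => hk _ α rfl⟩
  · intro ι t c hc hsep
    have hfib : ∀ i ∈ t, (univ.filter (fun α => c α = i)).card * q ^ τ ≤ 2 ^ N * q ^ N := by
      intro i _
      rcases (univ.filter (fun α => c α = i)).eq_empty_or_nonempty with h | ⟨α₀, hα₀⟩
      · simp [h]
      · apply card_agree q τ hq0 α₀
        intro β hβ
        by_contra hlt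
        have h1 : 2 ^ (m + 1) * (univ.filter (fun ω => β ω = α₀ ω)).card ≤ N := by
          have : (univ.filter (fun ω => β ω = α₀ ω)).card ≤ N / 2 ^ (m + 1) := by omega
          calc _ ≤ 2 ^ (m + 1) * (N / 2 ^ (m + 1)) := Nat.mul_le_mul_left _ this
            _ ≤ N := Nat.mul_div_le _ _
        obtain ⟨s, hs⟩ := hP _ h1
        have h2 := hsep β α₀ ((Finset.mem_filter.1 hβ).2.trans (Finset.mem_filter.1 hα₀).2.symm)
          (s, α₀)
        have h3 : lev W m β s α₀ = m + 1 := by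
          apply lev_top
          rintro j hj ⟨S, hS, hag⟩
          obtain ⟨ω, hω, hω'⟩ := hs j hj S hS
          exact hω' (Finset.mem_filter.2 ⟨Finset.mem_univ _, hag ω hω⟩)
        have h4 : lev W m α₀ s α₀ = 0 := lev_self W m α₀ s (h0 s)
        simp only [h3, h4] at h2
        push_cast at h2
        rw [sub_zero, abs_of_nonneg (by positivity)] at h2
        exact lt_irrefl _ h2
    have htot : q ^ N * q ^ τ ≤ t.card * (2 ^ N * q ^ N) := by
      have h1 : (univ : Finset (Ω → Fin q)).card =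
          ∑ i ∈ t, (univ.filter (fun α => c α = i)).card :=
        Finset.card_eq_sum_card_fiberwise (fun α _ => hc α)
      have h2 : (univ : Finset (Ω → Fin q)).card = q ^ N := by simp [hN]
      calc q ^ N * q ^ τ = ∑ i ∈ t, (univ.filter (fun α => c α = i)).card * q ^ τ := by
            rw [← h2, h1, Finset.sum_mul]
        _ ≤ _ := Finset.sum_le_sum hfib
        _ = _ := by simp
    have htot2 : q ^ τ ≤ t.card * 2 ^ N := by
      apply Nat.le_of_mul_le_mul_left _ (pow_pos hq0 N)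
      calc q ^ N * q ^ τ ≤ _ := htot
        _ = _ := by ring
    have htpos : 0 < t.card := Finset.card_pos.2 ⟨_, hc (fun _ => 0)⟩
    have htpos' : (0 : ℝ) < t.card := by exact_mod_cast htpos
    have hlog1 : τ * Real.log q ≤ Real.log t.card + N * Real.log 2 := by
      have h1 : ((q : ℝ)) ^ τ ≤ t.card * 2 ^ N := by exact_mod_cast htot2
      have h2 := Real.log_le_log (by positivity) h1
      rwa [Real.log_pow, Real.log_mul htpos'.ne' (by positivity), Real.log_pow] at h2
    have hNpos' : (0 : ℝ) < N := by exact_mod_cast hNpos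
    have hlog2 : Real.log (Fintype.card
        ((Fin l → Ω × Fin q) × (Finset (Fin l) → Fin (2 * m + 3)))) =
        l * (Real.log N + Real.log q) + 2 ^ l * Real.log (2 * m + 3 : ℕ) := by
      simp only [Fintype.card_prod, Fintype.card_fun, Fintype.card_fin, Fintype.card_finset]
      rw [← hN, Nat.cast_mul, Nat.cast_pow, Nat.cast_pow, Nat.cast_mul,
        Real.log_mul (by positivity) (by positivity), Real.log_pow, Real.log_pow,
        Real.log_mul hNpos'.ne' hq0'.ne']
      push_cast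
      ring
    rw [hlog2]
    nlinarith

end Crest.Agent.H8ED
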