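import Mathlib

set_option autoImplicit false

/-! Lang–Plaut counterexample, part 1: Euclidean lemmas. -/

namespace H8LP

open Finset

variable {E : Type*} [NormedAddCommGroup E] [InnerProductSpace ℝ E]

lemma aff_nonneg (a V : E) (n σ : ℝ) (ha : ‖a‖ ≤ n * σ) (hV : ‖V‖ ≤ σ) :
    0 ≤ σ ^ 2 * n - inner ℝ a V := by
  have h1 := real_inner_le_norm a V
  have : ‖a‖ * ‖V‖ ≤ (n * σ) * σ :=
    mul_le_mul ha hV (norm_nonneg _) (le_trans (norm_nonneg _) ha)
  nlinarith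

lemma aff_sq (a V : E) (n σ : ℝ) (hn : 0 ≤ n) (ha : ‖a‖ ≤ n * σ) (hV : ‖V‖ ≤ σ) :
    ‖a - n • V‖ ^ 2 ≤ 2 * n * (σ ^ 2 * n - inner ℝ a V) := by
  rw [norm_sub_sq_real, inner_smul_right, norm_smul, Real.norm_eq_abs, abs_of_nonneg hn]
  have h1 : ‖a‖ ^ 2 ≤ (n * σ) ^ 2 := pow_le_pow_left₀ (norm_nonneg _) ha 2
  have h2 : (n * ‖V‖) ^ 2 ≤ (n * σ) ^ 2 :=
    pow_le_pow_left₀ (by positivity) (mul_le_mul_of_nonneg_left hV hn) 2
  nlinarith

lemma exists_step (H : ℕ → ℝ) (Q : ℕ) (hQ : 0 < Q) :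
    ∃ q < Q, (Q : ℝ) * (H (q + 1) - H q) ≤ H Q - H 0 := by
  by_contra hcon
  push Not at hcon
  have h1 : ∑ q ∈ range Q, (H Q - H 0) < ∑ q ∈ range Q, (Q : ℝ) * (H (q + 1) - H q) :=
    sum_lt_sum_of_nonempty ⟨0, mem_range.2 hQ⟩ (fun q hq => hcon q (mem_range.1 hq))
  rw [← mul_sum, sum_range_sub, sum_const, card_range, nsmul_eq_mul] at h1
  exact lt_irrefl _ h1

lemma pigeon {E : Type*} [NormedAddCommGroup E] [ProperSpace E] (D β : ℝ) (hβ : 0 < β) :
    ∃ N0 : ℕ, ∀ N ≥ N0, ∀ o : ℕ → E, (∀ j < N, ‖o j‖ ≤ D) →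
      ∃ i < N, ∃ j < N, i ≠ j ∧ ‖o i - o j‖ ≤ β := by
  classical
  obtain ⟨t, -, htf, hcov⟩ :=
    finite_cover_balls_of_compact (isCompact_closedBall (0 : E) D) (half_pos hβ)
  refine ⟨htf.toFinset.card + 1, fun N hN o ho => ?_⟩
  have hex : ∀ j, j < N → ∃ c ∈ htf.toFinset, o j ∈ Metric.ball c (β / 2) := by
    intro j hj
    have : o j ∈ Metric.closedBall (0 : E) D := by simpa using ho j hj
    have := hcov this
    simp only [Set.mem_iUnion] at this
    obtain ⟨c, hc, hc2⟩ := this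
    exact ⟨c, by simpa using hc, hc2⟩
  choose! c hc1 hc2 using hex
  obtain ⟨i, hi, j, hj, hij, hcc⟩ :=
    Finset.exists_ne_map_eq_of_card_lt_of_maps_to (s := range N) (t := htf.toFinset) (f := c)
      (by simpa using hN) (fun j hj => hc1 j (by simpa using hj))
  refine ⟨i, mem_range.1 hi, j, mem_range.1 hj, hij, ?_⟩
  have h1 := hc2 i (mem_range.1 hi)
  have h2 := hc2 j (mem_range.1 hj)
  rw [Metric.mem_ball, dist_eq_norm] at h1 h2
  rw [hcc] at h1
  calc ‖o i - o j‖ = ‖(o i - c j) - (o j - c j)‖ := by congr 1; abel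
    _ ≤ ‖o i - c j‖ + ‖o j - c j‖ := norm_sub_le _ _
    _ ≤ β := by linarith

omit [InnerProductSpace ℝ E] in
lemma chain_norm (g : ℕ → E) (σ : ℝ) (M : ℕ) (h : ∀ m < M, ‖g (m + 1) - g m‖ ≤ σ) :
    ∀ n a : ℕ, a + n ≤ M → ‖g (a + n) - g a‖ ≤ n * σ := by
  intro n
  induction n with
  | zero => intro a _; simp
  | succ n ih =>
    intro a ha
    have h1 := ih a (by omega)
    have h2 := h (a + n) (by omega)
    calc ‖g (a + (n + 1)) - g a‖ = ‖(g (a + n + 1) - g (a + n)) + (g (a + n) - g a)‖ := by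
          congr 1; rw [← add_assoc]; abel
      _ ≤ ‖g (a + n + 1) - g (a + n)‖ + ‖g (a + n) - g a‖ := norm_add_le _ _
      _ ≤ ((n + 1 : ℕ) : ℝ) * σ := by push_cast; linarith

/-- One round in the second direction. -/
lemma uround (D β : ℝ) (hD : 0 < D) (hβ : 0 < β) (N Q : ℕ) (hN : 0 < N)
    (hpig : ∀ o : ℕ → E, (∀ j < N, ‖o j‖ ≤ D) → ∃ i < N, ∃ j < N, i ≠ j ∧ ‖o i - o j‖ ≤ β)
    (hQ : 8 * (N : ℝ) ^ 2 * D ^ 2 ≤ Q * β ^ 2)
    (p : ℕ → E) (g : ℕ → ℕ → E)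
    (h1 : ∀ j < N, ∀ m ≤ N * Q, ‖g j m - p m‖ ≤ D)
    (h2 : ∀ m ≤ N * Q, ‖g (m % N) m - p m‖ ≤ β)
    (h3 : ∀ j < N, ∀ m ≤ N * Q, j ≠ m % N → 4 * β < ‖g j m - p m‖)
    (h4 : ‖p (N * Q) - p 0‖ ≤ (N * Q : ℕ) * D) :
    ∃ j < N, ∃ m < N * Q,
      (‖p (N * Q) - p 0‖ / (N * Q : ℕ)) ^ 2 + β ^ 2 / (4 * (N : ℝ) ^ 3) ≤ ‖g j (m + 1) - g j m‖ ^ 2 := by
  by_contra hcon
  push Not at hcon
  have hNr : (0 : ℝ) < N := by exact_mod_cast hN
  have hQr : (0 : ℝ) < Q := by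
    by_contra h
    have h0 : (Q : ℝ) = 0 := le_antisymm (not_lt.1 h) (Nat.cast_nonneg _)
    rw [h0] at hQ
    have : 0 < 8 * (N : ℝ) ^ 2 * D ^ 2 := by positivity
    linarith
  have hQ0 : 0 < Q := by exact_mod_cast hQr
  set M : ℕ := N * Q with hM
  have hMr : (0 : ℝ) < M := by rw [hM]; push_cast; positivity
  set V : E := (M : ℝ)⁻¹ • (p M - p 0) with hV
  have hVn : ‖V‖ = ‖p M - p 0‖ / M := by
    rw [hV, norm_smul, Real.norm_eq_abs, abs_of_pos (inv_pos.2 hMr)]; ring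
  set c : ℝ := β ^ 2 / (4 * (N : ℝ) ^ 3) with hc
  have hc0 : 0 < c := by positivity
  set σ : ℝ := Real.sqrt (‖V‖ ^ 2 + c) with hσ
  have hσ2 : σ ^ 2 = ‖V‖ ^ 2 + c := Real.sq_sqrt (by positivity)
  have hσ0 : 0 ≤ σ := Real.sqrt_nonneg _
  have hVσ : ‖V‖ ≤ σ := Real.le_sqrt_of_sq_le (by linarith)
  have hstep : ∀ j < N, ∀ m < M, ‖g j (m + 1) - g j m‖ ≤ σ := by
    intro j hj m hm
    apply Real.le_sqrt_of_sq_le
    have := hcon j hj m hm
    rw [← hVn] at this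
    exact this.le
  have hVD : ‖V‖ ≤ D := by
    rw [hVn, div_le_iff₀ hMr]; linarith
  -- potential
  set k : ℕ → ℕ → ℝ := fun j m => σ ^ 2 * m - inner ℝ (g j m) V with hk
  have hkinc : ∀ j a n : ℕ, k j (a + n) - k j a = σ ^ 2 * n - inner ℝ (g j (a + n) - g j a) V := by
    intro j a n
    simp only [hk, inner_sub_left]; push_cast; ring
  have hkmono : ∀ j < N, ∀ a n : ℕ, a + n ≤ M → 0 ≤ k j (a + n) - k j a := by
    intro j hj a n h
    rw [hkinc]
    exact aff_nonneg _ _ _ _ (chain_norm (g j) σ M (hstep j hj) n a h) hVσ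
  have hktot : ∀ j < N, k j M - k j 0 ≤ M * c + 2 * D ^ 2 := by
    intro j hj
    have e := hkinc j 0 M
    rw [zero_add] at e
    rw [e]
    have e2 : g j M - g j 0 = (M : ℝ) • V + ((g j M - p M) - (g j 0 - p 0)) := by
      rw [hV, smul_smul, mul_inv_cancel₀ hMr.ne', one_smul]; abel
    rw [e2, inner_add_left, inner_smul_left, real_inner_self_eq_norm_sq]
    have a1 := h1 j hj M le_rfl
    have a2 := h1 j hj 0 (Nat.zero_le _)
    have a3 : ‖(g j M - p M) - (g j 0 - p 0)‖ ≤ 2 * D := by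
      have := norm_sub_le (g j M - p M) (g j 0 - p 0); linarith
    have a4 := abs_real_inner_le_norm ((g j M - p M) - (g j 0 - p 0)) V
    have a5 : ‖(g j M - p M) - (g j 0 - p 0)‖ * ‖V‖ ≤ 2 * D * D :=
      mul_le_mul a3 hVD (norm_nonneg _) (by positivity)
    have a6 := neg_abs_le (inner ℝ ((g j M - p M) - (g j 0 - p 0)) V)
    simp only [conj_trivial]
    rw [hσ2]; nlinarith
  obtain ⟨q, hq, hqq⟩ := exists_step (fun q => ∑ j ∈ range N, k j (N * q)) Q hQ0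
  simp only [mul_zero] at hqq
  rw [← hM, ← sum_sub_distrib, ← sum_sub_distrib] at hqq
  have hle : N * q + N ≤ M := by
    rw [hM]; calc N * q + N = N * (q + 1) := by ring
      _ ≤ N * Q := Nat.mul_le_mul_left _ hq
  have hsum : ∑ j ∈ range N, (k j M - k j 0) ≤ N * (M * c + 2 * D ^ 2) := by
    calc ∑ j ∈ range N, (k j M - k j 0) ≤ ∑ j ∈ range N, ((M : ℝ) * c + 2 * D ^ 2) :=
          sum_le_sum fun j hj => hktot j (mem_range.1 hj)
      _ = _ := by rw [sum_const, card_range, nsmul_eq_mul]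
  have hper : ∀ j < N, (Q : ℝ) * (k j (N * q + N) - k j (N * q)) ≤ N * (M * c + 2 * D ^ 2) := by
    intro j hj
    have : k j (N * (q + 1)) - k j (N * q) ≤ ∑ j ∈ range N, (k j (N * (q + 1)) - k j (N * q)) :=
      single_le_sum (f := fun j => k j (N * (q + 1)) - k j (N * q))
        (fun j hj => by
          have := hkmono j (mem_range.1 hj) (N * q) N hle
          rwa [show N * q + N = N * (q + 1) by ring] at this) (mem_range.2 hj)
    rw [show N * q + N = N * (q + 1) by ring]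
    nlinarith
  have haff : ∀ j < N, ∀ n ≤ N, ‖g j (N * q + n) - g j (N * q) - (n : ℝ) • V‖ ≤ β := by
    intro j hj n hn
    have b1 := aff_sq _ V n σ (Nat.cast_nonneg _)
      (chain_norm (g j) σ M (hstep j hj) n (N * q) (by omega)) hVσ
    rw [← hkinc] at b1
    have b2 := hkmono j hj (N * q + n) (N - n) (by omega)
    rw [show N * q + n + (N - n) = N * q + N by omega] at b2
    have b3 := hkmono j hj (N * q) n (by omega)
    have b4 := hper j hj
    have hnN : (n : ℝ) ≤ N := by exact_mod_cast hn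
    have b5 : 2 * (n : ℝ) * (k j (N * q + n) - k j (N * q)) ≤
        2 * N * (k j (N * q + N) - k j (N * q)) :=
      mul_le_mul (by linarith) (by linarith) b3 (by positivity)
    have b6 : (Q : ℝ) * (2 * N * (k j (N * q + N) - k j (N * q))) ≤ Q * β ^ 2 := by
      have e1 : (N : ℝ) * (M * c) * (2 * N) = Q * β ^ 2 / 2 := by
        rw [hc, hM]; push_cast; field_simp; ring
      nlinarith
    have b7 := le_of_mul_le_mul_left b6 hQr
    exact (pow_le_pow_iff_left₀ (norm_nonneg _) hβ.le two_ne_zero).1 (by linarith)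
  obtain ⟨i, hi, j, hj, hij, hoij⟩ := hpig (fun j => g j (N * q) - p (N * q))
    (fun j hj => h1 j hj _ (by omega))
  have hmod : (N * q + i) % N = i := by
    rw [Nat.mul_add_mod, Nat.mod_eq_of_lt hi]
  have c1 := h2 (N * q + i) (by omega)
  have c2 := h3 j hj (N * q + i) (by omega) (by rw [hmod]; exact hij.symm)
  rw [hmod] at c1
  have c3 := haff i hi i hi.le
  have c4 := haff j hj i hi.le
  have c5 : g j (N * q + i) - p (N * q + i) =
      (g i (N * q + i) - p (N * q + i)) + (g j (N * q + i) - g j (N * q) - (i : ℝ) • V)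
        - (g i (N * q + i) - g i (N * q) - (i : ℝ) • V)
        - ((g i (N * q) - p (N * q)) - (g j (N * q) - p (N * q))) := by abel
  rw [c5] at c2
  have c6 := norm_sub_le ((g i (N * q + i) - p (N * q + i)) +
    (g j (N * q + i) - g j (N * q) - (i : ℝ) • V)
        - (g i (N * q + i) - g i (N * q) - (i : ℝ) • V))
        ((g i (N * q) - p (N * q)) - (g j (N * q) - p (N * q)))
  have c7 := norm_sub_le ((g i (N * q + i) - p (N * q + i)) +
    (g j (N * q + i) - g j (N * q) - (i : ℝ) • V)) (g i (N * q + i) - g i (N * q) - (i : ℝ) • V)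
  have c8 := norm_add_le (g i (N * q + i) - p (N * q + i))
    (g j (N * q + i) - g j (N * q) - (i : ℝ) • V)
  linarith

end H8LP
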