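import Crest.Agent.H8.LP1

set_option autoImplicit false

/-! Lang–Plaut counterexample, part 2: parameters, validity, cells. -/

namespace H8LP

open Finset

/-- number of labels at level `l` -/
def NN (l : ℕ) : ℕ := (Nat.unpair (Nat.sqrt l)).1 + 10

/-- subdivision ratio at level `l` -/
def MM (l : ℕ) : ℕ := NN l * NN l ^ 3

/-- cell size before level `l` -/
noncomputable def rr : ℕ → ℝ
  | 0 => 1
  | l + 1 => rr l / MM l

/-- aspect ratios -/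
def asp (N : ℕ) : ℕ → ℕ
  | 0 => 1
  | j + 1 => N ^ 16 * asp N j ^ 2

/-- distance to the end of the current block -/
def rem (l : ℕ) : ℕ := (Nat.sqrt l + 1) ^ 2 - l

/-- time window at level `l` -/
noncomputable def tau (l : ℕ) : ℝ := asp (NN l) (rem l) * rr (l + 1)

def Win (h : ℝ) (N : ℕ) (x : ℝ) (i : ℕ) : Prop := ∃ n : ℕ, n % N = i ∧ |x - n * h| ≤ h

def Ok (l : ℕ) (t u : ℝ) (i : ℕ) : Prop := Win (tau l) (NN l) t i ∨ Win (rr (l + 1)) (NN l) u i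

def Valid (t u : ℝ) (κ : ℕ → ℕ) : Prop :=
  t ∈ Set.Icc (0 : ℝ) 1 ∧ u ∈ Set.Icc (0 : ℝ) 1 ∧ ∀ l, Ok l t u (κ l)

structure Cell (l : ℕ) (t1 t2 : ℝ) (m : ℕ) (κ : ℕ → ℕ) : Prop where
  h0 : 0 ≤ t1
  h1 : t2 ≤ 1
  hm : ((m : ℝ) + 1) * rr l ≤ 1
  hz : ∀ l' ≥ l, κ l' = 0
  hok : ∀ l' < l, ∀ t ∈ Set.Icc t1 t2, ∀ u ∈ Set.Icc ((m : ℝ) * rr l) (((m : ℝ) + 1) * rr l),
    Ok l' t u (κ l')

def EdgeAt (l : ℕ) (t1 t2 u : ℝ) (κ : ℕ → ℕ) : Prop :=
  ∃ m : ℕ, Cell l t1 t2 m κ ∧ (u = (m : ℝ) * rr l ∨ u = ((m : ℝ) + 1) * rr l)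

lemma NN_ge (l : ℕ) : 10 ≤ NN l := by unfold NN; omega

lemma NN_pos (l : ℕ) : 0 < NN l := by have := NN_ge l; omega

lemma MM_ge (l : ℕ) : 10000 ≤ MM l := by
  have h := NN_ge l
  unfold MM
  calc 10000 = 10 * 10 ^ 3 := by norm_num
    _ ≤ NN l * NN l ^ 3 := Nat.mul_le_mul h (Nat.pow_le_pow_left h 3)

lemma MM_pos (l : ℕ) : 0 < MM l := by have := MM_ge l; omega

lemma rr_pos (l : ℕ) : 0 < rr l := by
  induction l with
  | zero => simp [rr]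
  | succ l ih =>
    have : (0 : ℝ) < MM l := by exact_mod_cast MM_pos l
    simp only [rr]; positivity

lemma rr_succ (l : ℕ) : rr l = MM l * rr (l + 1) := by
  have : (0 : ℝ) < MM l := by exact_mod_cast MM_pos l
  simp only [rr]; field_simp

lemma rr_succ_le (l : ℕ) : 10000 * rr (l + 1) ≤ rr l := by
  rw [rr_succ l]
  have : (10000 : ℝ) ≤ MM l := by exact_mod_cast MM_ge l
  exact mul_le_mul_of_nonneg_right this (rr_pos _).le

lemma rr_add_le (l k : ℕ) : rr (l + k) ≤ rr l * (1 / 10000) ^ k := by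
  induction k with
  | zero => simp
  | succ k ih =>
    have := rr_succ_le (l + k)
    rw [pow_succ, ← add_assoc]
    nlinarith

lemma rr_anti {l l' : ℕ} (h : l ≤ l') : rr l' ≤ rr l := by
  obtain ⟨k, rfl⟩ := Nat.exists_eq_add_of_le h
  have h1 := rr_add_le l k
  have h2 : ((1 : ℝ) / 10000) ^ k ≤ 1 := pow_le_one₀ (by norm_num) (by norm_num)
  have := rr_pos l
  nlinarith

lemma rr_small (ε : ℝ) (hε : 0 < ε) : ∃ L, ∀ l ≥ L, rr l ≤ ε := by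
  obtain ⟨L, hL⟩ := exists_pow_lt_of_lt_one hε (show (1 : ℝ) / 10000 < 1 by norm_num)
  refine ⟨L, fun l hl => (rr_anti hl).trans ?_⟩
  have := rr_add_le 0 L
  simp only [zero_add, rr, one_mul] at this
  linarith

lemma asp_pos (N : ℕ) (hN : 0 < N) (j : ℕ) : 0 < asp N j := by
  induction j with
  | zero => simp [asp]
  | succ j ih => simp only [asp]; positivity

lemma rr_le_tau (l : ℕ) : rr (l + 1) ≤ tau l := by
  have : (1 : ℝ) ≤ asp (NN l) (rem l) := by exact_mod_cast asp_pos _ (NN_pos l) _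
  unfold tau
  nlinarith [rr_pos (l + 1)]

lemma tau_pos (l : ℕ) : 0 < tau l := lt_of_lt_of_le (rr_pos _) (rr_le_tau l)

/-- every type of block recurs arbitrarily late -/
lemma exists_block (n k L : ℕ) : ∃ l0 ≥ L, ∀ j ≤ k, NN (l0 + j) = n + 10 ∧
    rem (l0 + j) = k + 1 - j := by
  set s := Nat.pair n (L + k + 1) with hs
  have hs1 : L + k + 1 ≤ s := Nat.right_le_pair _ _
  have hsq : s ≤ s ^ 2 := Nat.le_self_pow (by norm_num) s
  have e : (s + 1) ^ 2 = s ^ 2 + 2 * s + 1 := by ring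
  refine ⟨(s + 1) ^ 2 - (k + 1), by omega, fun j hj => ?_⟩
  have hsqrt : Nat.sqrt ((s + 1) ^ 2 - (k + 1) + j) = s := by
    symm
    rw [Nat.eq_sqrt']
    constructor <;> omega
  constructor
  · unfold NN; rw [hsqrt, hs, Nat.unpair_pair]
  · unfold rem; rw [hsqrt]; omega

lemma Cell.mono {l : ℕ} {t1 t2 : ℝ} {m : ℕ} {κ : ℕ → ℕ} (h : Cell l t1 t2 m κ) {a b : ℝ}
    (ha : t1 ≤ a) (hb : b ≤ t2) : Cell l a b m κ :=
  ⟨h.h0.trans ha, hb.trans h.h1, h.hm, h.hz,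
    fun l' hl' t ht u hu => h.hok l' hl' t ⟨ha.trans ht.1, ht.2.trans hb⟩ u hu⟩

lemma EdgeAt.mono {l : ℕ} {t1 t2 u : ℝ} {κ : ℕ → ℕ} (h : EdgeAt l t1 t2 u κ) {a b : ℝ}
    (ha : t1 ≤ a) (hb : b ≤ t2) : EdgeAt l a b u κ := by
  obtain ⟨m, hc, hu⟩ := h
  exact ⟨m, hc.mono ha hb, hu⟩

lemma Cell.child {l : ℕ} {t1 t2 : ℝ} {m : ℕ} {κ : ℕ → ℕ} (h : Cell l t1 t2 m κ) {n : ℕ}
    (hn : n < MM l) (i : ℕ)
    (hi : ∀ t ∈ Set.Icc t1 t2, ∀ u ∈ Set.Icc (((m * MM l + n : ℕ) : ℝ) * rr (l + 1))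
      ((((m * MM l + n : ℕ) : ℝ) + 1) * rr (l + 1)), Ok l t u i) :
    Cell (l + 1) t1 t2 (m * MM l + n) (Function.update κ l i) := by
  have hρ := rr_pos (l + 1)
  have e := rr_succ l
  have hn' : (n : ℝ) + 1 ≤ MM l := by exact_mod_cast hn
  have hn0 : (0 : ℝ) ≤ n := Nat.cast_nonneg _
  have hlo : (m : ℝ) * rr l ≤ ((m * MM l + n : ℕ) : ℝ) * rr (l + 1) := by
    rw [e]; push_cast; nlinarith
  have hhi : (((m * MM l + n : ℕ) : ℝ) + 1) * rr (l + 1) ≤ ((m : ℝ) + 1) * rr l := by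
    rw [e]; push_cast; nlinarith
  refine ⟨h.h0, h.h1, hhi.trans h.hm, fun l' hl' => ?_, fun l' hl' t ht u hu => ?_⟩
  · rw [Function.update_of_ne (by omega)]; exact h.hz l' (by omega)
  · rcases Nat.lt_succ_iff_lt_or_eq.1 hl' with h' | rfl
    · rw [Function.update_of_ne (by omega)]
      exact h.hok l' h' t ht u ⟨hlo.trans hu.1, hu.2.trans hhi⟩
    · rw [Function.update_self]; exact hi t ht u hu

lemma mod_MM (l m n : ℕ) : (m * MM l + n) % NN l = n % NN l := by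
  unfold MM
  rw [show m * (NN l * NN l ^ 3) + n = NN l * (m * NN l ^ 3) + n by ring, Nat.mul_add_mod]

/-- persistent lines of a cell are edges one level deeper -/
lemma Cell.persist {l : ℕ} {t1 t2 : ℝ} {m : ℕ} {κ : ℕ → ℕ} (h : Cell l t1 t2 m κ) {n : ℕ}
    (hn : n ≤ MM l) :
    EdgeAt (l + 1) t1 t2 (((m * MM l + n : ℕ) : ℝ) * rr (l + 1))
      (Function.update κ l (n % NN l)) := by
  have hρ := rr_pos (l + 1)
  rcases Nat.lt_or_ge n (MM l) with h1 | h1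
  · refine ⟨m * MM l + n, h.child h1 _ fun t _ u hu => Or.inr ⟨m * MM l + n, mod_MM _ _ _, ?_⟩,
      Or.inl rfl⟩
    rw [abs_le]; constructor <;> nlinarith [hu.1, hu.2]
  · have hM := MM_pos l
    obtain ⟨n', rfl⟩ : ∃ n', n = n' + 1 := ⟨n - 1, by omega⟩
    refine ⟨m * MM l + n', h.child (by omega) _ fun t _ u hu =>
      Or.inr ⟨m * MM l + (n' + 1), mod_MM _ _ _, ?_⟩, Or.inr (by push_cast; ring)⟩
    have h1 := hu.1
    have h2 := hu.2
    push_cast at h1 h2 ⊢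
    rw [abs_le]; constructor <;> nlinarith

/-- on a time sub-block with label `j`, sheet `j` is present -/
lemma Cell.timechild {l : ℕ} {m : ℕ} {κ : ℕ → ℕ} {q j : ℕ} (hj : j < NN l)
    (h : Cell l (((q * NN l + j : ℕ) : ℝ) * tau l) ((((q * NN l + j : ℕ) : ℝ) + 1) * tau l) m κ)
    {n : ℕ} (hn : n < MM l) :
    Cell (l + 1) (((q * NN l + j : ℕ) : ℝ) * tau l) ((((q * NN l + j : ℕ) : ℝ) + 1) * tau l)
      (m * MM l + n) (Function.update κ l j) := by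
  have hτ := tau_pos l
  refine h.child hn j fun t ht u _ => Or.inl ⟨q * NN l + j, ?_, ?_⟩
  · rw [mul_comm, Nat.mul_add_mod, Nat.mod_eq_of_lt hj]
  · rw [abs_le]; constructor <;> nlinarith [ht.1, ht.2]

lemma EdgeAt.succ {l : ℕ} {t1 t2 u : ℝ} {κ : ℕ → ℕ} (h : EdgeAt l t1 t2 u κ) :
    EdgeAt (l + 1) t1 t2 u κ := by
  obtain ⟨m, hc, hu⟩ := h
  have hz : κ l = 0 := hc.hz l le_rfl
  have hupd : Function.update κ l 0 = κ := by rw [← hz]; exact Function.update_eq_self l κ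
  rcases hu with hu | hu
  · have := hc.persist (Nat.zero_le (MM l))
    rw [Nat.zero_mod, hupd] at this
    convert this using 1
    rw [hu, rr_succ l]; push_cast; ring
  · have := hc.persist (le_refl (MM l))
    have h0 : MM l % NN l = 0 := by unfold MM; exact Nat.mul_mod_right _ _
    rw [h0, hupd] at this
    convert this using 1
    rw [hu, rr_succ l]; push_cast; ring

lemma EdgeAt.le {l l' : ℕ} {t1 t2 u : ℝ} {κ : ℕ → ℕ} (h : EdgeAt l t1 t2 u κ) (hl : l ≤ l') :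
    EdgeAt l' t1 t2 u κ := by
  induction hl with
  | refl => exact h
  | step _ ih => exact ih.succ

lemma EdgeAt.valid {l : ℕ} {t1 t2 u : ℝ} {κ : ℕ → ℕ} (h : EdgeAt l t1 t2 u κ) {t : ℝ}
    (ht : t ∈ Set.Icc t1 t2) : Valid t u κ := by
  have key : ∀ {l : ℕ}, EdgeAt l t1 t2 u κ → ∃ m : ℕ, Cell l t1 t2 m κ ∧
      u ∈ Set.Icc ((m : ℝ) * rr l) (((m : ℝ) + 1) * rr l) := by
    rintro l ⟨m, hc, hu⟩
    have := rr_pos l
    refine ⟨m, hc, ?_⟩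
    rcases hu with hu | hu <;> rw [hu] <;> constructor <;> nlinarith
  obtain ⟨m, hc, hu⟩ := key h
  refine ⟨⟨hc.h0.trans ht.1, ht.2.trans hc.h1⟩, ⟨le_trans ?_ hu.1, hu.2.trans hc.hm⟩, fun l' => ?_⟩
  · have := rr_pos l; positivity
  · obtain ⟨m', hc', hu'⟩ := key (h.le (le_max_left l (l' + 1)))
    exact hc'.hok l' (lt_of_lt_of_le (Nat.lt_succ_self _) (le_max_right _ _)) t ht u hu'

lemma cell_zero : Cell 0 0 1 0 (fun _ => 0) :=
  ⟨le_rfl, le_rfl, by simp [rr], fun _ _ => rfl, fun l' hl' => absurd hl' (Nat.not_lt_zero _)⟩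

/-- selection of a good aligned period -/
lemma select (K : ℕ) (φ : ℕ → ℝ → ℝ) (t1 t2 H π : ℝ) (h0 : 0 ≤ t1) (hπ : 0 < π)
    (h4 : 4 * π ≤ t2 - t1)
    (hmono : ∀ n < K, ∀ a b, t1 ≤ a → a ≤ b → b ≤ t2 → φ n a ≤ φ n b)
    (hH : ∀ n < K, φ n t2 - φ n t1 ≤ H) :
    ∃ q : ℕ, t1 ≤ q * π ∧ ((q : ℝ) + 1) * π ≤ t2 ∧
      ∀ n < K, (t2 - t1) * (φ n (((q : ℝ) + 1) * π) - φ n (q * π)) ≤ 2 * π * (K * H) := by
  set q0 := ⌈t1 / π⌉₊ with hq0
  set Q := ⌊(t2 - t1) / π⌋₊ - 1 with hQ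
  have h4' : (4 : ℝ) ≤ (t2 - t1) / π := by rw [le_div_iff₀ hπ]; linarith
  have hfl : 4 ≤ ⌊(t2 - t1) / π⌋₊ := Nat.le_floor (by exact_mod_cast h4')
  have hQr : (Q : ℝ) = ⌊(t2 - t1) / π⌋₊ - 1 := by
    rw [hQ, Nat.cast_sub (by omega)]; simp
  have a1 : (⌊(t2 - t1) / π⌋₊ : ℝ) ≤ (t2 - t1) / π := Nat.floor_le (by linarith)
  have a2 : (t2 - t1) / π < ⌊(t2 - t1) / π⌋₊ + 1 := Nat.lt_floor_add_one _
  have a3 : t1 / π ≤ q0 := Nat.le_ceil _
  have a4 : (q0 : ℝ) < t1 / π + 1 := Nat.ceil_lt_add_one (by positivity)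
  rw [le_div_iff₀ hπ] at a1
  rw [div_lt_iff₀ hπ] at a2
  rw [div_le_iff₀ hπ] at a3
  have a4' : (q0 : ℝ) * π < t1 + π := by
    have := mul_lt_mul_of_pos_right a4 hπ
    rwa [add_mul, div_mul_cancel₀ _ hπ.ne', one_mul] at this
  have hend : ((q0 : ℝ) + Q) * π ≤ t2 := by rw [hQr]; nlinarith
  have hQπ : t2 - t1 ≤ 2 * π * Q := by rw [hQr]; nlinarith
  obtain ⟨q, hq, hqq⟩ := exists_step (fun q => ∑ n ∈ range K, φ n (((q0 + q : ℕ) : ℝ) * π)) Q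
    (by omega)
  have hq' : (q : ℝ) + 1 ≤ Q := by exact_mod_cast hq
  have hq0' : (0 : ℝ) ≤ q := Nat.cast_nonneg _
  have b1 : t1 ≤ ((q0 + q : ℕ) : ℝ) * π := by push_cast; nlinarith
  have b2 : (((q0 + q : ℕ) : ℝ) + 1) * π ≤ t2 := by push_cast; nlinarith
  refine ⟨q0 + q, b1, b2, fun n hn => ?_⟩
  rw [← sum_sub_distrib, ← sum_sub_distrib] at hqq
  have hQ0 : (0 : ℝ) ≤ Q := Nat.cast_nonneg _
  have c1 : ∑ n ∈ range K, (φ n (((q0 + Q : ℕ) : ℝ) * π) - φ n (((q0 + 0 : ℕ) : ℝ) * π))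
      ≤ K * H := by
    calc _ ≤ ∑ n ∈ range K, H := by
          refine sum_le_sum fun n hn => ?_
          have hn := mem_range.1 hn
          have d1 := hmono n hn (((q0 + Q : ℕ) : ℝ) * π) t2 (by push_cast; nlinarith)
            (by push_cast; linarith) le_rfl
          have d2 := hmono n hn t1 (((q0 + 0 : ℕ) : ℝ) * π) le_rfl (by push_cast; linarith)
            (by push_cast; nlinarith)
          have := hH n hn
          linarith
      _ = K * H := by rw [sum_const, card_range, nsmul_eq_mul]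
  have hnn : ∀ n ∈ range K,
      0 ≤ φ n (((q0 + (q + 1) : ℕ) : ℝ) * π) - φ n (((q0 + q : ℕ) : ℝ) * π) := by
    intro n hn
    have := hmono n (mem_range.1 hn) (((q0 + q : ℕ) : ℝ) * π) (((q0 + (q + 1) : ℕ) : ℝ) * π) b1
      (by push_cast; nlinarith) (by push_cast at b2 ⊢; linarith)
    linarith
  have c2 := single_le_sum hnn (mem_range.2 hn)
  have c3 := hnn n (mem_range.2 hn)
  have e : (((q0 + (q + 1) : ℕ) : ℝ)) = ((q0 + q : ℕ) : ℝ) + 1 := by push_cast; ring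
  rw [e] at c2 c3 hqq
  calc (t2 - t1) * (φ n ((((q0 + q : ℕ) : ℝ) + 1) * π) - φ n (((q0 + q : ℕ) : ℝ) * π))
      ≤ 2 * π * Q * (φ n ((((q0 + q : ℕ) : ℝ) + 1) * π) - φ n (((q0 + q : ℕ) : ℝ) * π)) :=
        mul_le_mul_of_nonneg_right hQπ c3
    _ = 2 * π * (Q * (φ n ((((q0 + q : ℕ) : ℝ) + 1) * π) - φ n (((q0 + q : ℕ) : ℝ) * π))) := by
        ring
    _ ≤ 2 * π * (K * H) := by
        refine mul_le_mul_of_nonneg_left ?_ (by positivity)
        exact le_trans (mul_le_mul_of_nonneg_left c2 hQ0) (hqq.trans c1)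

end H8LP
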