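import Crest.Agent.H8.LP2

set_option autoImplicit false

/-! Lang–Plaut counterexample, part 3: no bi-Lipschitz map to Euclidean space. -/

namespace H8LP

open Finset

variable {E : Type*} [NormedAddCommGroup E] [InnerProductSpace ℝ E]

structure Hyp (F : ℝ → ℝ → (ℕ → ℕ) → E) (D : ℝ) : Prop where
  hD : 1 ≤ D
  hL0 : ∀ t u t' u' κ, Valid t u κ → Valid t' u' κ →
    ‖F t u κ - F t' u' κ‖ ≤ D * (|t - t'| + |u - u'|)
  hL : ∀ t u κ u' κ' l, Valid t u κ → Valid t u' κ' → (∀ l' < l, κ l' = κ' l') →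
    ‖F t u κ - F t u' κ'‖ ≤ D * (|u - u'| + rr (l + 1))
  hA : ∀ t u κ κ' l, Valid t u κ → Valid t u κ' → (∀ l' < l, κ l' = κ' l') → κ l ≠ κ' l →
    rr (l + 1) ≤ D * ‖F t u κ - F t u κ'‖

structure Ext (F : ℝ → ℝ → (ℕ → ℕ) → E) (D S : ℝ) (W : E) : Prop where
  hS : ∀ l a b u κ, a ≤ b → EdgeAt l a b u κ → ‖F b u κ - F a u κ‖ ≤ (b - a) * S
  hW : ‖W‖ ≤ S
  hSD : S ≤ D

/-- monotone potential along time lines -/
noncomputable def pot (F : ℝ → ℝ → (ℕ → ℕ) → E) (S : ℝ) (W : E) (u : ℝ) (κ : ℕ → ℕ) (t : ℝ) : ℝ :=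
  S ^ 2 * t - inner ℝ (F t u κ) W

variable {F : ℝ → ℝ → (ℕ → ℕ) → E} {D S : ℝ} {W : E}

lemma pot_sub (u : ℝ) (κ : ℕ → ℕ) (a b : ℝ) :
    pot F S W u κ b - pot F S W u κ a = S ^ 2 * (b - a) - inner ℝ (F b u κ - F a u κ) W := by
  simp only [pot, inner_sub_left]; ring

lemma pot_mono (hx : Ext F D S W) {l : ℕ} {t1 t2 u : ℝ} {κ : ℕ → ℕ} (h : EdgeAt l t1 t2 u κ)
    {a b : ℝ} (ha : t1 ≤ a) (hab : a ≤ b) (hb : b ≤ t2) : pot F S W u κ a ≤ pot F S W u κ b := by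
  have := aff_nonneg _ W (b - a) S (hx.hS l a b u κ hab (h.mono ha hb)) hx.hW
  rw [← pot_sub] at this
  linarith

lemma drift (hx : Ext F D S W) {l : ℕ} {t1 t2 u : ℝ} {κ : ℕ → ℕ} (h : EdgeAt l t1 t2 u κ)
    {b x : ℝ} (hab : t1 ≤ b) (hb : b ≤ t2) (hx0 : 0 ≤ x)
    (hp : 2 * (t2 - t1) * (pot F S W u κ t2 - pot F S W u κ t1) ≤ x ^ 2) :
    ‖(F b u κ - b • W) - (F t1 u κ - t1 • W)‖ ≤ x := by
  have h1 := aff_sq _ W (b - t1) S (by linarith) (hx.hS l t1 b u κ hab (h.mono le_rfl hb)) hx.hW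
  rw [← pot_sub] at h1
  have h2 := pot_mono hx h le_rfl hab hb
  have h3 := pot_mono hx h hab hb le_rfl
  have h4 : 2 * (b - t1) * (pot F S W u κ b - pot F S W u κ t1) ≤
      2 * (t2 - t1) * (pot F S W u κ t2 - pot F S W u κ t1) :=
    mul_le_mul (by linarith) (by linarith) (by linarith) (by linarith)
  have e : (F b u κ - b • W) - (F t1 u κ - t1 • W) = F b u κ - F t1 u κ - (b - t1) • W := by
    rw [sub_smul]; abel
  rw [e]
  exact (pow_le_pow_iff_left₀ (norm_nonneg _) hx0 two_ne_zero).1 (by linarith)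

lemma pot_cmp (hx : Ext F D S W) {u u' a b x : ℝ} {κ κ' : ℕ → ℕ}
    (ha : ‖F a u' κ' - F a u κ‖ ≤ x) (hb : ‖F b u' κ' - F b u κ‖ ≤ x) :
    pot F S W u' κ' b - pot F S W u' κ' a ≤ pot F S W u κ b - pot F S W u κ a + 2 * D * x := by
  have hWD : ‖W‖ ≤ D := hx.hW.trans hx.hSD
  have hx0 : 0 ≤ x := (norm_nonneg _).trans ha
  have h1 := abs_real_inner_le_norm (F a u' κ' - F a u κ) W
  have h2 := abs_real_inner_le_norm (F b u' κ' - F b u κ) W
  have h3 : ‖F a u' κ' - F a u κ‖ * ‖W‖ ≤ x * D := mul_le_mul ha hWD (norm_nonneg _) hx0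
  have h4 : ‖F b u' κ' - F b u κ‖ * ‖W‖ ≤ x * D := mul_le_mul hb hWD (norm_nonneg _) hx0
  have h5 := le_abs_self (inner ℝ (F a u' κ' - F a u κ) W)
  have h6 := neg_abs_le (inner ℝ (F b u' κ' - F b u κ) W)
  rw [inner_sub_left] at h1 h2 h5 h6
  simp only [pot]
  linarith

/-- length of a time period -/
noncomputable def per (l : ℕ) : ℝ := NN l * tau l

lemma per_pos (l : ℕ) : 0 < per l := by
  have : (0 : ℝ) < NN l := by exact_mod_cast NN_pos l
  unfold per; exact mul_pos this (tau_pos l)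

def Good (F : ℝ → ℝ → (ℕ → ℕ) → E) (S : ℝ) (W : E) (β : ℝ) (l q m : ℕ) (κ : ℕ → ℕ) : Prop :=
  Cell l (q * per l) (((q : ℝ) + 1) * per l) m κ ∧ ∀ n ≤ MM l,
    2 * per l * (pot F S W (((m * MM l + n : ℕ) : ℝ) * rr (l + 1)) (Function.update κ l (n % NN l))
        (((q : ℝ) + 1) * per l) -
      pot F S W (((m * MM l + n : ℕ) : ℝ) * rr (l + 1)) (Function.update κ l (n % NN l))
        (q * per l)) ≤ (β * rr (l + 1)) ^ 2

lemma split_index (P M n : ℕ) (hP : 0 < P) (hM : 0 < M) (hn : n ≤ P * M) :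
    ∃ m' < P, ∃ n' ≤ M, n = m' * M + n' := by
  rcases Nat.lt_or_ge n (P * M) with h | h
  · refine ⟨n / M, (Nat.div_lt_iff_lt_mul hM).2 h, n % M, (Nat.mod_lt _ hM).le, ?_⟩
    rw [mul_comm]; exact (Nat.div_add_mod n M).symm
  · obtain ⟨P', rfl⟩ : ∃ P', P = P' + 1 := ⟨P - 1, by omega⟩
    refine ⟨P', by omega, M, le_rfl, ?_⟩
    have : n = (P' + 1) * M := le_antisymm hn h
    rw [this]; ring

lemma sel_cells (hF : Hyp F D) (hx : Ext F D S W) (β : ℝ) {l P m0 : ℕ} {t1 t2 : ℝ} {κ : ℕ → ℕ}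
    (hP : 0 < P) (hc : ∀ m' < P, Cell l t1 t2 (m0 + m') κ)
    {lr lr' : ℕ} (hlr : lr ≤ l) {ur R B : ℝ} {κr : ℕ → ℕ} (hr : EdgeAt lr' t1 t2 ur κr)
    (hagree : ∀ l' < lr, κ l' = κr l')
    (hur : ∀ n ≤ P * MM l, |((m0 * MM l + n : ℕ) : ℝ) * rr (l + 1) - ur| + rr (lr + 1) ≤ R)
    (hB : pot F S W ur κr t2 - pot F S W ur κr t1 ≤ B)
    (h4 : 4 * per l ≤ t2 - t1)
    (hnum : 2 * per l * (2 * per l * (((P * MM l + 1 : ℕ) : ℝ) * (B + 2 * D * (D * R)))) ≤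
      (t2 - t1) * (β * rr (l + 1)) ^ 2) :
    ∃ q : ℕ, t1 ≤ q * per l ∧ ((q : ℝ) + 1) * per l ≤ t2 ∧
      ∀ m' < P, Good F S W β l q (m0 + m') κ := by
  have hπ := per_pos l
  have hD0 : 0 ≤ D := by linarith [hF.hD]
  have h12 : t1 ≤ t2 := by linarith
  have hedge : ∀ n ≤ P * MM l, EdgeAt (l + 1) t1 t2 (((m0 * MM l + n : ℕ) : ℝ) * rr (l + 1))
      (Function.update κ l (n % NN l)) := by
    intro n hn
    obtain ⟨m', hm', n', hn', rfl⟩ := split_index P (MM l) n hP (MM_pos l) hn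
    have := (hc m' hm').persist hn'
    rw [mod_MM, show m0 * MM l + (m' * MM l + n') = (m0 + m') * MM l + n' by ring]
    exact this
  obtain ⟨q, hq1, hq2, hq3⟩ := select (P * MM l + 1)
    (fun n => pot F S W (((m0 * MM l + n : ℕ) : ℝ) * rr (l + 1)) (Function.update κ l (n % NN l)))
    t1 t2 (B + 2 * D * (D * R)) (per l) (hc 0 hP).h0 hπ h4
    (fun n hn a b ha hab hb => pot_mono hx (hedge n (by omega)) ha hab hb)
    (fun n hn => by
      have hn' : n ≤ P * MM l := by omega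
      have key : ∀ t ∈ Set.Icc t1 t2,
          ‖F t (((m0 * MM l + n : ℕ) : ℝ) * rr (l + 1)) (Function.update κ l (n % NN l))
            - F t ur κr‖ ≤ D * R := by
        intro t ht
        refine (hF.hL t _ _ _ _ lr ((hedge n hn').valid ht) (hr.valid ht) ?_).trans
          (mul_le_mul_of_nonneg_left (hur n hn') hD0)
        intro l' hl'
        rw [Function.update_of_ne (by omega)]
        exact hagree l' hl'
      have := pot_cmp hx (key t1 ⟨le_rfl, h12⟩) (key t2 ⟨h12, le_rfl⟩)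
      linarith)
  refine ⟨q, hq1, hq2, fun m' hm' => ⟨(hc m' hm').mono hq1 hq2, fun n hn => ?_⟩⟩
  have hlt : m' * MM l + n < P * MM l + 1 := by
    have : (m' + 1) * MM l ≤ P * MM l := Nat.mul_le_mul_right _ hm'
    have e : (m' + 1) * MM l = m' * MM l + MM l := by ring
    omega
  have h := hq3 (m' * MM l + n) hlt
  simp only [mod_MM] at h
  rw [show m0 * MM l + (m' * MM l + n) = (m0 + m') * MM l + n by ring] at h
  have hpos : 0 < t2 - t1 := by linarith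
  refine le_of_mul_le_mul_left ?_ hpos
  have := mul_le_mul_of_nonneg_left h (show 0 ≤ 2 * per l by linarith)
  nlinarith

end H8LP
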