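import Crest.Agent.H8.LP3

set_option autoImplicit false

/-! Lang–Plaut counterexample, part 4: the round and the contradiction. -/

namespace H8LP

open Finset

variable {E : Type*} [NormedAddCommGroup E] [InnerProductSpace ℝ E]
variable {F : ℝ → ℝ → (ℕ → ℕ) → E} {D S : ℝ} {W : E}

/-- stretch of the cell in the second direction at the start of the period -/
noncomputable def chord (F : ℝ → ℝ → (ℕ → ℕ) → E) (l q m : ℕ) (κ : ℕ → ℕ) : ℝ :=
  ‖F (q * per l) (((m : ℝ) + 1) * rr l) κ - F (q * per l) (m * rr l) κ‖ / rr l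

lemma chord_le (hF : Hyp F D) {β : ℝ} {l q m : ℕ} {κ : ℕ → ℕ} (h : Good F S W β l q m κ) :
    chord F l q m κ ≤ D := by
  have hρ := rr_pos l
  have hπ := per_pos l
  have ht : (q : ℝ) * per l ∈ Set.Icc ((q : ℝ) * per l) (((q : ℝ) + 1) * per l) :=
    ⟨le_rfl, by nlinarith⟩
  have v1 : Valid (q * per l) (((m : ℝ) + 1) * rr l) κ :=
    EdgeAt.valid ⟨m, h.1, Or.inr rfl⟩ ht
  have v2 : Valid (q * per l) ((m : ℝ) * rr l) κ := EdgeAt.valid ⟨m, h.1, Or.inl rfl⟩ ht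
  have := hF.hL0 _ _ _ _ _ v1 v2
  rw [sub_self, abs_zero, zero_add, show ((m : ℝ) + 1) * rr l - m * rr l = rr l by ring,
    abs_of_pos hρ] at this
  unfold chord
  rwa [div_le_iff₀ hρ]

lemma num1 (N a ρ' : ℝ) (hN : 10 ≤ N) (ha : 1 ≤ a) (hρ' : 0 < ρ') :
    4 * (N * a * ρ') ≤ N ^ 16 * a ^ 2 * (N ^ 4 * ρ') := by
  have h1 : (4 : ℝ) * N ≤ N ^ 16 * N ^ 4 := by
    have : (1 : ℝ) ≤ N ^ 18 := one_le_pow₀ (by linarith)
    have e : N ^ 16 * N ^ 4 = N ^ 18 * (N * N) := by ring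
    rw [e]; nlinarith
  have h2 : a ≤ a ^ 2 := by nlinarith
  calc 4 * (N * a * ρ') = (4 * N) * a * ρ' := by ring
    _ ≤ (N ^ 16 * N ^ 4) * a ^ 2 * ρ' := by gcongr
    _ = _ := by ring

lemma num2 (N a ρ ρ' D β : ℝ) (hN : 10 ≤ N) (ha : 1 ≤ a) (hρ : 0 < ρ) (hρ' : 0 < ρ') (hD : 1 ≤ D)
    (hNβ : 40 * D ^ 2 ≤ N * β ^ 2) :
    2 * (N * a * ρ') * (2 * (N * a * ρ') * ((N * N ^ 3 * (N * N ^ 3) + 1) *
      (N ^ 4 * ρ + 2 * D * (D * (2 * (N ^ 4 * ρ)))))) ≤ N ^ 16 * a ^ 2 * ρ * (β * ρ') ^ 2 := by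
  have h1 : N * N ^ 3 * (N * N ^ 3) + 1 ≤ 2 * N ^ 8 := by
    have : (1 : ℝ) ≤ N ^ 8 := one_le_pow₀ (by linarith)
    nlinarith
  have h2 : N ^ 4 * ρ + 2 * D * (D * (2 * (N ^ 4 * ρ))) ≤ 5 * D ^ 2 * (N ^ 4 * ρ) := by
    have : 0 < N ^ 4 * ρ := by positivity
    have : 1 ≤ D ^ 2 := one_le_pow₀ hD
    nlinarith
  have h3 : 40 * D ^ 2 ≤ N ^ 2 * β ^ 2 := by
    have : 0 ≤ β ^ 2 := by positivity
    have : N ≤ N ^ 2 := by nlinarith
    nlinarith
  calc 2 * (N * a * ρ') * (2 * (N * a * ρ') * ((N * N ^ 3 * (N * N ^ 3) + 1) *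
        (N ^ 4 * ρ + 2 * D * (D * (2 * (N ^ 4 * ρ))))))
      ≤ 2 * (N * a * ρ') * (2 * (N * a * ρ') * ((2 * N ^ 8) * (5 * D ^ 2 * (N ^ 4 * ρ)))) := by
        gcongr
    _ = (40 * D ^ 2) * (N ^ 14 * a ^ 2 * ρ * ρ' ^ 2) := by ring
    _ ≤ (N ^ 2 * β ^ 2) * (N ^ 14 * a ^ 2 * ρ * ρ' ^ 2) := by gcongr
    _ = _ := by ring

lemma num3 (x ρ π β : ℝ) (hρ : 0 < ρ) (hπ : ρ ≤ π) (hβ0 : 0 < β) (hβ1 : β ≤ 1)
    (h : 2 * π * x ≤ (β * ρ) ^ 2) : x ≤ ρ := by
  have h6 : (β * ρ) ^ 2 ≤ ρ * ρ := by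
    have : β * ρ ≤ ρ := by nlinarith
    have h0 : 0 ≤ β * ρ := by positivity
    nlinarith
  by_contra hcon
  push Not at hcon
  nlinarith

lemma sub1 (l q j : ℕ) : (q : ℝ) * per l ≤ ((q * NN l + j : ℕ) : ℝ) * tau l := by
  have hτ := tau_pos l
  unfold per; push_cast
  have : (0 : ℝ) ≤ j := Nat.cast_nonneg _
  nlinarith

lemma sub2 (l q j : ℕ) (hj : j < NN l) :
    (((q * NN l + j : ℕ) : ℝ) + 1) * tau l ≤ ((q : ℝ) + 1) * per l := by
  have hτ := tau_pos l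
  unfold per; push_cast
  have : (j : ℝ) + 1 ≤ NN l := by exact_mod_cast hj
  nlinarith

lemma step_sel (hF : Hyp F D) (hx : Ext F D S W) {β : ℝ} (hβ0 : 0 < β) (hβ1 : β ≤ 1) {N : ℕ}
    (hNβ : 40 * D ^ 2 ≤ N * β ^ 2)
    {l q m : ℕ} {κ : ℕ → ℕ} (hN : NN l = N) (hN' : NN (l + 1) = N)
    (hrem : rem l = rem (l + 1) + 1) (h : Good F S W β l q m κ) (j : ℕ) (hj : j < N) :
    ∃ q' : ℕ, ((q * NN l + j : ℕ) : ℝ) * tau l ≤ q' * per (l + 1) ∧
      ((q' : ℝ) + 1) * per (l + 1) ≤ (((q * NN l + j : ℕ) : ℝ) + 1) * tau l ∧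
      ∀ m' < MM l, Good F S W β (l + 1) q' (m * MM l + m') (Function.update κ l j) := by
  have hD := hF.hD
  have hN10 : 10 ≤ N := hN ▸ NN_ge l
  have hNr : (10 : ℝ) ≤ N := by exact_mod_cast hN10
  have hM : MM l = N * N ^ 3 := by unfold MM; rw [hN]
  have hM' : MM (l + 1) = N * N ^ 3 := by unfold MM; rw [hN']
  have hρ : 0 < rr (l + 1) := rr_pos _
  have hρ' : 0 < rr (l + 1 + 1) := rr_pos _
  have e0 : rr l = (N : ℝ) ^ 4 * rr (l + 1) := by rw [rr_succ l, hM]; push_cast; ring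
  have e1 : rr (l + 1) = (N : ℝ) ^ 4 * rr (l + 1 + 1) := by
    rw [rr_succ (l + 1), hM']; push_cast; ring
  have ha1 : (1 : ℝ) ≤ (asp N (rem (l + 1)) : ℝ) := by exact_mod_cast asp_pos N (by omega) _
  have eτ : tau l = (N : ℝ) ^ 16 * (asp N (rem (l + 1)) : ℝ) ^ 2 * rr (l + 1) := by
    unfold tau; rw [hN, hrem]; simp only [asp]; push_cast; rfl
  have eπ' : per (l + 1) = N * (asp N (rem (l + 1)) : ℝ) * rr (l + 1 + 1) := by
    unfold per tau; rw [hN']; ring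
  have hτ := tau_pos l
  have hπ := per_pos l
  obtain ⟨hc, hg⟩ := h
  have hsub1 := sub1 l q j
  have hsub2 := sub2 l q j (hN ▸ hj)
  have hlen : (((q * NN l + j : ℕ) : ℝ) + 1) * tau l - ((q * NN l + j : ℕ) : ℝ) * tau l
        = tau l := by ring
  have hcj := hc.mono hsub1 hsub2
  have href := hc.persist (Nat.zero_le (MM l))
  have hg0 := hg 0 (Nat.zero_le _)
  refine sel_cells hF hx β (MM_pos l) (fun m' hm' => hcj.timechild (hN ▸ hj) hm')
    (lr := l) (R := 2 * rr l) (B := rr l) (Nat.le_succ l) (href.mono hsub1 hsub2)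
    ?_ ?_ ?_ ?_ ?_
  · intro l' hl'
    rw [Function.update_of_ne (by omega), Function.update_of_ne (by omega)]
  · intro n hn
    have hn' : (n : ℝ) ≤ (N : ℝ) ^ 4 * (N : ℝ) ^ 4 := by
      rw [hM, hM'] at hn
      have : (n : ℝ) ≤ ((N * N ^ 3 * (N * N ^ 3) : ℕ) : ℝ) := by exact_mod_cast hn
      refine this.trans (le_of_eq ?_)
      push_cast; ring
    have e : ((m * MM l * MM (l + 1) + n : ℕ) : ℝ) * rr (l + 1 + 1)
        - ((m * MM l + 0 : ℕ) : ℝ) * rr (l + 1) = n * rr (l + 1 + 1) := by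
      rw [hM', e1]; push_cast; ring
    rw [e, abs_of_nonneg (by positivity)]
    have h1 : (n : ℝ) * rr (l + 1 + 1) ≤ rr l := by
      rw [e0, e1, ← mul_assoc]; exact mul_le_mul_of_nonneg_right hn' hρ'.le
    have h2 := rr_anti (Nat.le_succ l)
    linarith
  · have h1 := pot_mono hx href le_rfl hsub1 (by linarith)
    have h2 := pot_mono hx href (a := (((q * NN l + j : ℕ) : ℝ) + 1) * tau l) (by linarith)
      hsub2 le_rfl
    have h5 : rr (l + 1) ≤ per l := by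
      have h1 := rr_le_tau l
      have h2 : (1 : ℝ) ≤ NN l := by exact_mod_cast NN_pos l
      unfold per; nlinarith
    have h7 := rr_anti (Nat.le_succ l)
    have := num3 _ _ _ _ hρ h5 hβ0 hβ1 hg0
    linarith
  · rw [eπ', hlen, eτ, e1]
    exact num1 _ _ _ hNr ha1 hρ'
  · rw [eπ', hlen, eτ, e0, hM, hM']
    push_cast
    exact num2 _ _ _ _ _ _ hNr ha1 hρ hρ' hD hNβ

lemma step (hF : Hyp F D) (hx : Ext F D S W) {β : ℝ} (hβ : β = 1 / (8 * D)) {N : ℕ}
    (hpig : ∀ o : ℕ → E, (∀ j < N, ‖o j‖ ≤ 2 * D) → ∃ i < N, ∃ j < N, i ≠ j ∧ ‖o i - o j‖ ≤ β)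
    (hNβ : 40 * D ^ 2 ≤ N * β ^ 2)
    {l q m : ℕ} {κ : ℕ → ℕ} (hN : NN l = N) (hN' : NN (l + 1) = N)
    (hrem : rem l = rem (l + 1) + 1) (h : Good F S W β l q m κ) :
    ∃ q' m' κ', Good F S W β (l + 1) q' m' κ' ∧
      chord F l q m κ ^ 2 + β ^ 2 / (4 * (N : ℝ) ^ 3) ≤ chord F (l + 1) q' m' κ' ^ 2 := by
  have hD := hF.hD
  have hD0 : 0 < D := by linarith
  have hβ0 : 0 < β := by rw [hβ]; positivity
  have hβ1 : β ≤ 1 := by rw [hβ, div_le_one (by positivity)]; linarith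
  have hβD : β * (8 * D) = 1 := by rw [hβ]; field_simp
  have hN10 : 10 ≤ N := hN ▸ NN_ge l
  have hNr : (10 : ℝ) ≤ N := by exact_mod_cast hN10
  have hM : MM l = N * N ^ 3 := by unfold MM; rw [hN]
  set ρ := rr (l + 1) with hρdef
  have hρ : 0 < ρ := rr_pos _
  have hτ := tau_pos l
  have hπ := per_pos l
  have hsel := step_sel hF hx hβ0 hβ1 hNβ hN hN' hrem h
  obtain ⟨hc, hg⟩ := h
  have hz : κ l = 0 := hc.hz l le_rfl
  have hupd : Function.update κ l 0 = κ := by rw [← hz]; exact Function.update_eq_self l κ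
  have hsub1 := sub1 l q
  have hsub2 : ∀ j < N, _ := fun j hj => sub2 l q j (hN ▸ hj)
  choose! qq hqq1 hqq2 hqq3 using hsel
  have hπ' := per_pos (l + 1)
  -- times
  have htj : ∀ j < N, (qq j : ℝ) * per (l + 1) ∈
      Set.Icc ((q : ℝ) * per l) (((q : ℝ) + 1) * per l) := fun j hj =>
    ⟨(hsub1 j).trans (hqq1 j hj), le_trans (by nlinarith) ((hqq2 j hj).trans (hsub2 j hj))⟩
  have hvj : ∀ j < N, ∀ n ≤ MM l, Valid ((qq j : ℝ) * per (l + 1))
      (((m * MM l + n : ℕ) : ℝ) * ρ) (Function.update κ l j) := by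
    intro j hj n hn
    have ht : (qq j : ℝ) * per (l + 1) ∈
        Set.Icc ((qq j : ℝ) * per (l + 1)) (((qq j : ℝ) + 1) * per (l + 1)) :=
      ⟨le_rfl, by nlinarith⟩
    rcases Nat.lt_or_ge n (MM l) with h1 | h1
    · exact EdgeAt.valid ⟨_, (hqq3 j hj n h1).1, Or.inl rfl⟩ ht
    · have hM0 := MM_pos l
      obtain ⟨n', rfl⟩ : ∃ n', n = n' + 1 := ⟨n - 1, by omega⟩
      exact EdgeAt.valid ⟨_, (hqq3 j hj n' (by omega)).1, Or.inr (by push_cast; ring)⟩ ht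
  have hdrift : ∀ j < N, ∀ n ≤ MM l,
      ‖(F (qq j * per (l + 1)) (((m * MM l + n : ℕ) : ℝ) * ρ) (Function.update κ l (n % NN l))
        - ((qq j : ℝ) * per (l + 1)) • W) -
      (F (q * per l) (((m * MM l + n : ℕ) : ℝ) * ρ) (Function.update κ l (n % NN l))
        - ((q : ℝ) * per l) • W)‖ ≤ β * ρ := by
    intro j hj n hn
    refine drift hx (hc.persist hn) (htj j hj).1 (htj j hj).2 (by positivity) ?_
    rw [show ((q : ℝ) + 1) * per l - q * per l = per l by ring]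
    exact hg n hn
  set p : ℕ → E := fun n => ρ⁻¹ • (F (q * per l) (((m * MM l + n : ℕ) : ℝ) * ρ)
    (Function.update κ l (n % NN l)) - ((q : ℝ) * per l) • W) with hp
  set g : ℕ → ℕ → E := fun j n => ρ⁻¹ • (F (qq j * per (l + 1)) (((m * MM l + n : ℕ) : ℝ) * ρ)
    (Function.update κ l j) - ((qq j : ℝ) * per (l + 1)) • W) with hgdef
  have hnorm : ∀ v w : E, ‖ρ⁻¹ • v - ρ⁻¹ • w‖ = ‖v - w‖ / ρ := by
    intro v w
    rw [← smul_sub, norm_smul, Real.norm_eq_abs, abs_of_pos (inv_pos.2 hρ)]; ring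
  have hagree : ∀ i j : ℕ, ∀ l' < l, Function.update κ l i l' = Function.update κ l j l' := by
    intro i j l' hl'
    rw [Function.update_of_ne (by omega), Function.update_of_ne (by omega)]
  have hpM : ‖p (N * N ^ 3) - p 0‖ / ((N * N ^ 3 : ℕ) : ℝ) = chord F l q m κ := by
    simp only [hp]
    rw [hnorm, ← hM]
    have h0 : MM l % NN l = 0 := by unfold MM; exact Nat.mul_mod_right _ _
    rw [h0, Nat.zero_mod, hupd, sub_sub_sub_cancel_right]
    unfold chord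
    have f1 : ((m * MM l + MM l : ℕ) : ℝ) * ρ = ((m : ℝ) + 1) * rr l := by
      rw [rr_succ l, ← hρdef]; push_cast; ring
    have f2 : ((m * MM l + 0 : ℕ) : ℝ) * ρ = (m : ℝ) * rr l := by
      rw [rr_succ l, ← hρdef]; push_cast; ring
    rw [f1, f2, div_div, rr_succ l, ← hρdef, mul_comm ρ]
  obtain ⟨j, hj, n, hn, hfin⟩ := uround (2 * D) β (by positivity) hβ0 N (N ^ 3) (by omega) hpig
    (by
      push_cast
      have : (0 : ℝ) < N ^ 2 := by positivity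
      nlinarith) p g
    (by
      intro j hj n hn
      rw [← hM] at hn
      simp only [hp, hgdef]
      rw [hnorm, div_le_iff₀ hρ]
      have a1 := hF.hL _ _ _ _ _ l (hvj j hj n hn) ((hc.persist hn).valid (htj j hj))
        (hagree j (n % NN l))
      rw [sub_self, abs_zero, zero_add, ← hρdef] at a1
      have a2 := hdrift j hj n hn
      set A := F (qq j * per (l + 1)) (((m * MM l + n : ℕ) : ℝ) * ρ) (Function.update κ l j)
      set B := F (qq j * per (l + 1)) (((m * MM l + n : ℕ) : ℝ) * ρ)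
        (Function.update κ l (n % NN l))
      set C := F (q * per l) (((m * MM l + n : ℕ) : ℝ) * ρ) (Function.update κ l (n % NN l))
        - ((q : ℝ) * per l) • W
      have a3 : A - ((qq j : ℝ) * per (l + 1)) • W - C =
          (A - B) + (B - ((qq j : ℝ) * per (l + 1)) • W - C) := by abel
      rw [a3]
      have := norm_add_le (A - B) (B - ((qq j : ℝ) * per (l + 1)) • W - C)
      nlinarith)
    (by
      intro n hn
      rw [← hM] at hn
      simp only [hp, hgdef]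
      rw [hnorm, div_le_iff₀ hρ]
      have := hdrift (n % N) (Nat.mod_lt _ (by omega)) n hn
      rw [hN] at this ⊢
      exact this)
    (by
      intro j hj n hn hne
      rw [← hM] at hn
      simp only [hp, hgdef]
      rw [hnorm, lt_div_iff₀ hρ]
      have a1 := hF.hA _ _ _ _ l (hvj j hj n hn) ((hc.persist hn).valid (htj j hj))
        (hagree j (n % NN l)) (by rw [Function.update_self, Function.update_self, hN]; exact hne)
      rw [← hρdef] at a1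
      have a2 := hdrift j hj n hn
      set A := F (qq j * per (l + 1)) (((m * MM l + n : ℕ) : ℝ) * ρ) (Function.update κ l j)
      set B := F (qq j * per (l + 1)) (((m * MM l + n : ℕ) : ℝ) * ρ)
        (Function.update κ l (n % NN l))
      set C := F (q * per l) (((m * MM l + n : ℕ) : ℝ) * ρ) (Function.update κ l (n % NN l))
        - ((q : ℝ) * per l) • W
      have a3 : A - B = (A - ((qq j : ℝ) * per (l + 1)) • W - C) -
          (B - ((qq j : ℝ) * per (l + 1)) • W - C) := by abel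
      have a4 := norm_sub_le (A - ((qq j : ℝ) * per (l + 1)) • W - C)
        (B - ((qq j : ℝ) * per (l + 1)) • W - C)
      rw [← a3] at a4
      have a5 : 8 * β * ρ ≤ ‖A - B‖ := by
        have : 8 * β * ρ ≤ 8 * β * (D * ‖A - B‖) := by gcongr
        have e : 8 * β * (D * ‖A - B‖) = β * (8 * D) * ‖A - B‖ := by ring
        rw [e, hβD, one_mul] at this
        exact this
      have : 0 < β * ρ := by positivity
      linarith)
    (by
      have hpos : (0 : ℝ) < ((N * N ^ 3 : ℕ) : ℝ) := by push_cast; positivity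
      have := chord_le hF (S := S) (W := W) (β := β) ⟨hc, hg⟩
      rw [← hpM, div_le_iff₀ hpos] at this
      nlinarith)
  rw [← hM] at hn
  refine ⟨qq j, m * MM l + n, Function.update κ l j, hqq3 j hj n hn, ?_⟩
  rw [hpM] at hfin
  refine hfin.trans (le_of_eq ?_)
  simp only [hgdef]
  rw [hnorm, sub_sub_sub_cancel_right]
  unfold chord
  rw [← hρdef]
  congr 5
  push_cast; ring

/-- stretches of time segments -/
def SA (F : ℝ → ℝ → (ℕ → ℕ) → E) : Set ℝ :=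
  {x | ∃ l a b u κ, a < b ∧ EdgeAt l a b u κ ∧ x = ‖F b u κ - F a u κ‖ / (b - a)}

omit [InnerProductSpace ℝ E] in
lemma SA_nonempty (F : ℝ → ℝ → (ℕ → ℕ) → E) : (SA F).Nonempty := by
  have h : EdgeAt 0 0 1 (((0 : ℕ) : ℝ) * rr 0) (fun _ => 0) := ⟨0, cell_zero, Or.inl rfl⟩
  exact ⟨‖F 1 (((0 : ℕ) : ℝ) * rr 0) (fun _ => 0) - F 0 (((0 : ℕ) : ℝ) * rr 0) (fun _ => 0)‖
    / (1 - 0), 0, 0, 1, _, _, one_pos, h, rfl⟩

theorem no_embed [FiniteDimensional ℝ E] (hF : Hyp F D) : False := by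
  have : ProperSpace E := FiniteDimensional.proper_real E
  have hD := hF.hD
  have hD0 : 0 < D := by linarith
  obtain ⟨β, hβ⟩ : ∃ β : ℝ, β = 1 / (8 * D) := ⟨_, rfl⟩
  have hβ0 : 0 < β := by rw [hβ]; positivity
  obtain ⟨N0, hN0⟩ := pigeon (E := E) (2 * D) β hβ0
  obtain ⟨n, hn⟩ := exists_nat_ge (max (N0 : ℝ) (40 * D ^ 2 / β ^ 2))
  obtain ⟨N, hN⟩ : ∃ N : ℕ, N = n + 10 := ⟨_, rfl⟩
  have hNr : (10 : ℝ) ≤ N := by rw [hN]; push_cast; linarith [Nat.cast_nonneg (α := ℝ) n]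
  have hnN : (n : ℝ) ≤ N := by rw [hN]; push_cast; linarith
  have hNN0 : N ≥ N0 := by
    have : (N0 : ℝ) ≤ N := ((le_max_left _ _).trans hn).trans hnN
    exact_mod_cast this
  have hNβ : 40 * D ^ 2 ≤ N * β ^ 2 := by
    have : 40 * D ^ 2 / β ^ 2 ≤ N := ((le_max_right _ _).trans hn).trans hnN
    rwa [div_le_iff₀ (by positivity)] at this
  obtain ⟨k, hk⟩ : ∃ k : ℕ, k = N ^ 4 := ⟨_, rfl⟩
  obtain ⟨a, ha⟩ : ∃ a : ℝ, a = (asp N (k + 1) : ℝ) := ⟨_, rfl⟩
  have ha1 : 1 ≤ a := by rw [ha]; exact_mod_cast asp_pos N (by omega) _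
  obtain ⟨ε, hε⟩ : ∃ ε : ℝ, ε = β ^ 2 / (8 * (N : ℝ) ^ 2 * a ^ 2 * ((N : ℝ) ^ 4 + 1)) := ⟨_, rfl⟩
  have hε0 : 0 < ε := by rw [hε]; positivity
  -- the extremal stretch in the time direction
  set A : Set ℝ := SA F with hA
  have hAne : A.Nonempty := SA_nonempty F
  have hAD : ∀ x ∈ A, x ≤ D := by
    rintro x ⟨l, a, b, u, κ, hab, he, rfl⟩
    have := hF.hL0 _ _ _ _ _ (he.valid ⟨hab.le, le_rfl⟩) (he.valid ⟨le_rfl, hab.le⟩)
    rw [sub_self, abs_zero, add_zero, abs_of_pos (sub_pos.2 hab)] at this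
    rwa [div_le_iff₀ (sub_pos.2 hab)]
  have hAbdd : BddAbove A := ⟨D, hAD⟩
  set S := sSup A with hS
  have hSD : S ≤ D := csSup_le hAne hAD
  obtain ⟨x, ⟨l, t1, t2, u, κ, h12, he, rfl⟩, hxS⟩ :=
    exists_lt_of_lt_csSup hAne (show S - ε / (2 * D) < S by
      have : 0 < ε / (2 * D) := by positivity
      linarith)
  have hT : 0 < t2 - t1 := sub_pos.2 h12
  set W : E := (t2 - t1)⁻¹ • (F t2 u κ - F t1 u κ) with hW
  have hWn : ‖W‖ = ‖F t2 u κ - F t1 u κ‖ / (t2 - t1) := by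
    rw [hW, norm_smul, Real.norm_eq_abs, abs_of_pos (inv_pos.2 hT)]; ring
  have hWS : ‖W‖ ≤ S := by
    rw [hWn]; exact le_csSup hAbdd ⟨l, t1, t2, u, κ, h12, he, rfl⟩
  have hx : Ext F D S W := by
    refine ⟨fun l a b u κ hab he => ?_, hWS, hSD⟩
    rcases hab.eq_or_lt with rfl | hab
    · simp
    · have : ‖F b u κ - F a u κ‖ / (b - a) ≤ S := le_csSup hAbdd ⟨l, a, b, u, κ, hab, he, rfl⟩
      rw [div_le_iff₀ (sub_pos.2 hab)] at this
      linarith
  have hB : pot F S W u κ t2 - pot F S W u κ t1 ≤ (t2 - t1) * ε := by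
    rw [pot_sub]
    have e : F t2 u κ - F t1 u κ = (t2 - t1) • W := by
      rw [hW, smul_smul, mul_inv_cancel₀ hT.ne', one_smul]
    rw [e, inner_smul_left, real_inner_self_eq_norm_sq]
    simp only [conj_trivial]
    rw [← hWn] at hxS
    have h1 : S - ‖W‖ ≤ ε / (2 * D) := by linarith
    have h2 : S + ‖W‖ ≤ 2 * D := by linarith
    have h3 : (S - ‖W‖) * (S + ‖W‖) ≤ ε / (2 * D) * (2 * D) :=
      mul_le_mul h1 h2 (by linarith [norm_nonneg W]) (by positivity)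
    rw [div_mul_cancel₀ _ (by positivity)] at h3
    nlinarith
  obtain ⟨L, hL⟩ := rr_small (min ((t2 - t1) * ε / (4 * D ^ 2)) ((t2 - t1) / (4 * N * a)))
    (lt_min (by positivity) (by positivity))
  obtain ⟨l0, hl0, hblock⟩ := exists_block n k (max L l)
  rw [← hN] at hblock
  obtain ⟨m, hc, hu⟩ := he.le ((le_max_right _ _).trans hl0)
  have hr0 := hL l0 ((le_max_left _ _).trans hl0)
  have hr1 : rr l0 ≤ (t2 - t1) * ε / (4 * D ^ 2) := hr0.trans (min_le_left _ _)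
  have hr2 : rr l0 ≤ (t2 - t1) / (4 * N * a) := hr0.trans (min_le_right _ _)
  rw [le_div_iff₀ (by positivity)] at hr1 hr2
  have hN0' : NN l0 = N := (hblock 0 (Nat.zero_le _)).1
  have hrem0 : rem l0 = k + 1 := (hblock 0 (Nat.zero_le _)).2
  have hM : MM l0 = N * N ^ 3 := by unfold MM; rw [hN0']
  have eπ : per l0 = N * a * rr (l0 + 1) := by
    unfold per tau; rw [hN0', hrem0, ha]; ring
  have hρ := rr_pos (l0 + 1)
  have hρle := rr_anti (Nat.le_succ l0)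
  obtain ⟨q, -, -, hgood⟩ := sel_cells hF hx β (l := l0) (P := 1) (m0 := m) (κ := κ) one_pos
    (fun m' hm' => by
      have : m' = 0 := by omega
      rw [this, add_zero]; exact hc)
    (lr := l0) (R := 2 * rr l0) (B := (t2 - t1) * ε) le_rfl ⟨m, hc, hu⟩ (fun _ _ => rfl)
    (fun n hn => by
      have hn' : (n : ℝ) ≤ MM l0 := by exact_mod_cast (by simpa using hn)
      have hn0 : (0 : ℝ) ≤ n := Nat.cast_nonneg _
      have e := rr_succ l0
      have : |((m * MM l0 + n : ℕ) : ℝ) * rr (l0 + 1) - u| ≤ rr l0 := by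
        rw [abs_le]
        rcases hu with hu | hu <;> rw [hu, e] <;> push_cast <;> constructor <;> nlinarith
      linarith)
    hB
    (by
      rw [eπ]
      have : 4 * (N * a * rr (l0 + 1)) ≤ 4 * (N * a * rr l0) := by gcongr
      linarith)
    (by
      rw [eπ, hM]
      have h1 : (t2 - t1) * ε + 2 * D * (D * (2 * rr l0)) ≤ 2 * ((t2 - t1) * ε) := by nlinarith
      have h2 : (((1 * (N * N ^ 3) + 1 : ℕ) : ℝ)) = (N : ℝ) ^ 4 + 1 := by push_cast; ring
      rw [h2]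
      calc 2 * (N * a * rr (l0 + 1)) * (2 * (N * a * rr (l0 + 1)) * (((N : ℝ) ^ 4 + 1) *
            ((t2 - t1) * ε + 2 * D * (D * (2 * rr l0)))))
          ≤ 2 * (N * a * rr (l0 + 1)) * (2 * (N * a * rr (l0 + 1)) * (((N : ℝ) ^ 4 + 1) *
            (2 * ((t2 - t1) * ε)))) := by gcongr
        _ = _ := by rw [hε]; field_simp; ring)
  have hind : ∀ j ≤ k, ∃ q m κ, Good F S W β (l0 + j) q m κ ∧
      j * (β ^ 2 / (4 * (N : ℝ) ^ 3)) ≤ chord F (l0 + j) q m κ ^ 2 := by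
    intro j
    induction j with
    | zero => intro _; exact ⟨q, m + 0, κ, hgood 0 one_pos, by simp; positivity⟩
    | succ j ih =>
      intro hj
      obtain ⟨q, m, κ, hg, hch⟩ := ih (by omega)
      obtain ⟨q', m', κ', hg', hch'⟩ := step hF hx hβ (hN0 N hNN0) hNβ (hblock j (by omega)).1
        (hblock (j + 1) hj).1 (by
          rw [(hblock j (by omega)).2, add_assoc, (hblock (j + 1) hj).2]; omega) hg
      refine ⟨q', m', κ', hg', ?_⟩
      push_cast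
      rw [← add_assoc]
      linarith
  obtain ⟨q, m, κ, hg, hch⟩ := hind k le_rfl
  have h1 := chord_le hF hg
  have h0 : 0 ≤ chord F (l0 + k) q m κ := by
    unfold chord; exact div_nonneg (norm_nonneg _) (rr_pos _).le
  have h2 : chord F (l0 + k) q m κ ^ 2 ≤ D ^ 2 := pow_le_pow_left₀ h0 h1 2
  have h3 : (k : ℝ) * (β ^ 2 / (4 * (N : ℝ) ^ 3)) = N * β ^ 2 / 4 := by
    rw [hk]; push_cast; field_simp
  rw [h3] at hch
  nlinarith

end H8LP
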