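import Crest.Agent.H8.LP4
import Crest.Prelude.Def_Doubling

set_option autoImplicit false

/-! Lang–Plaut counterexample, part 5: the set inside a Banach space. -/

namespace H8LP

open Finset

variable {B : Type*} [NormedAddCommGroup B] [NormedSpace ℝ B]

lemma riesz_span (h : ¬FiniteDimensional ℝ B) (s : Finset B) :
    ∃ x : B, ‖x‖ ≤ 3 ∧ ∀ y ∈ Submodule.span ℝ (s : Set B), 1 ≤ ‖x - y‖ := by
  let F := Submodule.span ℝ (s : Set B)
  have hF : F.FG := ⟨s, rfl⟩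
  have : FiniteDimensional ℝ F := .of_fg hF
  have Fclosed : IsClosed (F : Set B) := Submodule.closed_of_finiteDimensional _
  have : ∃ x, x ∉ F := by
    contrapose! h
    have : (⊤ : Submodule ℝ B) = F := by
      ext x
      simp [h]
    rw [← this] at hF
    exact .of_fg_top hF
  exact riesz_lemma_of_norm_lt (c := (2 : ℝ)) (by norm_num) (by norm_num) Fclosed this

structure Vecs (ξ ζ : B) (e : ℕ → B) : Prop where
  nξ : ‖ξ‖ ≤ 3
  nζ : ‖ζ‖ ≤ 3
  ne : ∀ i, ‖e i‖ ≤ 3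
  lξ : 1 ≤ ‖ξ‖
  lζ : ∀ a : ℝ, 1 ≤ ‖ζ - a • ξ‖
  le : ∀ i j, i ≠ j → ∀ a b : ℝ, 1 ≤ ‖e i - e j - (a • ξ + b • ζ)‖

lemma exists_vecs (h : ¬FiniteDimensional ℝ B) : ∃ (ξ ζ : B) (e : ℕ → B), Vecs ξ ζ e := by
  classical
  obtain ⟨ξ, h1, h2⟩ := riesz_span h ∅
  obtain ⟨ζ, h3, h4⟩ := riesz_span h {ξ}
  obtain ⟨e, h5, h6⟩ := exists_seq_of_forall_finset_exists (fun x : B => ‖x‖ ≤ 3)
    (fun x y => ∀ a b : ℝ, 1 ≤ ‖y - x - (a • ξ + b • ζ)‖) (fun s _ => by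
      obtain ⟨y, hy1, hy2⟩ := riesz_span h (insert ξ (insert ζ s))
      refine ⟨y, hy1, fun x hx a b => ?_⟩
      rw [sub_sub]
      refine hy2 _ (Submodule.add_mem _ (Submodule.subset_span (by simp [hx]))
        (Submodule.add_mem _ (Submodule.smul_mem _ _ (Submodule.subset_span (by simp)))
          (Submodule.smul_mem _ _ (Submodule.subset_span (by simp))))))
  refine ⟨ξ, ζ, e, h1, h3, h5, by simpa using h2 0 (Submodule.zero_mem _), fun a =>
    h4 _ (Submodule.smul_mem _ _ (Submodule.subset_span (by simp))), fun i j hij a b => ?_⟩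
  rcases lt_or_gt_of_ne hij with h | h
  · have := h6 i j h (-a) (-b)
    have e1 : e i - e j - (a • ξ + b • ζ) = -(e j - e i - ((-a) • ξ + (-b) • ζ)) := by
      simp only [neg_smul]; abel
    rw [e1, norm_neg]
    exact this
  · exact h6 j i h a b

/-- the parametrisation -/
noncomputable def Phi (ξ ζ : B) (e : ℕ → B) (t u : ℝ) (κ : ℕ → ℕ) : B :=
  t • ξ + u • ζ + ∑' l, rr (l + 1) • e (κ l)

variable {ξ ζ : B} {e : ℕ → B}

lemma rr_add_le' (l k : ℕ) : rr (l + k) ≤ rr l * (1 / 2) ^ k := by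
  refine (rr_add_le l k).trans (mul_le_mul_of_nonneg_left ?_ (rr_pos l).le)
  exact pow_le_pow_left₀ (by norm_num) (by norm_num) k

lemma term_le (hv : Vecs ξ ζ e) (l i : ℕ) : ‖rr (l + 1) • e i‖ ≤ 3 * (1 / 2) ^ l := by
  rw [norm_smul, Real.norm_eq_abs, abs_of_pos (rr_pos _)]
  have h1 := rr_add_le' 0 l
  simp only [zero_add, rr, one_mul] at h1
  have h2 := rr_anti (Nat.le_succ l)
  have h3 := hv.ne i
  have h4 := rr_pos (l + 1)
  nlinarith [norm_nonneg (e i)]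

lemma summable_bound : Summable fun l : ℕ => (3 : ℝ) * (1 / 2) ^ l :=
  summable_geometric_two.mul_left 3

lemma summable_term [CompleteSpace B] (hv : Vecs ξ ζ e) (κ : ℕ → ℕ) :
    Summable fun l => rr (l + 1) • e (κ l) :=
  Summable.of_norm_bounded summable_bound fun l => term_le hv l (κ l)

lemma Phi_same (t u t' u' : ℝ) (κ : ℕ → ℕ) :
    Phi ξ ζ e t u κ - Phi ξ ζ e t' u' κ = (t - t') • ξ + (u - u') • ζ := by
  simp only [Phi, sub_smul]; abel

lemma Phi_decomp [CompleteSpace B] (hv : Vecs ξ ζ e) (t u t' u' : ℝ) (κ κ' : ℕ → ℕ) (l : ℕ)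
    (h : ∀ l' < l, κ l' = κ' l') :
    ∃ w : B, ‖w‖ ≤ rr (l + 1) / 100 ∧ Phi ξ ζ e t u κ - Phi ξ ζ e t' u' κ' =
      (t - t') • ξ + (u - u') • ζ + rr (l + 1) • (e (κ l) - e (κ' l)) + w := by
  have s1 := summable_term hv κ
  have s2 := summable_term hv κ'
  have s3 := s1.sub s2
  refine ⟨∑' i, (rr (i + (l + 1) + 1) • e (κ (i + (l + 1))) -
    rr (i + (l + 1) + 1) • e (κ' (i + (l + 1)))), ?_, ?_⟩
  · have hs : HasSum (fun i : ℕ => 6 * rr (l + 2) * ((1 : ℝ) / 2) ^ i) (6 * rr (l + 2) * 2) :=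
      hasSum_geometric_two.mul_left _
    refine (tsum_of_norm_bounded hs fun i => ?_).trans ?_
    · rw [← smul_sub, norm_smul, Real.norm_eq_abs, abs_of_pos (rr_pos _),
        show i + (l + 1) + 1 = l + 2 + i by ring]
      have h1 := rr_add_le' (l + 2) i
      have h2 := norm_sub_le (e (κ (i + (l + 1)))) (e (κ' (i + (l + 1))))
      have h3 := hv.ne (κ (i + (l + 1)))
      have h4 := hv.ne (κ' (i + (l + 1)))
      have h5 := rr_pos (l + 2 + i)
      nlinarith [norm_nonneg (e (κ (i + (l + 1))) - e (κ' (i + (l + 1))))]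
    · have := rr_succ_le (l + 1)
      have := rr_pos (l + 2)
      linarith
  · have e1 := s3.sum_add_tsum_nat_add (l + 1)
    rw [s1.tsum_sub s2, sum_range_succ, sum_eq_zero (fun i hi => by
      rw [h i (mem_range.1 hi), sub_self]), zero_add] at e1
    have e2 : Phi ξ ζ e t u κ - Phi ξ ζ e t' u' κ' = (t - t') • ξ + (u - u') • ζ +
        (∑' l, rr (l + 1) • e (κ l) - ∑' l, rr (l + 1) • e (κ' l)) := by
      simp only [Phi, sub_smul]; abel
    rw [e2, ← e1, smul_sub]; abel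

lemma plane_upper (hv : Vecs ξ ζ e) (a b : ℝ) : ‖a • ξ + b • ζ‖ ≤ 3 * |a| + 3 * |b| := by
  have := norm_add_le (a • ξ) (b • ζ)
  rw [norm_smul, norm_smul, Real.norm_eq_abs, Real.norm_eq_abs] at this
  nlinarith [hv.nξ, hv.nζ, abs_nonneg a, abs_nonneg b]

lemma plane_lower (hv : Vecs ξ ζ e) (a b : ℝ) :
    |b| ≤ ‖a • ξ + b • ζ‖ ∧ |a| ≤ 4 * ‖a • ξ + b • ζ‖ := by
  have hb : |b| ≤ ‖a • ξ + b • ζ‖ := by
    rcases eq_or_ne b 0 with rfl | hb
    · simp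
    · have e1 : a • ξ + b • ζ = b • (ζ - (-a / b) • ξ) := by
        rw [smul_sub, smul_smul, mul_div_cancel₀ _ hb, neg_smul]; abel
      rw [e1, norm_smul, Real.norm_eq_abs]
      nlinarith [hv.lζ (-a / b), abs_nonneg b]
  refine ⟨hb, ?_⟩
  have h1 := norm_sub_le (a • ξ + b • ζ) (b • ζ)
  rw [add_sub_cancel_right, norm_smul, norm_smul, Real.norm_eq_abs, Real.norm_eq_abs] at h1
  nlinarith [hv.nζ, hv.lξ, abs_nonneg a, abs_nonneg b]

lemma Phi_upper [CompleteSpace B] (hv : Vecs ξ ζ e) (t u t' u' : ℝ) (κ κ' : ℕ → ℕ) (l : ℕ)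
    (h : ∀ l' < l, κ l' = κ' l') :
    ‖Phi ξ ζ e t u κ - Phi ξ ζ e t' u' κ'‖ ≤ 3 * |t - t'| + 3 * |u - u'| + 7 * rr (l + 1) := by
  obtain ⟨w, hw, hd⟩ := Phi_decomp hv t u t' u' κ κ' l h
  rw [hd]
  have h1 := norm_add_le ((t - t') • ξ + (u - u') • ζ + rr (l + 1) • (e (κ l) - e (κ' l))) w
  have h2 := norm_add_le ((t - t') • ξ + (u - u') • ζ) (rr (l + 1) • (e (κ l) - e (κ' l)))
  have h3 := plane_upper hv (t - t') (u - u')
  have hρ := rr_pos (l + 1)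
  rw [norm_smul, Real.norm_eq_abs, abs_of_pos hρ] at h2
  have h4 := norm_sub_le (e (κ l)) (e (κ' l))
  have h5 := hv.ne (κ l)
  have h6 := hv.ne (κ' l)
  nlinarith

lemma Phi_lowerA [CompleteSpace B] (hv : Vecs ξ ζ e) (t u t' u' : ℝ) (κ κ' : ℕ → ℕ) (l : ℕ)
    (h : ∀ l' < l, κ l' = κ' l') (hne : κ l ≠ κ' l) :
    rr (l + 1) ≤ 2 * ‖Phi ξ ζ e t u κ - Phi ξ ζ e t' u' κ'‖ := by
  obtain ⟨w, hw, hd⟩ := Phi_decomp hv t u t' u' κ κ' l h
  have hρ := rr_pos (l + 1)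
  have h1 := hv.le _ _ hne (-(t - t') / rr (l + 1)) (-(u - u') / rr (l + 1))
  have e1 : rr (l + 1) • (e (κ l) - e (κ' l) - ((-(t - t') / rr (l + 1)) • ξ +
      (-(u - u') / rr (l + 1)) • ζ)) = Phi ξ ζ e t u κ - Phi ξ ζ e t' u' κ' - w := by
    rw [hd, smul_sub (rr (l + 1)) (e (κ l) - e (κ' l)), smul_add, smul_smul, smul_smul,
      mul_div_cancel₀ _ hρ.ne', mul_div_cancel₀ _ hρ.ne', neg_smul, neg_smul]
    abel
  have h2 := norm_sub_le (Phi ξ ζ e t u κ - Phi ξ ζ e t' u' κ') w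
  rw [← e1, norm_smul, Real.norm_eq_abs, abs_of_pos hρ] at h2
  nlinarith

lemma Phi_lower [CompleteSpace B] (hv : Vecs ξ ζ e) (t u t' u' : ℝ) (κ κ' : ℕ → ℕ) :
    |t - t'| ≤ 56 * ‖Phi ξ ζ e t u κ - Phi ξ ζ e t' u' κ'‖ ∧
      |u - u'| ≤ 56 * ‖Phi ξ ζ e t u κ - Phi ξ ζ e t' u' κ'‖ := by
  classical
  have hp := plane_lower hv (t - t') (u - u')
  have hn := norm_nonneg (Phi ξ ζ e t u κ - Phi ξ ζ e t' u' κ')
  suffices H : ‖(t - t') • ξ + (u - u') • ζ‖ ≤ 14 * ‖Phi ξ ζ e t u κ - Phi ξ ζ e t' u' κ'‖ by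
    constructor <;> linarith [hp.1, hp.2]
  by_cases hκ : ∃ l, κ l ≠ κ' l
  · have hne := Nat.find_spec hκ
    have hag : ∀ l' < Nat.find hκ, κ l' = κ' l' := fun l' hl' => not_not.1 (Nat.find_min hκ hl')
    set l := Nat.find hκ
    have h1 := Phi_lowerA hv t u t' u' κ κ' l hag hne
    obtain ⟨w, hw, hd⟩ := Phi_decomp hv t u t' u' κ κ' l hag
    have e1 : (t - t') • ξ + (u - u') • ζ = Phi ξ ζ e t u κ - Phi ξ ζ e t' u' κ' - w -
        rr (l + 1) • (e (κ l) - e (κ' l)) := by rw [hd]; abel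
    have h2 := norm_sub_le (Phi ξ ζ e t u κ - Phi ξ ζ e t' u' κ' - w)
      (rr (l + 1) • (e (κ l) - e (κ' l)))
    have h3 := norm_sub_le (Phi ξ ζ e t u κ - Phi ξ ζ e t' u' κ') w
    have hρ := rr_pos (l + 1)
    rw [← e1, norm_smul, Real.norm_eq_abs, abs_of_pos hρ] at h2
    have h4 := norm_sub_le (e (κ l)) (e (κ' l))
    have h5 := hv.ne (κ l)
    have h6 := hv.ne (κ' l)
    nlinarith
  · push Not at hκ
    have : κ = κ' := funext hκ
    subst this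
    rw [Phi_same] at hn ⊢
    linarith

/-- the set -/
def KK (ξ ζ : B) (e : ℕ → B) : Set B :=
  (fun z : ℝ × ℝ × (ℕ → ℕ) => Phi ξ ζ e z.1 z.2.1 z.2.2) '' {z | Valid z.1 z.2.1 z.2.2}

lemma isClosed_win (h : ℝ) (hh : 0 < h) (N : ℕ) : IsClosed {p : ℝ × ℕ | Win h N p.1 p.2} := by
  have e : {p : ℝ × ℕ | Win h N p.1 p.2} =
      ⋃ n : ℕ, {p : ℝ × ℕ | n % N = p.2 ∧ |p.1 - n * h| ≤ h} := by
    ext p; simp [Win]
  rw [e]
  refine LocallyFinite.isClosed_iUnion (fun p => ?_) (fun n => ?_)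
  · refine ⟨{q | q.1 < p.1 + 1}, (isOpen_lt continuous_fst continuous_const).mem_nhds (by simp), ?_⟩
    refine (Set.finite_le_nat ⌈(p.1 + 1 + h) / h⌉₊).subset ?_
    rintro n ⟨q, ⟨-, h2⟩, h3⟩
    have h4 : (n : ℝ) ≤ (p.1 + 1 + h) / h := by
      rw [le_div_iff₀ hh]
      have := (abs_le.1 h2).1
      simp only [Set.mem_ofPred_eq] at h3
      linarith
    exact_mod_cast h4.trans (Nat.le_ceil _)
  · have c1 : IsClosed {p : ℝ × ℕ | n % N = p.2} := isClosed_eq continuous_const continuous_snd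
    have c2 : IsClosed {p : ℝ × ℕ | |p.1 - n * h| ≤ h} :=
      isClosed_le (by fun_prop) continuous_const
    exact c1.inter c2

lemma isCompact_KK [CompleteSpace B] (hv : Vecs ξ ζ e) : IsCompact (KK ξ ζ e) := by
  have hcomp : IsCompact (Set.Icc (0 : ℝ) 1 ×ˢ Set.Icc (0 : ℝ) 1 ×ˢ
      Set.pi Set.univ (fun l => {i : ℕ | i < NN l})) :=
    isCompact_Icc.prod (isCompact_Icc.prod
      (isCompact_univ_pi fun l => (Set.finite_lt_nat _).isCompact))
  have hclosed : IsClosed {z : ℝ × ℝ × (ℕ → ℕ) | Valid z.1 z.2.1 z.2.2} := by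
    have e : {z : ℝ × ℝ × (ℕ → ℕ) | Valid z.1 z.2.1 z.2.2} =
        (fun z => z.1) ⁻¹' Set.Icc 0 1 ∩ ((fun z => z.2.1) ⁻¹' Set.Icc 0 1 ∩
          ⋂ l, ((fun z => (z.1, z.2.2 l)) ⁻¹' {p : ℝ × ℕ | Win (tau l) (NN l) p.1 p.2} ∪
            (fun z => (z.2.1, z.2.2 l)) ⁻¹' {p : ℝ × ℕ | Win (rr (l + 1)) (NN l) p.1 p.2})) := by
      ext z; simp [Valid, Ok]
    rw [e]
    refine (isClosed_Icc.preimage (by fun_prop)).inter ((isClosed_Icc.preimage (by fun_prop)).inter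
      (isClosed_iInter fun l => IsClosed.union ?_ ?_))
    · exact (isClosed_win _ (tau_pos l) _).preimage (by fun_prop)
    · exact (isClosed_win _ (rr_pos _) _).preimage (by fun_prop)
  refine IsCompact.image (hcomp.of_isClosed_subset hclosed ?_) ?_
  · rintro z ⟨h1, h2, h3⟩
    refine ⟨h1, h2, fun l _ => ?_⟩
    rcases h3 l with ⟨n, hn, -⟩ | ⟨n, hn, -⟩ <;>
      (show z.2.2 l < NN l; rw [← hn]; exact Nat.mod_lt _ (NN_pos l))
  · unfold Phi
    refine Continuous.add (by fun_prop) ?_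
    refine continuous_tsum (fun l => ?_) summable_bound (fun l z => term_le hv l _)
    have : Continuous e := continuous_of_discreteTopology
    fun_prop

omit [NormedSpace ℝ B] in
lemma cover {ι : Type*} (K : Set B) (x : B) (hx : x ∈ K) (r : ℝ) (T : Finset ι)
    (rel : B → ι → Prop) (h1 : ∀ y ∈ K ∩ Metric.closedBall x (2 * r), ∃ τ ∈ T, rel y τ)
    (h2 : ∀ τ y y', rel y τ → rel y' τ → dist y y' ≤ r) :
    ∃ C : Finset B, (↑C : Set B) ⊆ K ∧ C.card ≤ T.card ∧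
      K ∩ Metric.closedBall x (2 * r) ⊆ ⋃ c ∈ C, Metric.closedBall c r := by
  classical
  have hex : ∀ τ : ι, ∃ c ∈ K, (∃ y ∈ K, rel y τ) → rel c τ := by
    intro τ
    by_cases h : ∃ y ∈ K, rel y τ
    · obtain ⟨y, hy, hr⟩ := h
      exact ⟨y, hy, fun _ => hr⟩
    · exact ⟨x, hx, fun h' => absurd h' h⟩
  choose c hc1 hc2 using hex
  refine ⟨T.image c, ?_, card_image_le, fun y hy => ?_⟩
  · intro z hz
    obtain ⟨τ, -, rfl⟩ := mem_image.1 (mem_coe.1 hz)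
    exact hc1 τ
  · obtain ⟨τ, hτ, hr⟩ := h1 y hy
    simp only [Set.mem_iUnion]
    exact ⟨c τ, mem_image_of_mem _ hτ, h2 τ _ _ hr (hc2 τ ⟨y, hy.1, hr⟩)⟩

lemma win_mem {h : ℝ} (hh : 0 < h) {N : ℕ} {x x0 : ℝ} {i : ℕ} (hw : Win h N x i) (h0 : 0 ≤ x0)
    (hx : |x - x0| ≤ 2240 * h) :
    i ∈ (Finset.Icc (⌊x0 / h⌋₊ - 2242) (⌊x0 / h⌋₊ + 2242)).image (· % N) := by
  obtain ⟨n, hn, hn2⟩ := hw
  refine mem_image.2 ⟨n, ?_, hn⟩
  have a1 : (⌊x0 / h⌋₊ : ℝ) ≤ x0 / h := Nat.floor_le (by positivity)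
  have a2 : x0 / h < ⌊x0 / h⌋₊ + 1 := Nat.lt_floor_add_one _
  rw [le_div_iff₀ hh] at a1
  rw [div_lt_iff₀ hh] at a2
  rw [abs_le] at hx hn2
  have b1 : (⌊x0 / h⌋₊ : ℝ) ≤ n + 2242 := by
    by_contra hcon
    push Not at hcon
    nlinarith [hx.1, hn2.2]
  have b2 : (n : ℝ) ≤ ⌊x0 / h⌋₊ + 2242 := by
    by_contra hcon
    push Not at hcon
    nlinarith [hx.2, hn2.1]
  have c1 : ⌊x0 / h⌋₊ ≤ n + 2242 := by exact_mod_cast b1
  have c2 : n ≤ ⌊x0 / h⌋₊ + 2242 := by exact_mod_cast b2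
  rw [Finset.mem_Icc]; omega

lemma floor_mem {x r : ℝ} (hr : 0 < r) (hx : |x| ≤ 112 * r) :
    ⌊x / (r / 20)⌋ ∈ Finset.Icc (-2240 : ℤ) 2240 := by
  rw [abs_le] at hx
  rw [Finset.mem_Icc]
  constructor
  · rw [Int.le_floor, le_div_iff₀ (by positivity)]; push_cast; linarith [hx.1]
  · rw [← Int.lt_add_one_iff, Int.floor_lt, div_lt_iff₀ (by positivity)]
    push_cast; linarith [hx.2]

lemma floor_close {x y r : ℝ} (hr : 0 < r) (h : ⌊x / (r / 20)⌋ = ⌊y / (r / 20)⌋) :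
    |x - y| ≤ r / 20 := by
  have := Int.abs_sub_lt_one_of_floor_eq_floor h
  rw [← sub_div, abs_div, abs_of_pos (show 0 < r / 20 by positivity),
    div_lt_one (by positivity)] at this
  exact this.le

lemma doubling_KK [CompleteSpace B] (hv : Vecs ξ ζ e) :
    Crest.GeometryTopology.DoublingConstLE (KK ξ ζ e) (4481 * (4481 * 8971)) := by
  classical
  intro x hx r hr
  obtain ⟨⟨t0, u0, κ0⟩, hv0, hx0⟩ := id hx
  simp only [Set.mem_ofPred_eq] at hv0 hx0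
  have hex : ∃ l, rr (l + 1) ≤ 4 * r := by
    obtain ⟨L, hL⟩ := rr_small (4 * r) (by positivity)
    exact ⟨L, hL _ (Nat.le_succ L)⟩
  have hl1 := Nat.find_spec hex
  have hl2 : ∀ l' < Nat.find hex, 4 * r < rr (l' + 1) := fun l' hl' =>
    not_le.1 (Nat.find_min hex hl')
  set l := Nat.find hex
  set Dset : Finset ℕ := insert 0
    ((Finset.Icc (⌊t0 / tau l⌋₊ - 2242) (⌊t0 / tau l⌋₊ + 2242)).image (· % NN l) ∪
      (Finset.Icc (⌊u0 / rr (l + 1)⌋₊ - 2242) (⌊u0 / rr (l + 1)⌋₊ + 2242)).image (· % NN l))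
    with hDset
  have hDcard : Dset.card ≤ 8971 := by
    refine (card_insert_le _ _).trans ?_
    have h1 := card_union_le
      ((Finset.Icc (⌊t0 / tau l⌋₊ - 2242) (⌊t0 / tau l⌋₊ + 2242)).image (· % NN l))
      ((Finset.Icc (⌊u0 / rr (l + 1)⌋₊ - 2242) (⌊u0 / rr (l + 1)⌋₊ + 2242)).image (· % NN l))
    have h2 := card_image_le (s := Finset.Icc (⌊t0 / tau l⌋₊ - 2242) (⌊t0 / tau l⌋₊ + 2242))
      (f := (· % NN l))
    have h3 := card_image_le
      (s := Finset.Icc (⌊u0 / rr (l + 1)⌋₊ - 2242) (⌊u0 / rr (l + 1)⌋₊ + 2242)) (f := (· % NN l))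
    rw [Nat.card_Icc] at h2 h3
    omega
  obtain ⟨I, hI⟩ : ∃ I : Finset ℤ, I = Finset.Icc (-2240 : ℤ) 2240 := ⟨_, rfl⟩
  have hIcard : I.card = 4481 := by
    rw [hI, Int.card_Icc]; rfl
  obtain ⟨C, hC1, hC2, hC3⟩ := cover (KK ξ ζ e) x hx r (I ×ˢ I ×ˢ Dset)
    (fun y τ => ∃ t u κ, y = Phi ξ ζ e t u κ ∧ ⌊(t - t0) / (r / 20)⌋ = τ.1 ∧
      ⌊(u - u0) / (r / 20)⌋ = τ.2.1 ∧ (∀ l' < l, κ l' = κ0 l') ∧
      (if rr (l + 1) ≤ r / 20 then 0 else κ l) = τ.2.2)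
    (by
      rintro y ⟨⟨⟨t, u, κ⟩, hval, rfl⟩, hy⟩
      simp only [Set.mem_ofPred_eq] at hval
      rw [Metric.mem_closedBall, dist_eq_norm, ← hx0] at hy
      simp only at hy
      obtain ⟨a1, a2⟩ := Phi_lower hv t u t0 u0 κ κ0
      have b1 : |t - t0| ≤ 112 * r := by linarith
      have b2 : |u - u0| ≤ 112 * r := by linarith
      refine ⟨(⌊(t - t0) / (r / 20)⌋, ⌊(u - u0) / (r / 20)⌋,
        if rr (l + 1) ≤ r / 20 then 0 else κ l), ?_, t, u, κ, rfl, rfl, rfl, ?_, rfl⟩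
      · rw [mem_product, mem_product]
        refine ⟨hI ▸ floor_mem hr b1, hI ▸ floor_mem hr b2, ?_⟩
        simp only
        split_ifs with hc
        · exact mem_insert_self _ _
        · push Not at hc
          refine mem_insert_of_mem (mem_union.2 ?_)
          rcases hval.2.2 l with hw | hw
          · exact Or.inl (win_mem (tau_pos l) hw hv0.1.1 (by linarith [rr_le_tau l]))
          · exact Or.inr (win_mem (rr_pos _) hw hv0.2.1.1 (by linarith))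
      · by_contra hcon
        push Not at hcon
        have hex' : ∃ l', κ l' ≠ κ0 l' := by
          obtain ⟨l', -, h⟩ := hcon; exact ⟨l', h⟩
        have hlt : Nat.find hex' < l := by
          obtain ⟨l', h1, h⟩ := hcon
          exact lt_of_le_of_lt (Nat.find_min' hex' h) h1
        have c1 := Phi_lowerA hv t u t0 u0 κ κ0 (Nat.find hex')
          (fun l' hl' => not_not.1 (Nat.find_min hex' hl')) (Nat.find_spec hex')
        have c2 := hl2 _ hlt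
        linarith)
    (by
      rintro τ y y' ⟨t, u, κ, rfl, h1, h2, h3, h4⟩ ⟨t', u', κ', rfl, h1', h2', h3', h4'⟩
      have a1 := floor_close hr (h1.trans h1'.symm)
      have a2 := floor_close hr (h2.trans h2'.symm)
      rw [sub_sub_sub_cancel_right] at a1 a2
      have hag : ∀ l' < l, κ l' = κ' l' := fun l' hl' => (h3 l' hl').trans (h3' l' hl').symm
      rw [dist_eq_norm]
      by_cases hc : rr (l + 1) ≤ r / 20
      · have := Phi_upper hv t u t' u' κ κ' l hag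
        linarith
      · rw [if_neg hc] at h4 h4'
        have := Phi_upper hv t u t' u' κ κ' (l + 1) (fun l' hl' => by
          rcases Nat.lt_succ_iff_lt_or_eq.1 hl' with h | rfl
          · exact hag l' h
          · exact h4.trans h4'.symm)
        have := rr_succ_le (l + 1)
        linarith)
  refine ⟨C, hC1, hC2.trans ?_, hC3⟩
  rw [card_product, card_product, hIcard]
  gcongr

lemma not_embed_KK [CompleteSpace B] (hv : Vecs ξ ζ e) {Y : Type*} [NormedAddCommGroup Y]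
    [NormedSpace ℝ Y] [FiniteDimensional ℝ Y] (f : KK ξ ζ e → Y) (c C : NNReal) :
    ¬ (LipschitzWith C f ∧ AntilipschitzWith c f) := by
  classical
  rintro ⟨hL, hA⟩
  set L := toEuclidean (E := Y)
  have hL' := L.lipschitz.comp hL
  have hA' := L.antilipschitz.comp hA
  generalize (‖(L : Y →L[ℝ] EuclideanSpace ℝ (Fin (Module.finrank ℝ Y)))‖₊ * C) = C' at hL'
  generalize (c * ‖(L.symm : EuclideanSpace ℝ (Fin (Module.finrank ℝ Y)) →L[ℝ] Y)‖₊) = c' at hA'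
  generalize (L ∘ f) = g at hL' hA'
  have hmem : ∀ t u κ, Valid t u κ → Phi ξ ζ e t u κ ∈ KK ξ ζ e :=
    fun t u κ h => ⟨(t, u, κ), h, rfl⟩
  have hC0 : (0 : ℝ) ≤ C' := C'.2
  have hc0 : (0 : ℝ) ≤ c' := c'.2
  have up : ∀ t u κ t' u' κ' (h : Valid t u κ) (h' : Valid t' u' κ'),
      ‖g ⟨_, hmem t u κ h⟩ - g ⟨_, hmem t' u' κ' h'⟩‖ ≤
        C' * ‖Phi ξ ζ e t u κ - Phi ξ ζ e t' u' κ'‖ := by
    intro t u κ t' u' κ' h h'
    have := hL'.dist_le_mul ⟨_, hmem t u κ h⟩ ⟨_, hmem t' u' κ' h'⟩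
    rwa [Subtype.dist_eq, dist_eq_norm, dist_eq_norm] at this
  have lo : ∀ t u κ t' u' κ' (h : Valid t u κ) (h' : Valid t' u' κ'),
      ‖Phi ξ ζ e t u κ - Phi ξ ζ e t' u' κ'‖ ≤
        c' * ‖g ⟨_, hmem t u κ h⟩ - g ⟨_, hmem t' u' κ' h'⟩‖ := by
    intro t u κ t' u' κ' h h'
    have := hA'.le_mul_dist ⟨_, hmem t u κ h⟩ ⟨_, hmem t' u' κ' h'⟩
    rwa [Subtype.dist_eq, dist_eq_norm, dist_eq_norm] at this
  refine no_embed (F := fun t u κ => if h : Valid t u κ then g ⟨_, hmem t u κ h⟩ else 0)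
    (D := 1 + 7 * C' + 2 * c') ⟨by linarith, ?_, ?_, ?_⟩
  · intro t u t' u' κ h h'
    simp only [dif_pos h, dif_pos h']
    have h1 := up t u κ t' u' κ h h'
    rw [Phi_same] at h1
    have h2 := plane_upper hv (t - t') (u - u')
    have h3 := mul_le_mul_of_nonneg_left h2 hC0
    nlinarith [abs_nonneg (t - t'), abs_nonneg (u - u')]
  · intro t u κ u' κ' l h h' hag
    simp only [dif_pos h, dif_pos h']
    have h1 := up t u κ t u' κ' h h'
    have h2 := Phi_upper hv t u t u' κ κ' l hag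
    rw [sub_self, abs_zero] at h2
    have h3 := mul_le_mul_of_nonneg_left h2 hC0
    nlinarith [abs_nonneg (u - u'), rr_pos (l + 1)]
  · intro t u κ κ' l h h' hag hne
    simp only [dif_pos h, dif_pos h']
    have h1 := lo t u κ t u κ' h h'
    have h2 := Phi_lowerA hv t u t u κ κ' l hag hne
    nlinarith [norm_nonneg (g ⟨_, hmem t u κ h⟩ - g ⟨_, hmem t u κ' h'⟩)]

end H8LP
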