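import Mathlib

set_option autoImplicit false

open MeasureTheory Set Filter Topology
open scoped ENNReal

namespace Crest.Agent.H8TE

/-- the standard exponential law -/
noncomputable def nu : Measure ℝ :=
  (volume.restrict (Ioi (0:ℝ))).withDensity (fun x => ENNReal.ofReal (Real.exp (-x)))

lemma meas_dens : Measurable (fun x : ℝ => ENNReal.ofReal (Real.exp (-x))) := by fun_prop

lemma lintegral_nu {f : ℝ → ℝ≥0∞} (hf : Measurable f) :
    ∫⁻ x, f x ∂nu = ∫⁻ x in Ioi (0:ℝ), ENNReal.ofReal (Real.exp (-x)) * f x := by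
  unfold nu
  rw [lintegral_withDensity_eq_lintegral_mul _ meas_dens hf]
  rfl

lemma integral_nu (f : ℝ → ℝ) :
    ∫ x, f x ∂nu = ∫ x in Ioi (0:ℝ), Real.exp (-x) * f x := by
  unfold nu
  rw [integral_withDensity_eq_integral_toReal_smul meas_dens (by simp)]
  refine integral_congr_ae (Eventually.of_forall fun x => ?_)
  simp [ENNReal.toReal_ofReal (Real.exp_pos _).le]

lemma integrable_nu_iff {f : ℝ → ℝ} :
    Integrable f nu ↔ IntegrableOn (fun x => Real.exp (-x) * f x) (Ioi 0) := by
  unfold nu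
  rw [integrable_withDensity_iff_integrable_smul' meas_dens (by simp)]
  unfold IntegrableOn
  simp [ENNReal.toReal_ofReal (Real.exp_pos _).le]

lemma nu_apply {s : Set ℝ} (hs : MeasurableSet s) :
    nu s = ∫⁻ x in s ∩ Ioi (0:ℝ), ENNReal.ofReal (Real.exp (-x)) := by
  unfold nu
  rw [withDensity_apply _ hs, Measure.restrict_restrict hs]

lemma lintegral_exp_Ioi (t : ℝ) :
    ∫⁻ x in Ioi t, ENNReal.ofReal (Real.exp (-x)) = ENNReal.ofReal (Real.exp (-t)) := by
  rw [← ofReal_integral_eq_lintegral_ofReal (integrableOn_exp_neg_Ioi t)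
    (Eventually.of_forall fun x => (Real.exp_pos _).le), integral_exp_neg_Ioi]

instance : IsProbabilityMeasure nu := ⟨by
  rw [nu_apply MeasurableSet.univ, univ_inter, lintegral_exp_Ioi]; simp⟩

lemma nu_Ioi_le (t : ℝ) : nu (Ioi t) ≤ ENNReal.ofReal (Real.exp (-t)) := by
  rw [nu_apply measurableSet_Ioi, ← lintegral_exp_Ioi]
  exact lintegral_mono_set inter_subset_left

lemma nu_Ioi {t : ℝ} (ht : 0 ≤ t) : nu (Ioi t) = ENNReal.ofReal (Real.exp (-t)) := by
  rw [nu_apply measurableSet_Ioi, ← lintegral_exp_Ioi, Ioi_inter_Ioi, sup_eq_left.mpr ht]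

lemma nu_ae_pos : ∀ᵐ x ∂nu, 0 < x := by
  have : nu (Ioi 0)ᶜ = 0 := by
    rw [nu_apply measurableSet_Ioi.compl, compl_inter_self]; simp
  exact this

lemma nu_Ioc_pos : 0 < nu (Ioc 0 1) := by
  have h1 : nu (Ioi 0) = nu (Ioc 0 1) + nu (Ioi 1) := by
    rw [← measure_union (Ioc_disjoint_Ioi le_rfl) measurableSet_Ioi, Ioc_union_Ioi_eq_Ioi zero_le_one]
  by_contra h
  have h0 : nu (Ioc 0 1) = 0 := by simpa using h
  rw [h0, zero_add, nu_Ioi le_rfl, nu_Ioi zero_le_one,
    ENNReal.ofReal_eq_ofReal_iff (Real.exp_pos _).le (Real.exp_pos _).le, Real.exp_eq_exp] at h1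
  norm_num at h1

/-- memorylessness -/
lemma lintegral_nu_split {f : ℝ → ℝ≥0∞} (hf : Measurable f) {r : ℝ} (hr : 0 ≤ r) :
    ∫⁻ x, f x ∂nu = ∫⁻ x in Iic r, f x ∂nu +
      ENNReal.ofReal (Real.exp (-r)) * ∫⁻ x, f (x + r) ∂nu := by
  rw [← lintegral_add_compl f (measurableSet_Iic (a := r))]
  congr 1
  rw [compl_Iic, ← lintegral_indicator measurableSet_Ioi,
    lintegral_nu (hf.indicator measurableSet_Ioi),
    lintegral_nu (f := fun x => f (x + r)) (by fun_prop),
    ← lintegral_const_mul _ (by fun_prop), ← lintegral_indicator measurableSet_Ioi,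
    ← lintegral_indicator measurableSet_Ioi,
    ← lintegral_add_right_eq_self _ r]
  refine lintegral_congr fun x => ?_
  by_cases hx : 0 < x
  · have h1 : x + r ∈ Ioi (0:ℝ) := by simp only [mem_Ioi]; linarith
    have h2 : x + r ∈ Ioi r := by simp only [mem_Ioi]; linarith
    rw [indicator_of_mem h1, indicator_of_mem h2, indicator_of_mem (show x ∈ Ioi (0:ℝ) from hx),
      ← mul_assoc, ← ENNReal.ofReal_mul (Real.exp_pos _).le, ← Real.exp_add]
    congr 3; ring
  · have h2 : x + r ∉ Ioi r := by simp only [mem_Ioi]; linarith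
    rw [indicator_of_notMem (show x ∉ Ioi (0:ℝ) from hx)]
    by_cases h1 : x + r ∈ Ioi (0:ℝ)
    · rw [indicator_of_mem h1, indicator_of_notMem h2, mul_zero]
    · rw [indicator_of_notMem h1]

/-- `∫_{t}^∞ y e^{-c y}` -/
lemma mul_exp_Ioi {c : ℝ} (hc : 0 < c) (t : ℝ) :
    IntegrableOn (fun y : ℝ => y * Real.exp (-(c * y))) (Ioi t) ∧
    ∫ y in Ioi t, y * Real.exp (-(c * y)) = Real.exp (-(c * t)) * (t / c + 1 / c ^ 2) := by
  have hd : ∀ y : ℝ, HasDerivAt (fun y : ℝ => -(Real.exp (-(c * y)) * (y / c + 1 / c ^ 2)))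
      (y * Real.exp (-(c * y))) y := by
    intro y
    have h1 : HasDerivAt (fun y : ℝ => -(c * y)) (-c) y := by
      simpa using ((hasDerivAt_id y).const_mul c).fun_neg
    have h2 : HasDerivAt (fun y : ℝ => y / c + 1 / c ^ 2) (1 / c) y := by
      simpa using ((hasDerivAt_id y).div_const c).add_const (1 / c ^ 2)
    have h3 := (h1.exp.fun_mul h2).fun_neg
    refine h3.congr_deriv ?_
    field_simp
    ring
  have hlim : Tendsto (fun y : ℝ => -(Real.exp (-(c * y)) * (y / c + 1 / c ^ 2))) atTop (𝓝 0) := by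
    have h1 : Tendsto (fun y : ℝ => c * y) atTop atTop := tendsto_id.const_mul_atTop hc
    have h2 := (Real.tendsto_pow_mul_exp_neg_atTop_nhds_zero 1).comp h1
    have h3 := (Real.tendsto_pow_mul_exp_neg_atTop_nhds_zero 0).comp h1
    have h4 := ((h2.add h3).div_const (c ^ 2)).neg
    simp only [add_zero, zero_div, neg_zero] at h4
    refine h4.congr fun y => ?_
    simp only [Function.comp]
    field_simp
  have hint : IntegrableOn (fun y : ℝ => y * Real.exp (-(c * y))) (Ioi t) := by
    have h0 : IntegrableOn (fun y : ℝ => y * Real.exp (-(c * y))) (Ioi (max t 0)) := by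
      refine integrableOn_Ioi_deriv_of_nonneg' (fun y _ => hd y) (fun y hy => ?_) hlim
      have : 0 < y := lt_of_le_of_lt (le_max_right _ _) hy
      positivity
    have h1 : IntegrableOn (fun y : ℝ => y * Real.exp (-(c * y))) (Ioc t (max t 0)) :=
      (Continuous.integrableOn_Icc (by fun_prop)).mono_set Ioc_subset_Icc_self
    have := h1.union h0
    rwa [Ioc_union_Ioi_eq_Ioi (le_max_left _ _)] at this
  refine ⟨hint, ?_⟩
  rw [integral_Ioi_of_hasDerivAt_of_tendsto' (fun y _ => hd y) hint hlim]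
  ring

lemma integrable_id_nu : Integrable (fun x : ℝ => x) nu := by
  rw [integrable_nu_iff]
  have := (mul_exp_Ioi one_pos 0).1
  simpa [mul_comm] using this

lemma integral_id_nu : ∫ x, x ∂nu = 1 := by
  rw [integral_nu]
  have := (mul_exp_Ioi one_pos 0).2
  simpa [mul_comm] using this

lemma exp_nu {c : ℝ} (hc : 0 ≤ c) :
    Integrable (fun x : ℝ => Real.exp (-(c * x))) nu ∧
      ∫ x, Real.exp (-(c * x)) ∂nu = 1 / (1 + c) := by
  have h : ∀ x : ℝ, Real.exp (-x) * Real.exp (-(c * x)) = Real.exp (-(1 + c) * x) := by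
    intro x; rw [← Real.exp_add]; congr 1; ring
  constructor
  · rw [integrable_nu_iff]
    simp only [h]
    exact exp_neg_integrableOn_Ioi 0 (by linarith)
  · rw [integral_nu]
    simp only [h]
    rw [integral_exp_mul_Ioi (by linarith)]
    simp only [mul_zero, Real.exp_zero]
    field_simp

/-- product law as a density on the orthant -/
lemma pi_nu_eq (N : ℕ) :
    Measure.pi (fun _ : Fin N => nu) =
      (volume.restrict (Set.pi Set.univ (fun _ : Fin N => Set.Ioi (0 : ℝ)))).withDensity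
        (fun x => ENNReal.ofReal (Real.exp (-∑ i, x i))) := by
  refine Measure.pi_eq fun s hs => ?_
  have hms : MeasurableSet (Set.pi univ s) := MeasurableSet.univ_pi hs
  rw [withDensity_apply _ hms, volume_pi, Measure.restrict_pi_pi, Measure.restrict_pi_pi]
  have hint : ∀ i, Integrable (fun x : ℝ => Real.exp (-x))
      (((volume : Measure ℝ).restrict (Ioi 0)).restrict (s i)) :=
    fun i => Integrable.restrict (integrableOn_exp_neg_Ioi 0)
  have hprod : ∀ x : Fin N → ℝ, Real.exp (-∑ i, x i) = ∏ i, Real.exp (-x i) := by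
    intro x
    rw [← Real.exp_sum, Finset.sum_neg_distrib]
  simp only [hprod]
  rw [← ofReal_integral_eq_lintegral_ofReal
    (Integrable.fintype_prod (f := fun _ x => Real.exp (-x)) hint)
    (Eventually.of_forall fun x => Finset.prod_nonneg fun i _ => (Real.exp_pos _).le),
    integral_fintype_prod_eq_prod (fun _ x => Real.exp (-x)),
    ENNReal.ofReal_prod_of_nonneg (fun i _ => integral_nonneg fun x => (Real.exp_pos _).le)]
  refine Finset.prod_congr rfl fun i _ => ?_
  rw [ofReal_integral_eq_lintegral_ofReal (hint i)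
    (Eventually.of_forall fun x => (Real.exp_pos _).le)]
  unfold nu
  rw [withDensity_apply _ (hs i)]

lemma integral_orthant (N : ℕ) (F : (Fin N → ℝ) → ℝ) :
    ∫ x in Set.pi Set.univ (fun _ : Fin N => Set.Ioi (0 : ℝ)), F x * Real.exp (-∑ i, x i) =
      ∫ x, F x ∂(Measure.pi (fun _ : Fin N => nu)) := by
  rw [pi_nu_eq, integral_withDensity_eq_integral_toReal_smul (by fun_prop) (by simp)]
  refine integral_congr_ae (Eventually.of_forall fun x => ?_)
  simp [ENNReal.toReal_ofReal (Real.exp_pos _).le, mul_comm]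

end Crest.Agent.H8TE
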