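import Crest.Agent.H8.TruncExpA

set_option autoImplicit false

open MeasureTheory Set Filter Topology
open scoped ENNReal

namespace Crest.Agent.H8TE

/-- Pólya frequency (order two) property -/
def PF2 (K : ℝ → ℝ≥0∞) : Prop :=
  ∀ x y z w : ℝ, x + w = y + z → x ≤ y → x ≤ z → K x * K w ≤ K y * K z

lemma PF2.neg {K : ℝ → ℝ≥0∞} (h : PF2 K) : PF2 (fun t => K (-t)) := by
  intro x y z w hs hy hz
  have := h (-w) (-y) (-z) (-x) (by linarith) (by linarith) (by linarith)
  simpa [mul_comm] using this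

lemma PF2.conv_pos {K : ℝ → ℝ≥0∞} (h : PF2 K) (hK : Measurable K) {a : ℝ} (ha : 0 < a) :
    PF2 (fun t => ∫⁻ u, K (t - a * u) ∂nu) := by
  intro x y z w hs hy hz
  set r : ℝ := (y - x) / a with hr
  have hr0 : 0 ≤ r := div_nonneg (by linarith) ha.le
  have har : a * r = y - x := by rw [hr]; field_simp
  have hm : ∀ t : ℝ, Measurable (fun u : ℝ => K (t - a * u)) := fun t => by fun_prop
  have h1 : ∫⁻ u, K (w - a * u) ∂nu = ∫⁻ u in Iic r, K (w - a * u) ∂nu +
      ENNReal.ofReal (Real.exp (-r)) * ∫⁻ u, K (z - a * u) ∂nu := by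
    rw [lintegral_nu_split (hm w) hr0]
    congr 2
    refine lintegral_congr fun u => ?_
    congr 1; linarith
  have h2 : ∫⁻ u, K (y - a * u) ∂nu = ∫⁻ u in Iic r, K (y - a * u) ∂nu +
      ENNReal.ofReal (Real.exp (-r)) * ∫⁻ u, K (x - a * u) ∂nu := by
    rw [lintegral_nu_split (hm y) hr0]
    congr 2
    refine lintegral_congr fun u => ?_
    congr 1; linarith
  have h3 : (∫⁻ v, K (x - a * v) ∂nu) * (∫⁻ u in Iic r, K (w - a * u) ∂nu) ≤
      (∫⁻ v, K (z - a * v) ∂nu) * (∫⁻ u in Iic r, K (y - a * u) ∂nu) := by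
    rw [← lintegral_lintegral_mul (hm x).aemeasurable (hm w).aemeasurable,
      ← lintegral_lintegral_mul (hm z).aemeasurable (hm y).aemeasurable]
    refine lintegral_mono_ae ?_
    filter_upwards [nu_ae_pos] with v hv
    refine setLIntegral_mono' measurableSet_Iic fun u hu => ?_
    have hu' : a * u ≤ a * r := mul_le_mul_of_nonneg_left hu ha.le
    have hv' : 0 ≤ a * v := mul_nonneg ha.le hv.le
    exact h _ _ _ _ (by linarith) (by linarith) (by linarith)
  simp only
  rw [h1, h2, mul_add, add_mul]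
  refine add_le_add (by rw [mul_comm _ (∫⁻ v, K (z - a * v) ∂nu)]; exact h3) (le_of_eq (by ring))

lemma PF2.conv {K : ℝ → ℝ≥0∞} (h : PF2 K) (hK : Measurable K) (a : ℝ) :
    PF2 (fun t => ∫⁻ u, K (t - a * u) ∂nu) := by
  rcases lt_trichotomy a 0 with ha | ha | ha
  · have := (h.neg.conv_pos (K := fun t => K (-t)) (by fun_prop) (neg_pos.mpr ha)).neg
    convert this using 4 with t u
    congr 1; ring
  · subst ha
    simpa using h
  · exact h.conv_pos hK ha

/-- the product law -/
noncomputable abbrev piNu (N : ℕ) : Measure (Fin N → ℝ) := Measure.pi (fun _ : Fin N => nu)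

/-- survival function of the linear form -/
noncomputable def surv {N : ℕ} (a : Fin N → ℝ) (t : ℝ) : ℝ≥0∞ :=
  piNu N {x | t < ∑ i, a i * x i}

lemma surv_anti {N : ℕ} (a : Fin N → ℝ) : Antitone (surv a) := fun _ _ hst =>
  measure_mono fun _ hx => lt_of_le_of_lt hst hx

lemma surv_meas {N : ℕ} (a : Fin N → ℝ) : Measurable (surv a) := (surv_anti a).measurable

lemma surv_prod {N : ℕ} (a : Fin (N + 1) → ℝ) (t : ℝ) :
    surv a t = (nu.prod (piNu N)) {p | t < a 0 * p.1 + ∑ i, a (Fin.succ i) * p.2 i} := by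
  have hmp := (measurePreserving_piFinSuccAbove (fun _ : Fin (N + 1) => nu) 0)
  have hms : MeasurableSet {p : ℝ × (Fin N → ℝ) | t < a 0 * p.1 + ∑ i, a (Fin.succ i) * p.2 i} :=
    measurableSet_lt measurable_const (by fun_prop)
  rw [← hmp.measure_preimage hms.nullMeasurableSet]
  unfold surv
  congr 1
  ext x
  simp [Fin.sum_univ_succ, Fin.tail]

lemma surv_succ {N : ℕ} (a : Fin (N + 1) → ℝ) (t : ℝ) :
    surv a t = ∫⁻ u, surv (fun i => a (Fin.succ i)) (t - a 0 * u) ∂nu := by
  have hms : MeasurableSet {p : ℝ × (Fin N → ℝ) | t < a 0 * p.1 + ∑ i, a (Fin.succ i) * p.2 i} :=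
    measurableSet_lt measurable_const (by fun_prop)
  rw [surv_prod, Measure.prod_apply hms]
  refine lintegral_congr fun u => ?_
  unfold surv
  congr 1
  ext x
  simp only [mem_preimage, mem_ofPred_eq]
  constructor <;> intro h <;> linarith

lemma surv_PF2 : ∀ {N : ℕ} (a : Fin N → ℝ), PF2 (surv a)
  | 0, a => by
    intro x y z w hs hy hz
    unfold surv
    by_cases hw : w < 0
    · have hy' : y < 0 := by linarith
      have hz' : z < 0 := by linarith
      have hx' : x < 0 := by linarith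
      simp [hw, hy', hz', hx']
    · simp [hw]
  | N + 1, a => by
    have h := (surv_PF2 (fun i => a (Fin.succ i))).conv (surv_meas _) (a 0)
    have : surv a = fun t => ∫⁻ u, surv (fun i => a (Fin.succ i)) (t - a 0 * u) ∂nu :=
      funext (surv_succ a)
    rw [this]; exact h

lemma surv_pos {N : ℕ} (a : Fin N → ℝ) {i : Fin N} (hi : 0 < a i) (t : ℝ) : 0 < surv a t := by
  classical
  set S : ℝ := ∑ j, |a j| with hS
  set M : ℝ := max 0 ((t + S) / a i) with hM
  have hM0 : 0 ≤ M := le_max_left _ _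
  have hM1 : t + S ≤ a i * M := by
    have : (t + S) / a i ≤ M := le_max_right _ _
    rwa [div_le_iff₀ hi, mul_comm] at this
  have hsub : Set.pi univ (fun j => if j = i then Ioi M else Ioc (0:ℝ) 1) ⊆
      {x : Fin N → ℝ | t < ∑ i, a i * x i} := by
    intro x hx
    simp only [Set.mem_pi, mem_univ, forall_true_left] at hx
    have hxi : M < x i := by simpa using hx i
    have hxj : ∀ j ∈ Finset.univ.erase i, -|a j| ≤ a j * x j := by
      intro j hj
      have hj' : j ≠ i := Finset.ne_of_mem_erase hj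
      have := hx j
      rw [if_neg hj'] at this
      have h1 : |a j * x j| ≤ |a j| := by
        rw [abs_mul, abs_of_pos this.1]
        exact mul_le_of_le_one_right (abs_nonneg _) this.2
      linarith [neg_abs_le (a j * x j)]
    have h2 := Finset.sum_le_sum hxj
    rw [Finset.sum_neg_distrib] at h2
    have h3 : ∑ j ∈ Finset.univ.erase i, |a j| ≤ S :=
      Finset.sum_le_sum_of_subset_of_nonneg (Finset.erase_subset _ _) fun _ _ _ => abs_nonneg _
    show t < ∑ i, a i * x i
    rw [← Finset.add_sum_erase _ _ (Finset.mem_univ i)]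
    have h4 : a i * M < a i * x i := mul_lt_mul_of_pos_left hxi hi
    linarith
  refine lt_of_lt_of_le ?_ (measure_mono hsub)
  rw [Measure.pi_pi]
  refine pos_iff_ne_zero.mpr (Finset.prod_ne_zero_iff.mpr fun j _ => ?_)
  split_ifs
  · rw [nu_Ioi hM0]; simp [Real.exp_pos]
  · exact nu_Ioc_pos.ne'

lemma surv_lt_one {N : ℕ} (a : Fin N → ℝ) {i : Fin N} (hi : a i < 0) (t : ℝ) : surv a t < 1 := by
  have h := surv_pos (fun j => -a j) (i := i) (by simpa using hi) (-t)
  have hms : MeasurableSet {x : Fin N → ℝ | t < ∑ i, a i * x i} :=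
    measurableSet_lt measurable_const (by fun_prop)
  have hsub : {x : Fin N → ℝ | -t < ∑ i, -a i * x i} ⊆ {x : Fin N → ℝ | t < ∑ i, a i * x i}ᶜ := by
    intro x hx
    simp only [neg_mul, Finset.sum_neg_distrib, mem_ofPred_eq, mem_compl_iff, not_lt] at hx ⊢
    linarith
  have h2 : 0 < piNu N {x : Fin N → ℝ | t < ∑ i, a i * x i}ᶜ := lt_of_lt_of_le h (measure_mono hsub)
  have h3 := prob_add_prob_compl (μ := piNu N) hms
  unfold surv
  rw [← h3]
  exact ENNReal.lt_add_right (measure_ne_top _ _) h2.ne'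

lemma integrable_lin {N : ℕ} (a : Fin N → ℝ) :
    Integrable (fun x : Fin N → ℝ => ∑ i, a i * x i) (piNu N) :=
  integrable_finsetSum _ fun i _ =>
    (integrable_comp_eval (μ := fun _ : Fin N => nu) (i := i) integrable_id_nu).const_mul _

lemma integral_lin {N : ℕ} (a : Fin N → ℝ) :
    ∫ x, ∑ i, a i * x i ∂(piNu N) = ∑ i, a i := by
  rw [integral_finsetSum _ fun i _ =>
    (integrable_comp_eval (μ := fun _ : Fin N => nu) (i := i) integrable_id_nu).const_mul _]
  refine Finset.sum_congr rfl fun i _ => ?_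
  rw [integral_const_mul, integral_comp_eval (μ := fun _ : Fin N => nu) (f := fun x => x)
    integrable_id_nu.aestronglyMeasurable, integral_id_nu, mul_one]

end Crest.Agent.H8TE
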