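import Crest.Agent.H8.TruncExpA

set_option autoImplicit false

open MeasureTheory Set Filter Topology
open scoped ENNReal

namespace Crest.Agent.H8TE

/-- continuity of an antitone Wright-concave function -/
lemma continuous_of_wright {L : ℝ → ℝ} (hanti : Antitone L)
    (hW : ∀ x y z w : ℝ, x + w = y + z → x ≤ y → x ≤ z → L x + L w ≤ L y + L z) :
    Continuous L := by
  have key : ∀ (y δ : ℝ), 0 ≤ δ → ∀ n : ℕ, n * (L y - L (y + δ)) ≤ L y - L (y + n * δ) := by
    intro y δ hδ n
    induction n with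
    | zero => simp
    | succ n ih =>
      have h1 := hW y (y + δ) (y + n * δ) (y + (n + 1) * δ) (by ring) (by linarith)
        (by have : (0:ℝ) ≤ n * δ := by positivity
            linarith)
      push_cast
      linarith
  rw [Metric.continuous_iff]
  intro y ε hε
  obtain ⟨n, hn⟩ := exists_nat_gt ((L y - L (y + 1)) / ε)
  have hn0 : (0:ℝ) < n := lt_of_le_of_lt (div_nonneg (by linarith [hanti (show y ≤ y + 1 by linarith)]) hε.le) hn
  have hright : ∀ δ : ℝ, 0 ≤ δ → δ < 1 / n → L y - L (y + δ) < ε := by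
    intro δ hδ hδ'
    have h1 := key y δ hδ n
    have h2 : n * δ ≤ 1 := by
      rw [lt_div_iff₀ hn0] at hδ'; linarith
    have h3 : L (y + 1) ≤ L (y + n * δ) := hanti (by linarith)
    rw [div_lt_iff₀ hε] at hn
    have : n * (L y - L (y + δ)) < n * ε := by linarith
    exact lt_of_mul_lt_mul_left this hn0.le
  refine ⟨1 / n, by positivity, fun x hx => ?_⟩
  rw [Real.dist_eq] at hx ⊢
  rcases le_total y x with h | h
  · have h1 := hright (x - y) (by linarith) (by rwa [abs_of_nonneg (by linarith)] at hx)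
    rw [abs_sub_comm, abs_of_nonneg (by linarith [hanti h])]
    simpa using h1
  · have h1 := hright (y - x) (by linarith) (by rwa [abs_sub_comm, abs_of_nonneg (by linarith)] at hx)
    have h2 := hW x y y (y + (y - x)) (by ring) h h
    rw [abs_of_nonneg (by linarith [hanti h])]
    linarith

lemma concave_of_midpoint {L : ℝ → ℝ} (hc : Continuous L)
    (hm : ∀ y δ : ℝ, 0 ≤ δ → L (y - δ) + L (y + δ) ≤ 2 * L y) : ConcaveOn ℝ univ L := by
  have main : ∀ x y : ℝ, x < y → ∀ z ∈ Icc x y,
      L x + (L y - L x) / (y - x) * (z - x) ≤ L z := by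
    intro x y hxy
    set f : ℝ → ℝ := fun z => L z - (L x + (L y - L x) / (y - x) * (z - x)) with hf
    have hfc : Continuous f := by rw [hf]; fun_prop
    have hfx : f x = 0 := by simp [hf]
    have hfy : f y = 0 := by
      have : y - x ≠ 0 := by linarith
      simp only [hf]; field_simp; ring
    have hfm : ∀ y δ : ℝ, 0 ≤ δ → f (y - δ) + f (y + δ) ≤ 2 * f y := by
      intro y' δ hδ
      have := hm y' δ hδ
      simp only [hf]; nlinarith
    by_contra hcon
    push Not at hcon
    obtain ⟨z, hz, hzlt⟩ := hcon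
    have hfz : f z < 0 := by simp only [hf]; linarith
    obtain ⟨z0, hz0, hmin⟩ := isCompact_Icc.exists_isMinOn ⟨z, hz⟩ hfc.continuousOn
    have hS : IsCompact (Icc x y ∩ f ⁻¹' {f z0}) :=
      isCompact_Icc.inter_right (isClosed_singleton.preimage hfc)
    obtain ⟨z1, ⟨hz1, hz1f⟩, hleast⟩ := hS.exists_isLeast ⟨z0, hz0, rfl⟩
    have hz1f' : f z1 = f z0 := hz1f
    have hneg : f z0 < 0 := lt_of_le_of_lt (hmin hz) hfz
    have h1 : x < z1 := lt_of_le_of_ne hz1.1 (by rintro rfl; linarith)
    have h2 : z1 < y := lt_of_le_of_ne hz1.2 (by rintro rfl; linarith)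
    set δ := min (z1 - x) (y - z1) with hδ
    have hδ0 : 0 < δ := lt_min (by linarith) (by linarith)
    have hδ1 : δ ≤ z1 - x := min_le_left _ _
    have hδ2 : δ ≤ y - z1 := min_le_right _ _
    have ha : f z0 ≤ f (z1 - δ) := hmin ⟨by linarith, by linarith⟩
    have hb : f z0 ≤ f (z1 + δ) := hmin ⟨by linarith, by linarith⟩
    have hc' := hfm z1 δ hδ0.le
    have he : f (z1 - δ) = f z0 := by linarith
    have := hleast ⟨⟨by linarith, by linarith⟩, he⟩
    linarith
  refine concaveOn_of_slope_anti_adjacent convex_univ fun {x y z} _ _ hxy hyz => ?_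
  have := main x z (hxy.trans hyz) y ⟨hxy.le, hyz.le⟩
  have h1 : 0 < y - x := by linarith
  have h2 : 0 < z - y := by linarith
  have h3 : 0 < z - x := by linarith
  rw [div_le_div_iff₀ h2 h1]
  have h4 : (L z - L x) * (y - x) ≤ (L y - L x) * (z - x) := by
    have h5 : (L z - L x) / (z - x) * (y - x) ≤ L y - L x := by linarith
    rw [div_mul_eq_mul_div, div_le_iff₀ h3] at h5
    exact h5
  nlinarith

lemma three_point {s : Set ℝ} {f : ℝ → ℝ} (hf : ConcaveOn ℝ s f) {u v : ℝ} (hu : u ∈ s)
    (hv : v ∈ s) (huv : u < v) (he : f u = f v) {y : ℝ} (hy : y ∈ s) :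
    (y ∈ Icc u v → f u ≤ f y) ∧ (y ∉ Icc u v → f y ≤ f u) := by
  constructor
  · intro h
    rcases eq_or_lt_of_le h.1 with rfl | h1
    · exact le_rfl
    rcases eq_or_lt_of_le h.2 with rfl | h2
    · exact he.le
    have := hf.slope_anti_adjacent hu hv h1 h2
    by_contra hcon
    push Not at hcon
    have a1 : 0 < (f v - f y) / (v - y) := div_pos (by linarith) (by linarith)
    have a2 : (f y - f u) / (y - u) < 0 := div_neg_of_neg_of_pos (by linarith) (by linarith)
    linarith
  · intro h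
    rw [mem_Icc, not_and_or, not_le, not_le] at h
    rcases h with h | h
    · have := hf.slope_anti_adjacent hy hv h huv
      rw [← he, sub_self, zero_div, le_div_iff₀ (by linarith)] at this
      linarith
    · have := hf.slope_anti_adjacent hu hy huv h
      rw [he, sub_self, zero_div, div_le_iff₀ (by linarith)] at this
      linarith

/-- the Gamma(2) density -/
noncomputable def phi (y : ℝ) : ℝ := max y 0 * Real.exp (-y)

lemma phi_cont : Continuous phi := by unfold phi; fun_prop

lemma phi_nonneg (y : ℝ) : 0 ≤ phi y := mul_nonneg (le_max_right _ _) (Real.exp_pos _).le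

lemma phi_of_pos {y : ℝ} (hy : 0 ≤ y) : phi y = y * Real.exp (-y) := by
  unfold phi; rw [max_eq_left hy]

lemma phi_of_nonpos {y : ℝ} (hy : y ≤ 0) : phi y = 0 := by
  unfold phi; rw [max_eq_right hy, zero_mul]

lemma phi_le_one (y : ℝ) : phi y ≤ 1 := by
  rcases le_total y 0 with h | h
  · rw [phi_of_nonpos h]; exact zero_le_one
  · rw [phi_of_pos h, Real.exp_neg, mul_inv_le_iff₀ (Real.exp_pos _)]
    linarith [Real.add_one_le_exp y]

lemma phi_level {u v : ℝ} (hu : 0 < u) (huv : u < v) (he : phi u = phi v) (y : ℝ) :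
    (y ∈ Icc u v → phi u ≤ phi y) ∧ (y ∉ Icc u v → phi y ≤ phi u) := by
  have hconc : ConcaveOn ℝ (Ioi 0) (fun y : ℝ => Real.log y - y) :=
    strictConcaveOn_log_Ioi.concaveOn.sub (convexOn_id (convex_Ioi 0))
  have hexp : ∀ y : ℝ, 0 < y → phi y = Real.exp (Real.log y - y) := by
    intro y hy
    rw [phi_of_pos hy.le, sub_eq_add_neg, Real.exp_add, Real.exp_log hy]
  have hv : 0 < v := hu.trans huv
  have he' : Real.log u - u = Real.log v - v := by
    rw [hexp u hu, hexp v hv, Real.exp_eq_exp] at he; exact he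
  rcases le_or_gt y 0 with hy | hy
  · refine ⟨fun h => absurd h.1 (by linarith), fun _ => ?_⟩
    rw [phi_of_nonpos hy]; exact phi_nonneg _
  · have := three_point hconc hu hv huv he' hy
    rw [hexp u hu, hexp y hy]
    exact ⟨fun h => Real.exp_le_exp.mpr (this.1 h), fun h => Real.exp_le_exp.mpr (this.2 h)⟩

lemma phi_Ioi {t : ℝ} (ht : 0 ≤ t) : IntegrableOn phi (Ioi t) ∧
    ∫ y in Ioi t, phi y = Real.exp (-t) * (t + 1) := by
  have h := mul_exp_Ioi one_pos t
  have he : EqOn (fun y : ℝ => y * Real.exp (-(1 * y))) phi (Ioi t) := fun y hy => by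
    rw [phi_of_pos (ht.trans (le_of_lt hy))]; simp
  refine ⟨h.1.congr_fun he measurableSet_Ioi, ?_⟩
  rw [← setIntegral_congr_fun measurableSet_Ioi he, h.2]; simp

lemma phi_integrable : Integrable phi := by
  rw [← integrableOn_univ, ← Iic_union_Ioi (a := 0)]
  refine IntegrableOn.union ?_ (phi_Ioi le_rfl).1
  exact (integrableOn_zero).congr_fun (fun y hy => (phi_of_nonpos hy).symm) measurableSet_Iic

lemma integral_phi_mul (F : ℝ → ℝ) : ∫ y, phi y * F y = ∫ y in Ioi 0, phi y * F y := by
  symm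
  refine setIntegral_eq_integral_of_forall_compl_eq_zero fun y hy => ?_
  rw [phi_of_nonpos (not_lt.mp hy), zero_mul]

/-- survival function of `t + a X` -/
noncomputable def Kf (t a y : ℝ) : ℝ := min 1 (Real.exp (-((y - t) / a)))

lemma Kf_cont (t a : ℝ) : Continuous (Kf t a) := by unfold Kf; fun_prop

lemma Kf_nonneg (t a y : ℝ) : 0 ≤ Kf t a y := le_min zero_le_one (Real.exp_pos _).le

lemma Kf_le_one (t a y : ℝ) : Kf t a y ≤ 1 := min_le_left _ _

lemma Kf_of_le {t a y : ℝ} (ha : 0 < a) (h : y ≤ t) : Kf t a y = 1 := by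
  unfold Kf
  refine min_eq_left (Real.one_le_exp ?_)
  have : (y - t) / a ≤ 0 := div_nonpos_of_nonpos_of_nonneg (by linarith) ha.le
  linarith

lemma Kf_of_ge {t a y : ℝ} (ha : 0 < a) (h : t ≤ y) : Kf t a y = Real.exp (-((y - t) / a)) := by
  unfold Kf
  refine min_eq_right (Real.exp_le_one_iff.mpr ?_)
  have : 0 ≤ (y - t) / a := div_nonneg (by linarith) ha.le
  linarith

lemma Kf_mono {t t' a : ℝ} (ha : 0 < a) (h : t ≤ t') (y : ℝ) : Kf t a y ≤ Kf t' a y := by
  unfold Kf
  refine min_le_min le_rfl (Real.exp_le_exp.mpr ?_)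
  have : (y - t') / a ≤ (y - t) / a := div_le_div_of_nonneg_right (by linarith) ha.le
  linarith

lemma Kf_int (t : ℝ) {a : ℝ} (ha : 0 < a) :
    Integrable (fun y => Kf t a y - (Iic t).indicator 1 y) ∧
      ∫ y, (Kf t a y - (Iic t).indicator 1 y) = a := by
  have he : (fun y => Kf t a y - (Iic t).indicator 1 y) =
      (Ioi t).indicator (fun y => Real.exp (t / a) * Real.exp (-(1 / a) * y)) := by
    funext y
    rcases le_or_gt y t with h | h
    · rw [Kf_of_le ha h, indicator_of_mem (show y ∈ Iic t from h),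
        indicator_of_notMem (show y ∉ Ioi t from not_lt.mpr h)]; simp
    · rw [Kf_of_ge ha h.le, indicator_of_notMem (show y ∉ Iic t from not_le.mpr h),
        indicator_of_mem (show y ∈ Ioi t from h), ← Real.exp_add, sub_zero]
      congr 1; ring
  rw [he]
  have ha' : 0 < 1 / a := by positivity
  constructor
  · rw [integrable_indicator_iff measurableSet_Ioi]
    exact (exp_neg_integrableOn_Ioi t ha').const_mul _
  · rw [integral_indicator measurableSet_Ioi, integral_const_mul,
      integral_exp_mul_Ioi (by linarith)]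
    have : Real.exp (t / a) * Real.exp (-(1 / a) * t) = 1 := by
      rw [← Real.exp_add]; simp; ring_nf
    field_simp
    convert this using 2
    ring_nf

lemma phi_mul_integrable {F : ℝ → ℝ} (hF : Measurable F) (h0 : ∀ y, 0 ≤ F y) (h1 : ∀ y, F y ≤ 1) :
    Integrable (fun y => phi y * F y) :=
  phi_integrable.mul_bdd (c := 1) hF.aestronglyMeasurable
    (Eventually.of_forall fun y => by rw [Real.norm_eq_abs, abs_of_nonneg (h0 y)]; exact h1 y)

lemma exp_third_le : Real.exp (-(1/3)) ≤ 18 / 25 := by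
  rw [Real.exp_neg, inv_le_comm₀ (Real.exp_pos _) (by norm_num)]
  have := Real.quadratic_le_exp_of_nonneg (show (0:ℝ) ≤ 1 / 3 by norm_num)
  norm_num at this ⊢
  linarith

lemma J_bound {a : ℝ} (ha : 0 < a) :
    4 / 9 * Real.exp (-(1/3)) ≤ ∫ y, phi y * Kf (4/3 - a) a y := by
  set t := 4/3 - a with ht
  set c := 1 + 1 / a with hc
  have hc0 : 0 < c := by positivity
  have hexp : ∀ s, 0 ≤ s → t ≤ s → EqOn (fun y => Real.exp (t / a) * (y * Real.exp (-(c * y))))
      (fun y => phi y * Kf t a y) (Ioi s) := by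
    intro s hs hts y hy
    have hy' : s < y := hy
    simp only
    rw [phi_of_pos (by linarith), Kf_of_ge ha (by linarith), mul_assoc, ← Real.exp_add,
      mul_left_comm, ← Real.exp_add]
    congr 2
    rw [hc]; ring
  rw [integral_phi_mul]
  rcases le_or_gt t 0 with h | h
  · rw [← setIntegral_congr_fun measurableSet_Ioi (hexp 0 le_rfl h), integral_const_mul,
      (mul_exp_Ioi hc0 0).2]
    simp only [mul_zero, neg_zero, Real.exp_zero, zero_div, zero_add, one_mul]
    have h1 : t / a = -(1/3) + ((2 / (3 * a) - 1/3) + (2 / (3 * a) - 1/3)) := by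
      rw [ht]; field_simp; ring
    rw [h1, Real.exp_add, Real.exp_add]
    have h2 := Real.add_one_le_exp (2 / (3 * a) - 1/3)
    have h3 : 2 / (3 * a) - 1/3 + 1 = 2 / 3 * c := by rw [hc]; field_simp; ring
    rw [h3] at h2
    have h4 : (2 / 3 * c) * (2 / 3 * c) ≤
        Real.exp (2 / (3 * a) - 1/3) * Real.exp (2 / (3 * a) - 1/3) :=
      mul_le_mul h2 h2 (by positivity) (Real.exp_pos _).le
    have h5 : 4 / 9 ≤ Real.exp (2 / (3 * a) - 1/3) * Real.exp (2 / (3 * a) - 1/3) * (1 / c ^ 2) := by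
      rw [mul_one_div, le_div_iff₀ (by positivity)]
      nlinarith
    have := mul_le_mul_of_nonneg_left h5 (Real.exp_pos (-(1/3))).le
    linarith
  · have hint : IntegrableOn (fun y => phi y * Kf t a y) (Ioi 0) :=
      (phi_mul_integrable (Kf_cont t a).measurable (Kf_nonneg t a) (Kf_le_one t a)).integrableOn
    have hsplit : ∀ F : ℝ → ℝ, IntegrableOn F (Ioi 0) →
        ∫ y in Ioi 0, F y = (∫ y in Ioc 0 t, F y) + ∫ y in Ioi t, F y := by
      intro F hF
      rw [← setIntegral_union (Ioc_disjoint_Ioi le_rfl) measurableSet_Ioi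
        (hF.mono_set Ioc_subset_Ioi_self) (hF.mono_set (Ioi_subset_Ioi h.le)),
        Ioc_union_Ioi_eq_Ioi h.le]
    have h1 := hsplit phi (phi_Ioi le_rfl).1
    rw [(phi_Ioi le_rfl).2, (phi_Ioi h.le).2] at h1
    have h2 : ∫ y in Ioc 0 t, phi y * Kf t a y = ∫ y in Ioc 0 t, phi y :=
      setIntegral_congr_fun measurableSet_Ioc fun y hy => by
        rw [Kf_of_le ha hy.2, mul_one]
    rw [hsplit _ hint, h2, ← setIntegral_congr_fun measurableSet_Ioi (hexp t h.le le_rfl),
      integral_const_mul, (mul_exp_Ioi hc0 t).2, ← mul_assoc, ← Real.exp_add]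
    have h3 : t / a + -(c * t) = -t := by rw [hc]; ring
    rw [h3]
    simp only [neg_zero, Real.exp_zero, zero_add, mul_one] at h1
    have h4 : t + 1 - (t / c + 1 / c ^ 2) = ((1 + t) * (1 + a) + a) / (1 + a) ^ 2 := by
      rw [hc]; field_simp; ring
    have h5 : 1 + t + t ^ 2 / 2 + t ^ 3 / 6 ≤ Real.exp t := by
      have := Real.sum_le_exp_of_nonneg h.le 4
      simp [Finset.sum_range_succ, Nat.factorial] at this
      linarith
    have h6 : ((1 + t) * (1 + a) + a) / (1 + a) ^ 2 ≤ 17 / 25 * (1 + t + t ^ 2 / 2 + t ^ 3 / 6) := by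
      rw [div_le_iff₀ (by positivity)]
      have ha' : a = 4 / 3 - t := by rw [ht]; ring
      have ht' : t < 4 / 3 := by linarith
      rw [ha']
      nlinarith [mul_pos h (sub_pos.mpr ht'), sq_nonneg t, sq_nonneg (t - 1), sq_nonneg (t - 4/3),
        mul_pos (mul_pos h h) (sub_pos.mpr ht'), mul_pos (mul_pos (mul_pos h h) h) (sub_pos.mpr ht'),
        mul_pos (mul_pos h (sub_pos.mpr ht')) (sub_pos.mpr ht')]
    have h7 : Real.exp (-t) * (t + 1 - (t / c + 1 / c ^ 2)) ≤ 17 / 25 := by
      rw [h4, Real.exp_neg, inv_mul_le_iff₀ (Real.exp_pos _)]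
      nlinarith
    have := exp_third_le
    nlinarith

end Crest.Agent.H8TE
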