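import Crest.Agent.H8.TruncExpC

set_option autoImplicit false

open MeasureTheory Set Filter Topology
open scoped ENNReal

namespace Crest.Agent.H8TE

theorem main_real {G : ℝ → ℝ} (hpos : ∀ y, 0 < G y) (hle : ∀ y, G y ≤ 1) (hanti : Antitone G)
    (hPF : ∀ x y z w : ℝ, x + w = y + z → x ≤ y → x ≤ z → G x * G w ≤ G y * G z)
    (hstrict : ∃ y0 < 0, G 0 < G y0)
    (hint : ∀ c : ℝ, Integrable (fun y => G y - (Iic c).indicator 1 y))
    (hmean : ∀ c : ℝ, ∫ y, (G y - (Iic c).indicator 1 y) = 4 / 3 - c) :
    4 / 9 * Real.exp (-(1/3)) ≤ ∫ y, phi y * G y := by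
  set L : ℝ → ℝ := fun y => Real.log (G y) with hL
  have hGL : ∀ y, G y = Real.exp (L y) := fun y => (Real.exp_log (hpos y)).symm
  have hLanti : Antitone L := fun x y h => Real.log_le_log (hpos y) (hanti h)
  have hL0 : ∀ y, L y ≤ 0 := fun y => Real.log_nonpos (hpos y).le (hle y)
  have hW : ∀ x y z w : ℝ, x + w = y + z → x ≤ y → x ≤ z → L x + L w ≤ L y + L z := by
    intro x y z w h1 h2 h3
    have := Real.log_le_log (mul_pos (hpos x) (hpos w)) (hPF x y z w h1 h2 h3)
    rwa [Real.log_mul (hpos x).ne' (hpos w).ne', Real.log_mul (hpos y).ne' (hpos z).ne'] at this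
  have hLc : Continuous L := continuous_of_wright hLanti hW
  have hconc : ConcaveOn ℝ univ L := concave_of_midpoint hLc fun y δ hδ => by
    have := hW (y - δ) y y (y + δ) (by ring) (by linarith) (by linarith)
    linarith
  obtain ⟨y0, hy0, hGy0⟩ := hstrict
  set σ : ℝ := (L y0 - L 0) / (0 - y0) with hσ
  have hσ0 : 0 < σ := div_pos (sub_pos.mpr (Real.log_lt_log (hpos 0) hGy0)) (by linarith)
  have hslope : ∀ u v : ℝ, 0 < u → u < v → σ * (v - u) ≤ L u - L v := by
    intro u v hu huv
    have h1 := hconc.slope_anti_adjacent (mem_univ y0) (mem_univ u) hy0 hu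
    have h2 := hconc.slope_anti_adjacent (mem_univ 0) (mem_univ v) hu huv
    have h3 : (L 0 - L y0) / (0 - y0) = -σ := by rw [hσ]; ring
    have h4 : (L v - L u) / (v - u) ≤ -σ := by linarith
    rw [div_le_iff₀ (by linarith)] at h4
    linarith
  have hGm : Measurable G := hanti.measurable
  -- integrals against comparison functions
  have hD : ∀ t a : ℝ, 0 < a → Integrable (fun y => G y - Kf t a y) ∧
      ∫ y, (G y - Kf t a y) = 4 / 3 - t - a := by
    intro t a ha
    have he : (fun y => G y - Kf t a y) = fun y => (G y - (Iic t).indicator 1 y) -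
        (Kf t a y - (Iic t).indicator 1 y) := by funext y; ring
    rw [he]
    refine ⟨(hint t).sub (Kf_int t ha).1, ?_⟩
    rw [integral_sub (hint t) (Kf_int t ha).1, hmean, (Kf_int t ha).2]
  have hφG := phi_mul_integrable hGm (fun y => (hpos y).le) hle
  have hφK := fun t a => phi_mul_integrable (Kf_cont t a).measurable (Kf_nonneg t a) (Kf_le_one t a)
  -- the parametrisation
  set U : ℝ → ℝ := fun d => d / (Real.exp d - 1) with hU
  set A : ℝ → ℝ := fun d => d / (L (U d) - L (U d + d)) with hA
  set T : ℝ → ℝ := fun d => U d + A d * L (U d) with hT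
  set h : ℝ → ℝ := fun d => T d + A d - 4 / 3 with hh
  have hexp1 : ∀ d : ℝ, 0 < d → 0 < Real.exp d - 1 := fun d hd => by
    linarith [Real.add_one_lt_exp hd.ne']
  have hU0 : ∀ d, 0 < d → 0 < U d := fun d hd => div_pos hd (hexp1 d hd)
  have hden : ∀ d, 0 < d → σ * d ≤ L (U d) - L (U d + d) := fun d hd => by
    have := hslope (U d) (U d + d) (hU0 d hd) (by linarith)
    simpa using this
  have hden0 : ∀ d, 0 < d → 0 < L (U d) - L (U d + d) := fun d hd =>
    lt_of_lt_of_le (mul_pos hσ0 hd) (hden d hd)
  have hA0 : ∀ d, 0 < d → 0 < A d := fun d hd => div_pos hd (hden0 d hd)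
  have hA1 : ∀ d, 0 < d → A d ≤ 1 / σ := fun d hd => by
    simp only [hA]
    rw [div_le_div_iff₀ (hden0 d hd) hσ0]
    linarith [hden d hd]
  have hphiU : ∀ d, 0 < d → phi (U d) = phi (U d + d) := fun d hd => by
    have h1 : U d * Real.exp d = U d + d := by
      have := (hexp1 d hd).ne'
      simp only [hU]; field_simp; ring
    rw [phi_of_pos (hU0 d hd).le, phi_of_pos (by linarith [hU0 d hd]), ← h1, mul_assoc,
      ← Real.exp_add, h1]
    congr 2; ring
  have key : ∀ d, 0 < d →
      (0 ≤ h d → 4 / 9 * Real.exp (-(1/3)) - phi (U d) * h d ≤ ∫ y, phi y * G y) ∧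
      (h d ≤ 0 → 4 / 9 * Real.exp (-(1/3)) - d ≤ ∫ y, phi y * G y) := by
    intro d hd
    set u := U d with hu
    set a := A d with ha
    set t := T d with ht
    have hu0 : 0 < u := hU0 d hd
    have ha0 : 0 < a := hA0 d hd
    have huv : u < u + d := by linarith
    have hhd : h d = t + a - 4 / 3 := rfl
    have hconc2 : ConcaveOn ℝ univ (fun y => L y + (y - t) / a) := by
      refine hconc.add ?_
      refine concaveOn_of_slope_anti_adjacent convex_univ fun {x y z} _ _ hxy hyz => ?_
      have e1 : y - x ≠ 0 := by linarith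
      have e2 : z - y ≠ 0 := by linarith
      apply le_of_eq
      field_simp
      ring
    have hfu : L u + (u - t) / a = 0 := by
      have : t = u + a * L u := rfl
      rw [this]; field_simp; ring
    have hfv : L (u + d) + (u + d - t) / a = 0 := by
      have e1 : t = u + a * L u := rfl
      have e2 : a = d / (L u - L (u + d)) := rfl
      have e3 : L u - L (u + d) ≠ 0 := (hden0 d hd).ne'
      have e4 : d / a = L u - L (u + d) := by rw [e2]; field_simp
      have e5 : (u + d - t) / a = d / a - L u := by rw [e1]; field_simp; ring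
      rw [e5, e4]; ring
    have hsign : ∀ y, (y ∈ Icc u (u + d) → Kf t a y ≤ G y) ∧ (y ∉ Icc u (u + d) → G y ≤ Kf t a y) := by
      intro y
      have := three_point hconc2 (mem_univ u) (mem_univ (u + d)) huv (by simp only [hfu, hfv])
        (mem_univ y)
      simp only [hfu] at this
      constructor
      · intro hy
        refine (min_le_right _ _).trans ?_
        rw [hGL y]
        exact Real.exp_le_exp.mpr (by linarith [this.1 hy])
      · intro hy
        refine le_min (hle y) ?_
        rw [hGL y]
        exact Real.exp_le_exp.mpr (by linarith [this.2 hy])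
    have hlev := phi_level hu0 huv (hphiU d hd)
    obtain ⟨hD1, hD2⟩ := hD t a ha0
    obtain ⟨hE1, hE2⟩ := hD (4 / 3 - a) a ha0
    have hI1 : phi u * (4 / 3 - t - a) ≤ (∫ y, phi y * G y) - ∫ y, phi y * Kf t a y := by
      rw [← integral_sub hφG (hφK t a), ← hD2, ← integral_const_mul]
      refine integral_mono (hD1.const_mul _) (hφG.sub (hφK t a)) fun y => ?_
      simp only
      by_cases hy : y ∈ Icc u (u + d)
      · nlinarith [(hsign y).1 hy, (hlev y).1 hy]
      · nlinarith [(hsign y).2 hy, (hlev y).2 hy]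
    have hJ := J_bound ha0
    constructor
    · intro h0
      have h1 : ∫ y, phi y * Kf (4 / 3 - a) a y ≤ ∫ y, phi y * Kf t a y :=
        integral_mono (hφK _ _) (hφK _ _) fun y =>
          mul_le_mul_of_nonneg_left (Kf_mono ha0 (by linarith) y) (phi_nonneg y)
      rw [hhd]
      linarith
    · intro h0
      have h1 : (∫ y, phi y * Kf (4 / 3 - a) a y) - ∫ y, phi y * Kf t a y ≤ 4 / 3 - t - a := by
        have e : 4 / 3 - t - a = (∫ y, (G y - Kf t a y)) - ∫ y, (G y - Kf (4 / 3 - a) a y) := by
          rw [hD2, hE2]; ring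
        rw [e, ← integral_sub hD1 hE1, ← integral_sub (hφK _ _) (hφK _ _)]
        refine integral_mono ((hφK _ _).sub (hφK _ _)) (hD1.sub hE1) fun y => ?_
        simp only
        have := Kf_mono ha0 (show t ≤ 4 / 3 - a by linarith) y
        nlinarith [phi_le_one y]
      have h2 : 4 / 3 - t - a ≤ d := by
        have e : d = ∫ y, (Icc u (u + d)).indicator (1 : ℝ → ℝ) y := by
          rw [integral_indicator_one measurableSet_Icc, Real.volume_real_Icc_of_le huv.le]; ring
        rw [← hD2]
        refine le_of_le_of_eq ?_ e.symm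
        refine integral_mono hD1 ?_ fun y => ?_
        · rw [integrable_indicator_iff measurableSet_Icc]
          exact continuous_const.integrableOn_Icc
        · simp only
          by_cases hy : y ∈ Icc u (u + d)
          · rw [indicator_of_mem hy]
            simp only [Pi.one_apply]
            linarith [hle y, Kf_nonneg t a y]
          · rw [indicator_of_notMem hy]
            linarith [(hsign y).2 hy]
      have h3 : 0 ≤ phi u * (4 / 3 - t - a) := mul_nonneg (phi_nonneg _) (by linarith)
      linarith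
  by_contra hcon
  push Not at hcon
  set ε := 4 / 9 * Real.exp (-(1/3)) - ∫ y, phi y * G y with hε
  have hε0 : 0 < ε := by linarith
  have hd1 : 0 < h (ε / 2) := by
    by_contra h0
    have := (key (ε / 2) (by linarith)).2 (not_lt.mp h0)
    linarith
  set d2 : ℝ := max (max 2 (ε / 2)) (4 * (1 + 1 / σ) / ε) with hd2def
  have hd22 : 2 ≤ d2 := (le_max_left _ _).trans (le_max_left _ _)
  have hd2e : ε / 2 ≤ d2 := (le_max_right _ _).trans (le_max_left _ _)
  have hd2s : 4 * (1 + 1 / σ) / ε ≤ d2 := le_max_right _ _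
  have hd20 : 0 < d2 := by linarith
  have hd2 : h d2 < 0 := by
    by_contra h0
    push Not at h0
    have h1 := (key d2 hd20).1 h0
    have hU2 : U d2 ≤ 2 / d2 := by
      simp only [hU]
      rw [div_le_div_iff₀ (hexp1 _ hd20) hd20]
      nlinarith [Real.quadratic_le_exp_of_nonneg hd20.le]
    have hU3 : U d2 ≤ 1 := hU2.trans (by rw [div_le_one hd20]; exact hd22)
    have h2 : phi (U d2) ≤ U d2 := by
      rw [phi_of_pos (hU0 _ hd20).le]
      exact mul_le_of_le_one_right (hU0 _ hd20).le
        (Real.exp_le_one_iff.mpr (by linarith [hU0 _ hd20]))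
    have h3 : h d2 ≤ 1 + 1 / σ := by
      have : A d2 * L (U d2) ≤ 0 := mul_nonpos_of_nonneg_of_nonpos (hA0 _ hd20).le (hL0 _)
      simp only [hh, hT]
      linarith [hA1 _ hd20]
    have h4 : phi (U d2) * h d2 ≤ 2 / d2 * (1 + 1 / σ) :=
      mul_le_mul (h2.trans hU2) h3 h0 (by positivity)
    have h5 : 2 / d2 * (1 + 1 / σ) ≤ ε / 2 := by
      rw [div_le_iff₀ hε0] at hd2s
      rw [div_mul_eq_mul_div, div_le_iff₀ hd20]
      linarith
    linarith
  have hcont : ContinuousOn h (Icc (ε / 2) d2) := by
    have hp : ∀ d ∈ Icc (ε / 2) d2, 0 < d := fun d hd => by linarith [hd.1]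
    have hUc : ContinuousOn U (Icc (ε / 2) d2) :=
      continuousOn_id.div (by fun_prop) fun d hd => (hexp1 d (hp d hd)).ne'
    have hLU : ContinuousOn (fun d => L (U d)) (Icc (ε / 2) d2) := hLc.comp_continuousOn hUc
    have hLV : ContinuousOn (fun d => L (U d + d)) (Icc (ε / 2) d2) :=
      hLc.comp_continuousOn (hUc.add continuousOn_id)
    have hAc : ContinuousOn A (Icc (ε / 2) d2) :=
      continuousOn_id.div (hLU.sub hLV) fun d hd => (hden0 d (hp d hd)).ne'
    exact ((hUc.add (hAc.mul hLU)).add hAc).sub continuousOn_const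
  obtain ⟨d, hd, hd0⟩ := intermediate_value_Icc' hd2e hcont ⟨hd2.le, hd1.le⟩
  have := (key d (by linarith [hd.1])).1 hd0.ge
  rw [hd0] at this
  linarith

section Fubini

variable {Ω : Type*} [MeasurableSpace Ω] (μ : Measure Ω) [IsProbabilityMeasure μ]

lemma fub_mean {Z : Ω → ℝ} (hZ : Measurable Z) (hi : Integrable Z μ) (c : ℝ) :
    Integrable (fun y => μ.real {x | y < Z x} - (Iic c).indicator 1 y) ∧
      ∫ y, (μ.real {x | y < Z x} - (Iic c).indicator 1 y) = (∫ x, Z x ∂μ) - c := by
  set f : Ω → ℝ → ℝ := fun x y => (Iio (Z x)).indicator 1 y - (Iic c).indicator 1 y with hf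
  have hfe : ∀ x, f x = fun y => (Ioo c (Z x)).indicator (1 : ℝ → ℝ) y - (Icc (Z x) c).indicator 1 y := by
    intro x
    funext y
    simp only [hf, indicator, mem_Iio, mem_Iic, mem_Ioo, mem_Icc, Pi.one_apply]
    by_cases h1 : y < Z x <;> by_cases h2 : y ≤ c
    · rw [if_pos h1, if_pos h2, if_neg (fun h => absurd h.1 (not_lt.mpr h2)),
        if_neg (fun h => absurd h.1 (not_le.mpr h1))]; ring
    · rw [if_pos h1, if_neg h2, if_pos ⟨not_le.mp h2, h1⟩, if_neg (fun h => h2 h.2)]
    · rw [if_neg h1, if_pos h2, if_neg (fun h => h1 h.2), if_pos ⟨not_lt.mp h1, h2⟩]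
    · rw [if_neg h1, if_neg h2, if_neg (fun h => h1 h.2), if_neg (fun h => h2 h.2)]
  have hmeas : Measurable (Function.uncurry f) := by
    have h1 : MeasurableSet {p : Ω × ℝ | p.2 < Z p.1} :=
      measurableSet_lt measurable_snd (hZ.comp measurable_fst)
    have h2 : MeasurableSet {p : Ω × ℝ | p.2 ≤ c} := measurableSet_le measurable_snd measurable_const
    have : Function.uncurry f = fun p => {p : Ω × ℝ | p.2 < Z p.1}.indicator (1 : Ω × ℝ → ℝ) p -
        {p : Ω × ℝ | p.2 ≤ c}.indicator 1 p := by
      funext p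
      simp [hf, Function.uncurry, indicator]
    rw [this]
    exact (measurable_one.indicator h1).sub (measurable_one.indicator h2)
  have hI1 : ∀ x, Integrable ((Ioo c (Z x)).indicator (1 : ℝ → ℝ)) := fun x => by
    rw [integrable_indicator_iff measurableSet_Ioo]
    exact (continuous_const.integrableOn_Icc).mono_set Ioo_subset_Icc_self
  have hI2 : ∀ x, Integrable ((Icc (Z x) c).indicator (1 : ℝ → ℝ)) := fun x => by
    rw [integrable_indicator_iff measurableSet_Icc]
    exact continuous_const.integrableOn_Icc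
  have hv1 : ∀ x, ∫ y, (Ioo c (Z x)).indicator (1 : ℝ → ℝ) y = max (Z x - c) 0 := fun x => by
    rw [integral_indicator_one measurableSet_Ioo, Real.volume_real_Ioo]
  have hv2 : ∀ x, ∫ y, (Icc (Z x) c).indicator (1 : ℝ → ℝ) y = max (c - Z x) 0 := fun x => by
    rw [integral_indicator_one measurableSet_Icc, Real.volume_real_Icc]
  have hsl : ∀ x, Integrable (f x) := fun x => by rw [hfe]; exact (hI1 x).sub (hI2 x)
  have hprod : Integrable (Function.uncurry f) (μ.prod volume) := by
    rw [integrable_prod_iff hmeas.aestronglyMeasurable]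
    refine ⟨Eventually.of_forall hsl, ?_⟩
    refine Integrable.mono' ((hi.sub (integrable_const c)).abs.const_mul 2)
      (hmeas.norm.stronglyMeasurable.integral_prod_right').aestronglyMeasurable
      (Eventually.of_forall fun x => ?_)
    rw [Real.norm_eq_abs, abs_of_nonneg (integral_nonneg fun y => norm_nonneg _)]
    have h1 : ∫ y, ‖Function.uncurry f (x, y)‖ ≤
        ∫ y, ((Ioo c (Z x)).indicator (1 : ℝ → ℝ) y + (Icc (Z x) c).indicator 1 y) := by
      refine integral_mono (hsl x).norm ((hI1 x).add (hI2 x)) fun y => ?_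
      simp only [Function.uncurry, hfe]
      refine (norm_sub_le _ _).trans (le_of_eq ?_)
      have hnn : ∀ s : Set ℝ, 0 ≤ s.indicator (1 : ℝ → ℝ) y := fun s =>
        indicator_nonneg (fun _ _ => zero_le_one) _
      rw [Real.norm_of_nonneg (hnn _), Real.norm_of_nonneg (hnn _)]
    rw [integral_add (hI1 x) (hI2 x), hv1, hv2] at h1
    refine h1.trans ?_
    simp only [Pi.sub_apply]
    have a1 : max (Z x - c) 0 ≤ |Z x - c| := max_le (le_abs_self _) (abs_nonneg _)
    have a2 : max (c - Z x) 0 ≤ |Z x - c| := max_le (by linarith [neg_abs_le (Z x - c)]) (abs_nonneg _)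
    linarith
  have hin : ∀ y, ∫ x, f x y ∂μ = μ.real {x | y < Z x} - (Iic c).indicator 1 y := by
    intro y
    have hms : MeasurableSet {x | y < Z x} := measurableSet_lt measurable_const hZ
    have e : (fun x => f x y) = fun x => {x | y < Z x}.indicator (1 : Ω → ℝ) x -
        (Iic c).indicator 1 y := by
      funext x
      simp [hf, indicator]
    have hI : Integrable ({x | y < Z x}.indicator (1 : Ω → ℝ)) μ :=
      (integrable_const (1:ℝ)).indicator hms
    rw [e, integral_sub hI (integrable_const _), integral_indicator_one hms]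
    simp
  have e2 : (fun y => μ.real {x | y < Z x} - (Iic c).indicator 1 y) = fun y => ∫ x, f x y ∂μ :=
    (funext hin).symm
  rw [e2]
  refine ⟨hprod.integral_prod_right, ?_⟩
  rw [← integral_integral_swap hprod]
  have e3 : ∀ x, ∫ y, f x y = Z x - c := fun x => by
    rw [hfe, integral_sub (hI1 x) (hI2 x), hv1, hv2]
    rcases le_total (Z x) c with h | h
    · rw [max_eq_right (by linarith), max_eq_left (by linarith)]; ring
    · rw [max_eq_left (by linarith), max_eq_right (by linarith)]; ring
  simp only [e3]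
  rw [integral_sub hi (integrable_const c)]
  simp

lemma fub_phi {Z : Ω → ℝ} (hZ : Measurable Z) :
    ∫ x, (∫ y in Iio (Z x), phi y) ∂μ = ∫ y, phi y * μ.real {x | y < Z x} := by
  set f : Ω → ℝ → ℝ := fun x y => (Iio (Z x)).indicator phi y with hf
  have h1 : MeasurableSet {p : Ω × ℝ | p.2 < Z p.1} :=
    measurableSet_lt measurable_snd (hZ.comp measurable_fst)
  have hmeas : Measurable (Function.uncurry f) := by
    have : Function.uncurry f = {p : Ω × ℝ | p.2 < Z p.1}.indicator (fun p => phi p.2) := by
      funext p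
      simp [hf, Function.uncurry, indicator]
    rw [this]
    exact (phi_cont.measurable.comp measurable_snd).indicator h1
  have hprod : Integrable (Function.uncurry f) (μ.prod volume) := by
    refine Integrable.mono' ((integrable_const (μ := μ) (1:ℝ)).mul_prod phi_integrable)
      hmeas.aestronglyMeasurable (Eventually.of_forall fun p => ?_)
    simp only [Function.uncurry, hf, one_mul]
    rw [Real.norm_of_nonneg (indicator_nonneg (fun _ _ => phi_nonneg _) _)]
    exact indicator_le_self' (fun _ _ => phi_nonneg _) _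
  have e1 : ∀ x, ∫ y in Iio (Z x), phi y = ∫ y, f x y := fun x =>
    (integral_indicator measurableSet_Iio).symm
  simp only [e1]
  rw [integral_integral_swap hprod]
  refine integral_congr_ae (Eventually.of_forall fun y => ?_)
  have hms : MeasurableSet {x | y < Z x} := measurableSet_lt measurable_const hZ
  have e : (fun x => f x y) = fun x => phi y * {x | y < Z x}.indicator (1 : Ω → ℝ) x := by
    funext x
    by_cases h : y < Z x <;> simp [hf, indicator, h]
  simp only
  rw [e, integral_const_mul, integral_indicator_one hms]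

end Fubini

lemma phi_Iio (z : ℝ) : ∫ y in Iio z, phi y =
    1 - (if z ≤ 0 then 1 else (1 + z) * Real.exp (-z)) := by
  split_ifs with hz
  · rw [setIntegral_congr_fun measurableSet_Iio (g := fun _ => 0)
      (fun y hy => phi_of_nonpos (le_of_lt (lt_of_lt_of_le hy hz)))]
    simp
  · push Not at hz
    have h1 := integral_add_compl (measurableSet_Iio (a := z)) phi_integrable
    have h2 : ∫ y, phi y = 1 := by
      have := integral_phi_mul (fun _ => 1)
      simp only [mul_one] at this
      rw [this, (phi_Ioi le_rfl).2]; simp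
    rw [compl_Iio, integral_Ici_eq_integral_Ioi, (phi_Ioi hz.le).2, h2] at h1
    linarith

end Crest.Agent.H8TE
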